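import Mathlib

set_option linter.unusedSectionVars false

/-!
# Finite product Bernoulli measures: the abstract probability core for P230
-/

namespace CovB

open Finset

noncomputable section

variable {Ω : Type*} [Fintype Ω] [DecidableEq Ω]

/-- Weight of the subset `A` in the product Bernoulli measure with parameters `p`. -/
def wt (p : Ω → ℝ) (A : Finset Ω) : ℝ := ∏ ω, if ω ∈ A then p ω else 1 - p ω

/-- Probability of a set of subsets. -/
def Pr (p : Ω → ℝ) (F : Set (Finset Ω)) : ℝ := ∑ A : Finset Ω, Set.indicator F (wt p) A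

/-- Total mass of a set of points. -/
def mass (p : Ω → ℝ) (E : Finset Ω) : ℝ := ∑ ω ∈ E, p ω

/-- The event that the random set meets `E`. -/
def hit (E : Finset Ω) : Set (Finset Ω) := {A | (A ∩ E).Nonempty}

/-- The event that the random set meets each member of the family `C`. -/
def hitAll (C : Finset (Finset Ω)) : Set (Finset Ω) := {A | ∀ E ∈ C, (A ∩ E).Nonempty}

/-- The event `F` depends only on the trace of the random set on `S`. -/
def Dep (F : Set (Finset Ω)) (S : Finset Ω) : Prop :=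
  ∀ A B : Finset Ω, A ∩ S = B ∩ S → (A ∈ F ↔ B ∈ F)

variable {p : Ω → ℝ}

/-! ### Generating function -/

theorem sum_prod_ite (f g : Ω → ℝ) :
    ∑ A : Finset Ω, (∏ ω, if ω ∈ A then f ω else g ω) = ∏ ω, (f ω + g ω) := by
  classical
  rw [Finset.prod_add]
  rw [Finset.powerset_univ]
  refine Finset.sum_congr rfl fun A _ => ?_
  rw [Finset.prod_ite]
  congr 1
  · refine Finset.prod_congr ?_ fun _ _ => rfl
    ext ω; simp
  · refine Finset.prod_congr ?_ fun _ _ => rfl
    ext ω; simp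

theorem sum_wt : ∑ A : Finset Ω, wt p A = 1 := by
  unfold wt
  rw [sum_prod_ite]
  simp

theorem wt_nonneg (hp0 : ∀ ω, 0 ≤ p ω) (hp1 : ∀ ω, p ω ≤ 1) (A : Finset Ω) : 0 ≤ wt p A := by
  unfold wt
  refine Finset.prod_nonneg fun ω _ => ?_
  split_ifs
  · exact hp0 ω
  · linarith [hp1 ω]

theorem wt_mul (A B : Finset Ω) : wt p A * wt p B = wt p (A ∩ B) * wt p (A ∪ B) := by
  unfold wt
  rw [← Finset.prod_mul_distrib, ← Finset.prod_mul_distrib]
  refine Finset.prod_congr rfl fun ω _ => ?_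
  by_cases hA : ω ∈ A <;> by_cases hB : ω ∈ B <;> simp [hA, hB, mul_comm]

/-! ### Basic rules -/

theorem Pr_univ : Pr p Set.univ = 1 := by
  unfold Pr
  simp only [Set.indicator_univ]
  exact sum_wt

theorem Pr_nonneg (hp0 : ∀ ω, 0 ≤ p ω) (hp1 : ∀ ω, p ω ≤ 1) (F : Set (Finset Ω)) :
    0 ≤ Pr p F :=
  Finset.sum_nonneg fun A _ => Set.indicator_nonneg (fun A _ => wt_nonneg hp0 hp1 A) A

theorem Pr_mono (hp0 : ∀ ω, 0 ≤ p ω) (hp1 : ∀ ω, p ω ≤ 1) {F G : Set (Finset Ω)} (h : F ⊆ G) :
    Pr p F ≤ Pr p G :=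
  Finset.sum_le_sum fun A _ =>
    Set.indicator_le_indicator_of_subset h (fun A => wt_nonneg hp0 hp1 A) A

theorem Pr_le_one (hp0 : ∀ ω, 0 ≤ p ω) (hp1 : ∀ ω, p ω ≤ 1) (F : Set (Finset Ω)) :
    Pr p F ≤ 1 := by
  rw [← Pr_univ (p := p)]
  exact Pr_mono hp0 hp1 (Set.subset_univ F)

theorem Pr_empty : Pr p (∅ : Set (Finset Ω)) = 0 := by
  unfold Pr
  simp

theorem Pr_union_add_inter (F G : Set (Finset Ω)) :
    Pr p (F ∪ G) + Pr p (F ∩ G) = Pr p F + Pr p G := by
  unfold Pr
  rw [← Finset.sum_add_distrib, ← Finset.sum_add_distrib]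
  refine Finset.sum_congr rfl fun A _ => ?_
  exact Set.indicator_union_add_inter_apply (wt p) F G A

theorem Pr_union_le (hp0 : ∀ ω, 0 ≤ p ω) (hp1 : ∀ ω, p ω ≤ 1) (F G : Set (Finset Ω)) :
    Pr p (F ∪ G) ≤ Pr p F + Pr p G := by
  have h := Pr_union_add_inter (p := p) F G
  have h2 := Pr_nonneg hp0 hp1 (F ∩ G)
  linarith

theorem Pr_compl (F : Set (Finset Ω)) : Pr p Fᶜ = 1 - Pr p F := by
  have h := Pr_union_add_inter (p := p) F Fᶜ
  rw [Set.union_compl_self, Set.inter_compl_self, Pr_univ, Pr_empty] at h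
  linarith

theorem Pr_biUnion_le {ι : Type*} (hp0 : ∀ ω, 0 ≤ p ω) (hp1 : ∀ ω, p ω ≤ 1) (s : Finset ι)
    (F : ι → Set (Finset Ω)) : Pr p (⋃ i ∈ s, F i) ≤ ∑ i ∈ s, Pr p (F i) := by
  classical
  induction s using Finset.induction_on with
  | empty => simp [Pr_empty]
  | insert a s ha ih =>
    rw [Finset.set_biUnion_insert, Finset.sum_insert ha]
    exact (Pr_union_le hp0 hp1 _ _).trans (by linarith)

/-- If every outcome is bad for one of the events, the probabilities sum to at least one; so if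
they sum to less than one some outcome avoids all. -/
theorem exists_not_mem_of_sum_lt {ι : Type*} (hp0 : ∀ ω, 0 ≤ p ω) (hp1 : ∀ ω, p ω ≤ 1)
    (s : Finset ι) (F : ι → Set (Finset Ω)) (h : ∑ i ∈ s, Pr p (F i) < 1) :
    ∃ A : Finset Ω, ∀ i ∈ s, A ∉ F i := by
  by_contra hcon
  push Not at hcon
  have h1 : (⋃ i ∈ s, F i) = Set.univ := by
    refine Set.eq_univ_of_forall fun A => ?_
    obtain ⟨i, hi, hA⟩ := hcon A
    exact Set.mem_biUnion hi hA
  have h2 := Pr_biUnion_le hp0 hp1 s F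
  rw [h1, Pr_univ] at h2
  linarith

/-! ### Expectations -/

/-- Expectation of a real function of the random set. -/
def Ex (p : Ω → ℝ) (f : Finset Ω → ℝ) : ℝ := ∑ A : Finset Ω, wt p A * f A

theorem Ex_indicator (F : Set (Finset Ω)) :
    Ex p (Set.indicator F fun _ => 1) = Pr p F := by
  unfold Ex Pr
  refine Finset.sum_congr rfl fun A _ => ?_
  by_cases hA : A ∈ F <;> simp [hA]

/-! ### Harris inequality -/

theorem harris (hp0 : ∀ ω, 0 ≤ p ω) (hp1 : ∀ ω, p ω ≤ 1) {F G : Set (Finset Ω)}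
    (hF : IsUpperSet F) (hG : IsUpperSet G) : Pr p F * Pr p G ≤ Pr p (F ∩ G) := by
  classical
  have hmono : ∀ {H : Set (Finset Ω)}, IsUpperSet H →
      Monotone (Set.indicator H (fun _ => (1 : ℝ))) := by
    intro H hH A B hAB
    by_cases hA : A ∈ H
    · have hB : B ∈ H := hH hAB hA
      simp [hA, hB]
    · simp only [Set.indicator_of_notMem hA]
      exact Set.indicator_nonneg (fun _ _ => zero_le_one) B
  have h := fkg (α := Finset Ω) (β := ℝ) (μ := wt p) (f := Set.indicator F (fun _ => (1 : ℝ)))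
    (g := Set.indicator G (fun _ => (1 : ℝ)))
    (fun A => wt_nonneg hp0 hp1 A)
    (fun A => Set.indicator_nonneg (fun _ _ => zero_le_one) A)
    (fun A => Set.indicator_nonneg (fun _ _ => zero_le_one) A)
    (hmono hF) (hmono hG) (fun A B => (wt_mul A B).le)
  have e1 : ∀ H : Set (Finset Ω), ∑ A, wt p A * Set.indicator H (fun _ => (1 : ℝ)) A = Pr p H :=
    fun H => Ex_indicator H
  have e2 : ∑ A, wt p A * (Set.indicator F (fun _ => (1 : ℝ)) A *
      Set.indicator G (fun _ => (1 : ℝ)) A) = Pr p (F ∩ G) := by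
    rw [← Ex_indicator]
    unfold Ex
    refine Finset.sum_congr rfl fun A _ => ?_
    congr 1
    by_cases hA : A ∈ F <;> by_cases hB : A ∈ G <;> simp [hA, hB]
  rw [e1, e1, e2, sum_wt, one_mul] at h
  exact h

theorem isUpperSet_hit (E : Finset Ω) : IsUpperSet (hit E) := by
  intro A B hAB hA
  exact hA.mono (Finset.inter_subset_inter_right hAB)

theorem isUpperSet_hitAll (C : Finset (Finset Ω)) : IsUpperSet (hitAll C) := by
  intro A B hAB hA E hE
  exact (hA E hE).mono (Finset.inter_subset_inter_right hAB)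

theorem harris_biInter {ι : Type*} (hp0 : ∀ ω, 0 ≤ p ω) (hp1 : ∀ ω, p ω ≤ 1) (s : Finset ι)
    (F : ι → Set (Finset Ω)) (hF : ∀ i ∈ s, IsUpperSet (F i)) :
    ∏ i ∈ s, Pr p (F i) ≤ Pr p (⋂ i ∈ s, F i) := by
  classical
  induction s using Finset.induction_on with
  | empty => simp [Pr_univ]
  | insert a s ha ih =>
    rw [Finset.set_biInter_insert, Finset.prod_insert ha]
    have ih' := ih fun i hi => hF i (Finset.mem_insert_of_mem hi)
    refine (mul_le_mul_of_nonneg_left ih' (Pr_nonneg hp0 hp1 _)).trans ?_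
    refine harris hp0 hp1 (hF a (Finset.mem_insert_self a s)) ?_
    refine isUpperSet_iInter₂ fun i hi => hF i (Finset.mem_insert_of_mem hi)

theorem hitAll_eq (C : Finset (Finset Ω)) : hitAll C = ⋂ E ∈ C, hit E := by
  ext A; simp [hitAll, hit]

theorem prod_le_Pr_hitAll (hp0 : ∀ ω, 0 ≤ p ω) (hp1 : ∀ ω, p ω ≤ 1) (C : Finset (Finset Ω)) :
    ∏ E ∈ C, Pr p (hit E) ≤ Pr p (hitAll C) := by
  rw [hitAll_eq]
  exact harris_biInter hp0 hp1 C hit fun E _ => isUpperSet_hit E

/-! ### Probability of a hit -/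

theorem Pr_miss (E : Finset Ω) : Pr p (hit E)ᶜ = ∏ ω ∈ E, (1 - p ω) := by
  classical
  have h1 : ∀ A : Finset Ω, Set.indicator (hit E)ᶜ (wt p) A
      = ∏ ω, if ω ∈ A then (if ω ∈ E then 0 else p ω) else 1 - p ω := by
    intro A
    by_cases hA : A ∈ hit E
    · rw [Set.indicator_of_notMem (by simpa using hA)]
      obtain ⟨ω, hω⟩ := hA
      rw [Finset.mem_inter] at hω
      symm
      refine Finset.prod_eq_zero (Finset.mem_univ ω) ?_
      simp [hω.1, hω.2]
    · rw [Set.indicator_of_mem (by simpa using hA)]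
      unfold wt
      refine Finset.prod_congr rfl fun ω _ => ?_
      by_cases hω : ω ∈ A
      · have : ω ∉ E := by
          intro hE
          exact hA ⟨ω, Finset.mem_inter.mpr ⟨hω, hE⟩⟩
        simp [hω, this]
      · simp [hω]
  unfold Pr
  rw [Finset.sum_congr rfl fun A _ => h1 A, sum_prod_ite]
  rw [← Finset.prod_subset (Finset.subset_univ E)]
  · refine Finset.prod_congr rfl fun ω hω => ?_
    simp [hω]
  · intro ω _ hω
    simp [hω]

theorem Pr_hit (E : Finset Ω) : Pr p (hit E) = 1 - ∏ ω ∈ E, (1 - p ω) := by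
  have h := Pr_compl (p := p) (hit E)
  rw [Pr_miss] at h
  linarith

theorem one_sub_exp_le_Pr_hit (hp1 : ∀ ω, p ω ≤ 1) (E : Finset Ω) :
    1 - Real.exp (-mass p E) ≤ Pr p (hit E) := by
  rw [Pr_hit]
  have h : ∏ ω ∈ E, (1 - p ω) ≤ Real.exp (-mass p E) := by
    unfold mass
    rw [← Finset.sum_neg_distrib, Real.exp_sum]
    refine Finset.prod_le_prod (fun ω _ => by linarith [hp1 ω]) fun ω _ => ?_
    exact Real.one_sub_le_exp_neg (p ω)
  linarith

/-- `1 - e^{-x} ≥ (1 - e^{-1}) x ≥ x/2` on `[0,1]`. -/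
theorem half_le_Pr_hit (hp1 : ∀ ω, p ω ≤ 1) (E : Finset Ω) {x : ℝ} (hx0 : 0 ≤ x)
    (hx1 : x ≤ 1) (hx : x ≤ mass p E) : x / 2 ≤ Pr p (hit E) := by
  refine le_trans ?_ (one_sub_exp_le_Pr_hit hp1 E)
  have h1 : Real.exp (-mass p E) ≤ Real.exp (-x) := Real.exp_le_exp.mpr (by linarith)
  have h2 : Real.exp (-x) ≤ 1 / (1 + x) := by
    rw [Real.exp_neg, ← one_div]
    exact one_div_le_one_div_of_le (by linarith) (by linarith [Real.add_one_le_exp x])
  have h3 : 1 / (1 + x) ≤ 1 - x / 2 := by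
    rw [div_le_iff₀ (by linarith)]
    nlinarith
  linarith

theorem Pr_hit_mono (hp0 : ∀ ω, 0 ≤ p ω) (hp1 : ∀ ω, p ω ≤ 1) {E E' : Finset Ω} (h : E ⊆ E') :
    Pr p (hit E) ≤ Pr p (hit E') :=
  Pr_mono hp0 hp1 fun _ hA => hA.mono (Finset.inter_subset_inter_left h)

/-! ### Independence -/

theorem Dep.mono {F : Set (Finset Ω)} {S T : Finset Ω} (hF : Dep F S) (hST : S ⊆ T) :
    Dep F T := by
  intro A B hAB
  refine hF A B ?_
  have h := congrArg (fun X => X ∩ S) hAB
  simp only [Finset.inter_assoc, Finset.inter_eq_right.mpr hST] at h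
  exact h

theorem Dep.inter {F G : Set (Finset Ω)} {S T : Finset Ω} (hF : Dep F S) (hG : Dep G T) :
    Dep (F ∩ G) (S ∪ T) := by
  intro A B hAB
  have h1 := hF.mono (Finset.subset_union_left (s₂ := T)) A B hAB
  have h2 := hG.mono (Finset.subset_union_right (s₁ := S)) A B hAB
  simp only [Set.mem_inter_iff]
  rw [h1, h2]

theorem Dep.biInter {ι : Type*} (s : Finset ι) (F : ι → Set (Finset Ω)) (S : ι → Finset Ω)
    (h : ∀ i ∈ s, Dep (F i) (S i)) : Dep (⋂ i ∈ s, F i) (s.biUnion S) := by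
  intro A B hAB
  simp only [Set.mem_iInter]
  refine forall₂_congr fun i hi => ?_
  exact (h i hi).mono (Finset.subset_biUnion_of_mem S hi) A B hAB

theorem Dep.compl {F : Set (Finset Ω)} {S : Finset Ω} (hF : Dep F S) : Dep Fᶜ S := by
  intro A B hAB
  simp only [Set.mem_compl_iff]
  rw [hF A B hAB]

theorem dep_hit (E : Finset Ω) : Dep (hit E) E := by
  intro A B hAB
  simp only [hit, Set.mem_ofPred_eq]
  rw [hAB]

theorem dep_hitAll (C : Finset (Finset Ω)) {S : Finset Ω} (h : ∀ E ∈ C, E ⊆ S) :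
    Dep (hitAll C) S := by
  intro A B hAB
  simp only [hitAll, Set.mem_ofPred_eq]
  refine forall₂_congr fun E hE => ?_
  exact ((dep_hit E).mono (h E hE)) A B hAB

theorem sum_split (S : Finset Ω) (h : Finset Ω → ℝ) :
    ∑ A : Finset Ω, h A = ∑ B ∈ S.powerset, ∑ C ∈ Sᶜ.powerset, h (B ∪ C) := by
  classical
  rw [← Finset.sum_product']
  refine Finset.sum_nbij' (fun A => (A ∩ S, A ∩ Sᶜ)) (fun x => x.1 ∪ x.2) ?_ ?_ ?_ ?_ ?_
  · intro A _
    simp only [Finset.mem_product, Finset.mem_powerset]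
    exact ⟨Finset.inter_subset_right, Finset.inter_subset_right⟩
  · intro x _
    exact Finset.mem_univ _
  · intro A _
    ext ω; by_cases hω : ω ∈ S <;> simp [hω]
  · rintro ⟨B, C⟩ hx
    simp only [Finset.mem_product, Finset.mem_powerset] at hx
    refine Prod.ext ?_ ?_
    · ext ω
      simp only [Finset.mem_inter, Finset.mem_union]
      constructor
      · rintro ⟨h1 | h1, h2⟩
        · exact h1
        · exact absurd h2 (Finset.mem_compl.mp (hx.2 h1))
      · intro h1
        exact ⟨Or.inl h1, hx.1 h1⟩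
    · ext ω
      simp only [Finset.mem_inter, Finset.mem_union]
      constructor
      · rintro ⟨h1 | h1, h2⟩
        · exact absurd (hx.1 h1) (Finset.mem_compl.mp h2)
        · exact h1
      · intro h1
        exact ⟨Or.inr h1, hx.2 h1⟩
  · intro A _
    congr 1
    ext ω; by_cases hω : ω ∈ S <;> simp [hω]

/-- Weight of the trace on `S`. -/
def wtOn (p : Ω → ℝ) (S B : Finset Ω) : ℝ := ∏ ω ∈ S, if ω ∈ B then p ω else 1 - p ω

theorem wt_union (S B C : Finset Ω) (hB : B ⊆ S) (hC : C ⊆ Sᶜ) :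
    wt p (B ∪ C) = wtOn p S B * wtOn p Sᶜ C := by
  unfold wt wtOn
  rw [← Finset.prod_mul_prod_compl S]
  congr 1
  · refine Finset.prod_congr rfl fun ω hω => ?_
    have : ω ∉ C := fun h => (Finset.mem_compl.mp (hC h)) hω
    simp [this]
  · refine Finset.prod_congr rfl fun ω hω => ?_
    have : ω ∉ B := fun h => (Finset.mem_compl.mp hω) (hB h)
    simp [this]

theorem Ex_mul_of_dep (S : Finset Ω) (f g : Finset Ω → ℝ)
    (hf : ∀ A B : Finset Ω, A ∩ S = B ∩ S → f A = f B)
    (hg : ∀ A B : Finset Ω, A ∩ Sᶜ = B ∩ Sᶜ → g A = g B) :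
    Ex p (fun A => f A * g A) = Ex p f * Ex p g := by
  classical
  -- total masses
  have hone : (∑ B ∈ S.powerset, wtOn p S B) * (∑ C ∈ Sᶜ.powerset, wtOn p Sᶜ C) = 1 := by
    rw [← sum_wt (p := p), sum_split S, Finset.sum_mul_sum]
    refine Finset.sum_congr rfl fun B hB => Finset.sum_congr rfl fun C hC => ?_
    rw [wt_union S B C (Finset.mem_powerset.mp hB) (Finset.mem_powerset.mp hC)]
  have hfu : ∀ B ∈ S.powerset, ∀ C ∈ Sᶜ.powerset, f (B ∪ C) = f B := by
    intro B hB C hC
    rw [Finset.mem_powerset] at hB hC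
    refine hf _ _ ?_
    ext ω
    simp only [Finset.mem_inter, Finset.mem_union]
    constructor
    · rintro ⟨h1 | h1, h2⟩
      · exact ⟨h1, h2⟩
      · exact absurd h2 (Finset.mem_compl.mp (hC h1))
    · rintro ⟨h1, h2⟩
      exact ⟨Or.inl h1, h2⟩
  have hgu : ∀ B ∈ S.powerset, ∀ C ∈ Sᶜ.powerset, g (B ∪ C) = g C := by
    intro B hB C hC
    rw [Finset.mem_powerset] at hB hC
    refine hg _ _ ?_
    ext ω
    simp only [Finset.mem_inter, Finset.mem_union]
    constructor
    · rintro ⟨h1 | h1, h2⟩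
      · exact absurd (hB h1) (Finset.mem_compl.mp h2)
      · exact ⟨h1, h2⟩
    · rintro ⟨h1, h2⟩
      exact ⟨Or.inr h1, h2⟩
  have e1 : Ex p f = (∑ B ∈ S.powerset, wtOn p S B * f B) *
      (∑ C ∈ Sᶜ.powerset, wtOn p Sᶜ C) := by
    unfold Ex
    rw [sum_split S, Finset.sum_mul_sum]
    refine Finset.sum_congr rfl fun B hB => Finset.sum_congr rfl fun C hC => ?_
    rw [wt_union S B C (Finset.mem_powerset.mp hB) (Finset.mem_powerset.mp hC), hfu B hB C hC]
    ring
  have e2 : Ex p g = (∑ B ∈ S.powerset, wtOn p S B) *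
      (∑ C ∈ Sᶜ.powerset, wtOn p Sᶜ C * g C) := by
    unfold Ex
    rw [sum_split S, Finset.sum_mul_sum]
    refine Finset.sum_congr rfl fun B hB => Finset.sum_congr rfl fun C hC => ?_
    rw [wt_union S B C (Finset.mem_powerset.mp hB) (Finset.mem_powerset.mp hC), hgu B hB C hC]
    ring
  have e3 : Ex p (fun A => f A * g A) = (∑ B ∈ S.powerset, wtOn p S B * f B) *
      (∑ C ∈ Sᶜ.powerset, wtOn p Sᶜ C * g C) := by
    unfold Ex
    rw [sum_split S, Finset.sum_mul_sum]
    refine Finset.sum_congr rfl fun B hB => Finset.sum_congr rfl fun C hC => ?_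
    beta_reduce
    rw [wt_union S B C (Finset.mem_powerset.mp hB) (Finset.mem_powerset.mp hC), hfu B hB C hC,
      hgu B hB C hC]
    ring
  rw [e1, e2, e3]
  linear_combination -((∑ B ∈ S.powerset, wtOn p S B * f B) *
      (∑ C ∈ Sᶜ.powerset, wtOn p Sᶜ C * g C)) * hone

theorem Pr_inter_of_dep {F G : Set (Finset Ω)} {S T : Finset Ω} (hF : Dep F S) (hG : Dep G T)
    (hST : Disjoint S T) : Pr p (F ∩ G) = Pr p F * Pr p G := by
  classical
  have hG' : Dep G Sᶜ := hG.mono (by
    intro ω hω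
    rw [Finset.mem_compl]
    intro h
    exact (Finset.disjoint_left.mp hST h) hω)
  rw [← Ex_indicator, ← Ex_indicator, ← Ex_indicator]
  rw [← Ex_mul_of_dep S]
  · congr 1
    funext A
    by_cases hA : A ∈ F <;> by_cases hB : A ∈ G <;> simp [hA, hB]
  · intro A B hAB
    have := hF A B hAB
    by_cases hA : A ∈ F
    · simp [hA, this.mp hA]
    · have hB : B ∉ F := fun h => hA (this.mpr h)
      simp [hA, hB]
  · intro A B hAB
    have := hG' A B hAB
    by_cases hA : A ∈ G
    · simp [hA, this.mp hA]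
    · have hB : B ∉ G := fun h => hA (this.mpr h)
      simp [hA, hB]

theorem Pr_biInter_of_dep {ι : Type*} (s : Finset ι) (F : ι → Set (Finset Ω))
    (S : ι → Finset Ω) (h : ∀ i ∈ s, Dep (F i) (S i))
    (hdisj : ∀ i ∈ s, ∀ j ∈ s, i ≠ j → Disjoint (S i) (S j)) :
    Pr p (⋂ i ∈ s, F i) = ∏ i ∈ s, Pr p (F i) := by
  classical
  induction s using Finset.induction_on with
  | empty => simp [Pr_univ]
  | insert a s ha ih =>
    rw [Finset.set_biInter_insert, Finset.prod_insert ha]
    rw [← ih (fun i hi => h i (Finset.mem_insert_of_mem hi))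
      (fun i hi j hj => hdisj i (Finset.mem_insert_of_mem hi) j (Finset.mem_insert_of_mem hj))]
    refine Pr_inter_of_dep (h a (Finset.mem_insert_self a s))
      (Dep.biInter s F S fun i hi => h i (Finset.mem_insert_of_mem hi)) ?_
    rw [Finset.disjoint_biUnion_right]
    intro i hi
    refine hdisj a (Finset.mem_insert_self a s) i (Finset.mem_insert_of_mem hi) ?_
    rintro rfl
    exact ha hi

/-! ### The two-point bound -/

/-- The event that the trace on `S` is `W`. -/
def traceEq (S W : Finset Ω) : Set (Finset Ω) := {A | A ∩ S = W}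

theorem dep_traceEq (S W : Finset Ω) : Dep (traceEq S W) S := by
  intro A B hAB
  simp only [traceEq, Set.mem_ofPred_eq]
  rw [hAB]

/-- `hitAll C` forces the sets missed by `W` to be hit outside `S`, on the event that the trace on
`S` is `W`. -/
def hitOut (C : Finset (Finset Ω)) (S W : Finset Ω) : Set (Finset Ω) :=
  hitAll ((C.filter fun E => Disjoint W E).image fun E => E \ S)

theorem hitAll_inter_traceEq_subset (C : Finset (Finset Ω)) (S W : Finset Ω) :
    hitAll C ∩ traceEq S W ⊆ hitOut C S W := by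
  classical
  rintro A ⟨hA, hW⟩ E' hE'
  rw [Finset.mem_image] at hE'
  obtain ⟨E, hE, rfl⟩ := hE'
  rw [Finset.mem_filter] at hE
  obtain ⟨ω, hω⟩ := hA E hE.1
  rw [Finset.mem_inter] at hω
  refine ⟨ω, Finset.mem_inter.mpr ⟨hω.1, Finset.mem_sdiff.mpr ⟨hω.2, ?_⟩⟩⟩
  intro hS
  have hωW : ω ∈ W := by
    rw [← (hW : A ∩ S = W)]
    exact Finset.mem_inter.mpr ⟨hω.1, hS⟩
  exact (Finset.disjoint_left.mp hE.2 hωW) hω.2

theorem hitOut_subset (C : Finset (Finset Ω)) (S W : Finset Ω) :
    hitOut C S W ⊆ hitAll (C.filter fun E => Disjoint W E) := by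
  classical
  intro A hA E hE
  have h := hA (E \ S) (Finset.mem_image_of_mem _ hE)
  exact h.mono (Finset.inter_subset_inter_left Finset.sdiff_subset)

theorem hitAll_union_inter (C₁ C₂ : Finset (Finset Ω)) :
    hitAll (C₁ ∪ C₂) = hitAll C₁ ∩ hitAll C₂ := by
  classical
  ext A
  simp only [hitAll, Set.mem_ofPred_eq, Finset.mem_union, Set.mem_inter_iff]
  constructor
  · intro h
    exact ⟨fun E hE => h E (Or.inl hE), fun E hE => h E (Or.inr hE)⟩
  · rintro ⟨h1, h2⟩ E (hE | hE)
    · exact h1 E hE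
    · exact h2 E hE

/-- Price of pretending that the sets met by `W` are already hit. -/
theorem Pr_filter_le (hp0 : ∀ ω, 0 ≤ p ω) (hp1 : ∀ ω, p ω ≤ 1) (C : Finset (Finset Ω))
    (L : ℝ) (hL : ∀ ω : Ω, Real.exp (-L) ≤ ∏ E ∈ C.filter (fun E => ω ∈ E), Pr p (hit E))
    (W : Finset Ω) :
    Pr p (hitAll (C.filter fun E => Disjoint W E)) * Real.exp (-(L * W.card)) ≤
      Pr p (hitAll C) := by
  classical
  have hsplit : hitAll C = hitAll (C.filter fun E => Disjoint W E) ∩
      hitAll (C.filter fun E => ¬ Disjoint W E) := by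
    rw [← hitAll_union_inter, Finset.filter_union_filter_not_eq]
  have h1 : Real.exp (-(L * W.card)) ≤ Pr p (hitAll (C.filter fun E => ¬ Disjoint W E)) := by
    refine le_trans ?_ (prod_le_Pr_hitAll hp0 hp1 _)
    -- the product over sets met by `W` is at least the product over `ω ∈ W` of the products
    have h2 : ∀ W : Finset Ω, Real.exp (-(L * W.card)) ≤
        ∏ E ∈ C.filter (fun E => ¬ Disjoint W E), Pr p (hit E) := by
      intro W
      induction W using Finset.induction_on with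
      | empty => simp
      | insert a W ha ih =>
        have hsub : C.filter (fun E => ¬ Disjoint (insert a W) E) =
            C.filter (fun E => a ∈ E) ∪ C.filter (fun E => ¬ Disjoint W E) := by
          ext E
          simp only [Finset.mem_filter, Finset.mem_union, Finset.disjoint_insert_left, not_and_or,
            not_not]
          tauto
        have hpos : ∀ D : Finset (Finset Ω), 0 ≤ ∏ E ∈ D, Pr p (hit E) := fun D =>
          Finset.prod_nonneg fun E _ => Pr_nonneg hp0 hp1 _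
        have hle1 : ∀ D : Finset (Finset Ω), ∏ E ∈ D, Pr p (hit E) ≤ 1 := fun D =>
          Finset.prod_le_one (fun E _ => Pr_nonneg hp0 hp1 _) fun E _ => Pr_le_one hp0 hp1 _
        have hui := Finset.prod_union_inter (s₁ := C.filter (fun E => a ∈ E))
          (s₂ := C.filter (fun E => ¬ Disjoint W E)) (f := fun E => Pr p (hit E))
        have hge : (∏ E ∈ C.filter (fun E => a ∈ E), Pr p (hit E)) *
            (∏ E ∈ C.filter (fun E => ¬ Disjoint W E), Pr p (hit E)) ≤
            ∏ E ∈ C.filter (fun E => a ∈ E) ∪ C.filter (fun E => ¬ Disjoint W E),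
              Pr p (hit E) := by
          rw [← hui]
          exact mul_le_of_le_one_right (hpos _) (hle1 _)
        rw [hsub]
        refine le_trans ?_ hge
        rw [Finset.card_insert_of_notMem ha]
        have : Real.exp (-(L * ((W.card + 1 : ℕ) : ℝ))) =
            Real.exp (-L) * Real.exp (-(L * W.card)) := by
          rw [← Real.exp_add]
          congr 1
          push_cast
          ring
        rw [this]
        exact mul_le_mul (hL a) ih (Real.exp_pos _).le (hpos _)
    exact h2 W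
  rw [hsplit]
  refine le_trans ?_ (harris hp0 hp1 (isUpperSet_hitAll _) (isUpperSet_hitAll _))
  exact mul_le_mul_of_nonneg_left h1 (Pr_nonneg hp0 hp1 _)

theorem sum_traceEq (S : Finset Ω) (f : Finset Ω → ℝ) :
    ∑ W ∈ S.powerset, Pr p (traceEq S W) * f W = Ex p fun A => f (A ∩ S) := by
  classical
  unfold Pr Ex
  have h1 : ∀ W ∈ S.powerset, (∑ A : Finset Ω, Set.indicator (traceEq S W) (wt p) A) * f W =
      ∑ A ∈ (Finset.univ : Finset (Finset Ω)).filter (fun A => A ∩ S = W), wt p A * f (A ∩ S) := by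
    intro W _
    rw [Finset.sum_mul, Finset.sum_filter]
    refine Finset.sum_congr rfl fun A _ => ?_
    by_cases hA : A ∩ S = W
    · rw [Set.indicator_of_mem (show A ∈ traceEq S W from hA), if_pos hA, hA]
    · rw [Set.indicator_of_notMem (show A ∉ traceEq S W from hA), if_neg hA, zero_mul]
  rw [Finset.sum_congr rfl h1]
  exact Finset.sum_fiberwise_of_maps_to (fun A _ => Finset.mem_powerset.mpr
    Finset.inter_subset_right) _

theorem Ex_exp_card (S : Finset Ω) (L : ℝ) :
    Ex p (fun A => Real.exp (L * (A ∩ S).card)) =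
      ∏ ω ∈ S, (1 + p ω * (Real.exp L - 1)) := by
  classical
  have h1 : ∀ A : Finset Ω, wt p A * Real.exp (L * (A ∩ S).card) =
      ∏ ω, if ω ∈ A then (if ω ∈ S then p ω * Real.exp L else p ω) else 1 - p ω := by
    intro A
    have h2 : Real.exp (L * (A ∩ S).card) =
        ∏ ω, if ω ∈ A ∩ S then Real.exp L else 1 := by
      rw [Finset.prod_ite_mem, Finset.univ_inter, Finset.prod_const, ← Real.exp_nat_mul]
      congr 1
      ring
    rw [h2]
    unfold wt
    rw [← Finset.prod_mul_distrib]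
    refine Finset.prod_congr rfl fun ω _ => ?_
    by_cases hA : ω ∈ A <;> by_cases hS : ω ∈ S <;> simp [hA, hS]
  unfold Ex
  rw [Finset.sum_congr rfl fun A _ => h1 A, sum_prod_ite]
  rw [← Finset.prod_subset (Finset.subset_univ S)]
  · refine Finset.prod_congr rfl fun ω hω => ?_
    simp only [hω, if_true]
    ring
  · intro ω _ hω
    simp [hω]

theorem Ex_exp_card_le (hp0 : ∀ ω, 0 ≤ p ω) (S : Finset Ω) {L : ℝ} (hL : 0 ≤ L) :
    Ex p (fun A => Real.exp (L * (A ∩ S).card)) ≤ Real.exp (mass p S * Real.exp L) := by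
  rw [Ex_exp_card]
  have h1 : 0 ≤ Real.exp L - 1 := by linarith [Real.add_one_le_exp L]
  have h2 : ∏ ω ∈ S, (1 + p ω * (Real.exp L - 1)) ≤
      Real.exp (mass p S * (Real.exp L - 1)) := by
    unfold mass
    rw [Finset.sum_mul, Real.exp_sum]
    refine Finset.prod_le_prod (fun ω _ => by
      have := mul_nonneg (hp0 ω) h1
      linarith) fun ω _ => ?_
    have := Real.add_one_le_exp (p ω * (Real.exp L - 1))
    linarith
  refine h2.trans (Real.exp_le_exp.mpr ?_)
  refine mul_le_mul_of_nonneg_left (by linarith) ?_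
  exact Finset.sum_nonneg fun ω _ => hp0 ω

/-- **Two-point bound.** -/
theorem two_point (hp0 : ∀ ω, 0 ≤ p ω) (hp1 : ∀ ω, p ω ≤ 1) (C C' : Finset (Finset Ω))
    (S : Finset Ω) (hS : ∀ E ∈ C, ∀ E' ∈ C', E ∩ E' ⊆ S) {L : ℝ} (hL0 : 0 ≤ L)
    (hL : ∀ ω : Ω, Real.exp (-L) ≤ ∏ E ∈ C.filter (fun E => ω ∈ E), Pr p (hit E))
    (hL' : ∀ ω : Ω, Real.exp (-L) ≤ ∏ E ∈ C'.filter (fun E => ω ∈ E), Pr p (hit E)) :
    Pr p (hitAll C ∩ hitAll C') ≤
      Pr p (hitAll C) * Pr p (hitAll C') * Real.exp (mass p S * Real.exp (2 * L)) := by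
  classical
  set U := C.biUnion id with hU
  set U' := C'.biUnion id with hU'
  have hUU : Disjoint (U \ S) (U' \ S) := by
    rw [Finset.disjoint_left]
    intro ω h1 h2
    rw [Finset.mem_sdiff, hU, Finset.mem_biUnion] at h1
    rw [Finset.mem_sdiff, hU', Finset.mem_biUnion] at h2
    obtain ⟨⟨E, hE, hωE⟩, hωS⟩ := h1
    obtain ⟨⟨E', hE', hωE'⟩, _⟩ := h2
    exact hωS (hS E hE E' hE' (Finset.mem_inter.mpr ⟨hωE, hωE'⟩))
  have hdep : ∀ (D : Finset (Finset Ω)) (W : Finset Ω),
      Dep (hitOut D S W) ((D.biUnion id) \ S) := by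
    intro D W
    refine dep_hitAll _ ?_
    intro E' hE'
    rw [Finset.mem_image] at hE'
    obtain ⟨E, hE, rfl⟩ := hE'
    rw [Finset.mem_filter] at hE
    exact Finset.sdiff_subset_sdiff (Finset.subset_biUnion_of_mem id hE.1) (le_refl S)
  -- decompose along the trace on S
  have hdec : Pr p (hitAll C ∩ hitAll C') =
      ∑ W ∈ S.powerset, Pr p ((hitAll C ∩ hitAll C') ∩ traceEq S W) := by
    unfold Pr
    rw [Finset.sum_comm]
    refine Finset.sum_congr rfl fun A _ => ?_
    rw [Finset.sum_eq_single (A ∩ S)]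
    · by_cases hA : A ∈ hitAll C ∩ hitAll C'
      · rw [Set.indicator_of_mem hA, Set.indicator_of_mem]
        exact ⟨hA, rfl⟩
      · rw [Set.indicator_of_notMem hA, Set.indicator_of_notMem]
        exact fun h => hA h.1
    · intro W _ hW
      rw [Set.indicator_of_notMem]
      rintro ⟨_, h⟩
      exact hW (h : A ∩ S = W).symm
    · intro h
      exact absurd (Finset.mem_powerset.mpr Finset.inter_subset_right) h
  rw [hdec]
  have hterm : ∀ W ∈ S.powerset, Pr p ((hitAll C ∩ hitAll C') ∩ traceEq S W) ≤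
      Pr p (traceEq S W) * (Pr p (hitAll C) * Pr p (hitAll C') *
        Real.exp (2 * L * W.card)) := by
    intro W hW
    have hsub : (hitAll C ∩ hitAll C') ∩ traceEq S W ⊆
        traceEq S W ∩ (hitOut C S W ∩ hitOut C' S W) := by
      rintro A ⟨⟨h1, h2⟩, h3⟩
      exact ⟨h3, hitAll_inter_traceEq_subset C S W ⟨h1, h3⟩,
        hitAll_inter_traceEq_subset C' S W ⟨h2, h3⟩⟩
    have hind : Pr p (traceEq S W ∩ (hitOut C S W ∩ hitOut C' S W)) =
        Pr p (traceEq S W) * (Pr p (hitOut C S W) * Pr p (hitOut C' S W)) := by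
      rw [Pr_inter_of_dep (dep_traceEq S W) ((hdep C W).inter (hdep C' W)),
        Pr_inter_of_dep (hdep C W) (hdep C' W) hUU]
      rw [Finset.disjoint_union_right]
      exact ⟨Finset.disjoint_sdiff, Finset.disjoint_sdiff⟩
    have hbd : ∀ (D : Finset (Finset Ω)),
        (∀ ω : Ω, Real.exp (-L) ≤ ∏ E ∈ D.filter (fun E => ω ∈ E), Pr p (hit E)) →
        Pr p (hitOut D S W) ≤ Pr p (hitAll D) * Real.exp (L * W.card) := by
      intro D hD
      have h1 := Pr_filter_le hp0 hp1 D L hD W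
      have h2 := Pr_mono hp0 hp1 (hitOut_subset D S W)
      have h3 : Real.exp (-(L * W.card)) * Real.exp (L * W.card) = 1 := by
        rw [← Real.exp_add]; simp
      calc Pr p (hitOut D S W) ≤ Pr p (hitAll (D.filter fun E => Disjoint W E)) := h2
        _ = Pr p (hitAll (D.filter fun E => Disjoint W E)) * Real.exp (-(L * W.card)) *
            Real.exp (L * W.card) := by rw [mul_assoc, h3, mul_one]
        _ ≤ Pr p (hitAll D) * Real.exp (L * W.card) :=
            mul_le_mul_of_nonneg_right h1 (Real.exp_pos _).le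
    refine (Pr_mono hp0 hp1 hsub).trans ?_
    rw [hind]
    refine mul_le_mul_of_nonneg_left ?_ (Pr_nonneg hp0 hp1 _)
    refine (mul_le_mul (hbd C hL) (hbd C' hL') (Pr_nonneg hp0 hp1 _)
      (mul_nonneg (Pr_nonneg hp0 hp1 _) (Real.exp_pos _).le)).trans ?_
    have : Real.exp (2 * L * W.card) = Real.exp (L * W.card) * Real.exp (L * W.card) := by
      rw [← Real.exp_add]; congr 1; ring
    rw [this]
    apply le_of_eq
    ring
  refine (Finset.sum_le_sum hterm).trans ?_
  have hfac : ∑ W ∈ S.powerset, Pr p (traceEq S W) * (Pr p (hitAll C) * Pr p (hitAll C') *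
        Real.exp (2 * L * W.card)) = (Pr p (hitAll C) * Pr p (hitAll C')) *
        ∑ W ∈ S.powerset, Pr p (traceEq S W) * Real.exp (2 * L * W.card) := by
    rw [Finset.mul_sum]
    refine Finset.sum_congr rfl fun W _ => by ring
  rw [hfac, sum_traceEq S fun W => Real.exp (2 * L * W.card)]
  exact mul_le_mul_of_nonneg_left (Ex_exp_card_le hp0 S (by linarith))
    (mul_nonneg (Pr_nonneg hp0 hp1 _) (Pr_nonneg hp0 hp1 _))

/-! ### Second moment -/

theorem second_moment {ι : Type*} [DecidableEq ι] (hp0 : ∀ ω, 0 ≤ p ω) (hp1 : ∀ ω, p ω ≤ 1)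
    (I : Finset ι) (U : ι → Set (Finset Ω)) {K : ℝ} (hK : 0 ≤ K)
    (hpair : ∀ i ∈ I, ∀ j ∈ I, i ≠ j → Pr p (U i ∩ U j) ≤ K * (Pr p (U i) * Pr p (U j)))
    (hsum : 1 ≤ ∑ i ∈ I, Pr p (U i)) :
    1 / (1 + K) ≤ Pr p (⋃ i ∈ I, U i) := by
  classical
  set s := ∑ i ∈ I, Pr p (U i) with hs
  let N : Finset Ω → ℝ := fun A => ∑ i ∈ I, Set.indicator (U i) (fun _ => (1 : ℝ)) A
  set V : Set (Finset Ω) := ⋃ i ∈ I, U i with hV
  -- first moment
  have hEN : Ex p N = s := by
    simp only [Ex, N, Finset.mul_sum]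
    rw [Finset.sum_comm, hs]
    refine Finset.sum_congr rfl fun i _ => ?_
    exact Ex_indicator (U i)
  -- second moment
  have hEN2 : Ex p (fun A => N A ^ 2) ≤ s + K * s ^ 2 := by
    have h1 : Ex p (fun A => N A ^ 2) = ∑ i ∈ I, ∑ j ∈ I, Pr p (U i ∩ U j) := by
      have h2 : ∀ A : Finset Ω, wt p A * N A ^ 2 =
          ∑ i ∈ I, ∑ j ∈ I, wt p A * Set.indicator (U i ∩ U j) (fun _ => (1 : ℝ)) A := by
        intro A
        simp only [N]
        rw [sq, Finset.sum_mul_sum, Finset.mul_sum]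
        refine Finset.sum_congr rfl fun i _ => ?_
        rw [Finset.mul_sum]
        refine Finset.sum_congr rfl fun j _ => ?_
        congr 1
        by_cases hi : A ∈ U i <;> by_cases hj : A ∈ U j <;> simp [hi, hj]
      unfold Ex
      rw [Finset.sum_congr rfl fun A _ => h2 A, Finset.sum_comm]
      refine Finset.sum_congr rfl fun i _ => ?_
      rw [Finset.sum_comm]
      refine Finset.sum_congr rfl fun j _ => ?_
      exact Ex_indicator _
    rw [h1]
    have h3 : ∀ i ∈ I, ∑ j ∈ I, Pr p (U i ∩ U j) ≤ Pr p (U i) + K * (Pr p (U i) * s) := by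
      intro i hi
      rw [← Finset.add_sum_erase I _ hi, Set.inter_self]
      have h4 : ∑ j ∈ I.erase i, Pr p (U i ∩ U j) ≤
          ∑ j ∈ I.erase i, K * (Pr p (U i) * Pr p (U j)) :=
        Finset.sum_le_sum fun j hj => hpair i hi j (Finset.mem_of_mem_erase hj)
          (Finset.ne_of_mem_erase hj).symm
      have h5 : ∑ j ∈ I.erase i, K * (Pr p (U i) * Pr p (U j)) ≤ K * (Pr p (U i) * s) := by
        rw [← Finset.mul_sum, ← Finset.mul_sum]
        refine mul_le_mul_of_nonneg_left (mul_le_mul_of_nonneg_left ?_ (Pr_nonneg hp0 hp1 _)) hK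
        exact Finset.sum_le_sum_of_subset_of_nonneg (Finset.erase_subset i I)
          fun j _ _ => Pr_nonneg hp0 hp1 _
      linarith
    refine (Finset.sum_le_sum h3).trans (le_of_eq ?_)
    rw [Finset.sum_add_distrib, ← Finset.mul_sum, ← Finset.sum_mul, ← hs]
    ring
  -- Cauchy and Schwarz
  have hCS : s ^ 2 ≤ Pr p V * (s + K * s ^ 2) := by
    have h1 : s = ∑ A, (Real.sqrt (wt p A) * Set.indicator V (fun _ => (1 : ℝ)) A) *
        (Real.sqrt (wt p A) * N A) := by
      rw [← hEN]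
      unfold Ex
      refine Finset.sum_congr rfl fun A _ => ?_
      have hw : Real.sqrt (wt p A) * Real.sqrt (wt p A) = wt p A :=
        Real.mul_self_sqrt (wt_nonneg hp0 hp1 A)
      by_cases hA : A ∈ V
      · rw [Set.indicator_of_mem hA]
        calc wt p A * N A = (Real.sqrt (wt p A) * Real.sqrt (wt p A)) * N A := by rw [hw]
          _ = _ := by ring
      · have hN : N A = 0 := by
          simp only [N]
          refine Finset.sum_eq_zero fun i hi => ?_
          rw [Set.indicator_of_notMem]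
          intro h
          exact hA (Set.mem_biUnion hi h)
        rw [hN]
        simp
    have h2 := Finset.sum_mul_sq_le_sq_mul_sq (Finset.univ : Finset (Finset Ω))
      (fun A => Real.sqrt (wt p A) * Set.indicator V (fun _ => (1 : ℝ)) A)
      (fun A => Real.sqrt (wt p A) * N A)
    rw [← h1] at h2
    have h3 : ∑ A, (Real.sqrt (wt p A) * Set.indicator V (fun _ => (1 : ℝ)) A) ^ 2 = Pr p V := by
      rw [← Ex_indicator]
      unfold Ex
      refine Finset.sum_congr rfl fun A _ => ?_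
      rw [mul_pow, Real.sq_sqrt (wt_nonneg hp0 hp1 A)]
      by_cases hA : A ∈ V <;> simp [hA]
    have h4 : ∑ A, (Real.sqrt (wt p A) * N A) ^ 2 = Ex p (fun A => N A ^ 2) := by
      unfold Ex
      refine Finset.sum_congr rfl fun A _ => ?_
      rw [mul_pow, Real.sq_sqrt (wt_nonneg hp0 hp1 A)]
    rw [h3, h4] at h2
    exact h2.trans (mul_le_mul_of_nonneg_left hEN2 (Pr_nonneg hp0 hp1 _))
  have hPV : 0 ≤ Pr p V := Pr_nonneg hp0 hp1 _
  rw [div_le_iff₀ (by linarith)]
  have hs0 : 0 < s := by linarith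
  have h5 : s + K * s ^ 2 ≤ (1 + K) * s ^ 2 := by nlinarith
  have h6 : s ^ 2 * 1 ≤ s ^ 2 * (Pr p V * (1 + K)) := by
    calc s ^ 2 * 1 = s ^ 2 := mul_one _
      _ ≤ Pr p V * (s + K * s ^ 2) := hCS
      _ ≤ Pr p V * ((1 + K) * s ^ 2) := mul_le_mul_of_nonneg_left h5 hPV
      _ = s ^ 2 * (Pr p V * (1 + K)) := by ring
  exact le_of_mul_le_mul_left h6 (by positivity)

end

end CovB
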