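import Vale.Agent.Cov.Vol

/-! # [B1] many far points in one block -/

namespace Cov

open MeasureTheory Finset
open scoped RealInnerProductSpace

/-- points which are too close for some pair of centers -/
def Near {n : ℕ} (T : Finset (E n)) (τ : ℝ) (x : E n) : Set (E n) :=
  {x' | ∃ t ∈ T, ∃ t' ∈ T, ‖(x - t) - (x' - t')‖ ≤ τ}

theorem vol_Near {n : ℕ} (T : Finset (E n)) {τ : ℝ} (hτ : 0 ≤ τ) (x : E n) :
    volume (Near T τ x) ≤ ENNReal.ofReal ((T.card : ℝ) ^ 2 * (τ ^ n * bv n)) := by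
  classical
  have hsub : Near T τ x ⊆ ⋃ q ∈ T ×ˢ T, Metric.closedBall (x - q.1 + q.2) τ := by
    rintro x' ⟨t, ht, t', ht', h⟩
    simp only [Set.mem_iUnion, exists_prop]
    refine ⟨(t, t'), Finset.mem_product.mpr ⟨ht, ht'⟩, ?_⟩
    rw [Metric.mem_closedBall, dist_eq_norm]
    rw [show x' - (x - t + t') = -((x - t) - (x' - t')) by abel, norm_neg]
    exact h
  refine (measure_mono hsub).trans ((measure_biUnion_finset_le _ _).trans ?_)
  have : ∀ q ∈ T ×ˢ T, volume (Metric.closedBall (x - q.1 + q.2) τ)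
      = ENNReal.ofReal (τ ^ n * bv n) := fun q _ => vol_ball n _ _ hτ
  rw [Finset.sum_congr rfl this, Finset.sum_const, Finset.card_product, nsmul_eq_mul]
  have e : ENNReal.ofReal ((T.card : ℝ) ^ 2) = ((T.card * T.card : ℕ) : ENNReal) := by
    rw [← ENNReal.ofReal_natCast]
    congr 1
    push_cast
    ring
  rw [ENNReal.ofReal_mul (p := (T.card : ℝ) ^ 2) (by positivity), e]

theorem sel_points_of {n : ℕ} (hn : 1 ≤ n) {a k : ℝ} (hk : 1 ≤ k)
    (ha : 40 * Real.exp 4 * k < a) (T : Finset (E n)) (hTne : T.Nonempty)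
    (hT : (T.card : ℝ) ≤ Real.exp (2 * n)) (G : Set (E n))
    (hG : ENNReal.ofReal ((1 / (k * Real.sqrt n)) ^ n) / 4 ≤ volume G) :
    ∃ X : Finset (E n), a ^ n ≤ X.card ∧ (∀ x ∈ X, x ∈ G) ∧
      ∀ x ∈ X, ∀ x' ∈ X, x ≠ x' → ∀ t ∈ T, ∀ t' ∈ T,
        (a⁻¹) ^ 2 ≤ ‖(x - t) - (x' - t')‖ := by
  have hkpos : 0 < k := by linarith
  have hapos : 0 < a := lt_trans (by positivity) ha
  have hs : 0 < Real.sqrt n := Real.sqrt_pos.mpr (by exact_mod_cast hn)
  have he4 : (1 : ℝ) ≤ Real.exp 4 := Real.one_le_exp (by norm_num)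
  have ha1 : 1 ≤ a := by nlinarith
  set τ : ℝ := (a⁻¹) ^ 2 with hτ
  have hτ0 : 0 ≤ τ := by positivity
  set v : ℝ := (T.card : ℝ) ^ 2 * (τ ^ n * bv n) with hv
  have hbv := (bv_pos n).le
  have hv0 : 0 ≤ v := by positivity
  set M : ℕ := ⌈a ^ n⌉₊ with hM
  have han : 1 ≤ a ^ n := one_le_pow₀ ha1
  have hMle : (M : ℝ) ≤ 2 * a ^ n := by
    have := (Nat.ceil_lt_add_one (a := a ^ n) (by positivity)).le
    linarith
  set q : ℝ := (1 / (k * Real.sqrt n)) with hq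
  have hq0 : 0 < q := by positivity
  set b : ℝ := 5 * Real.exp 4 * k / a with hb
  have hb0 : 0 < b := by positivity
  have hb8 : b < 1 / 8 := by
    rw [hb, div_lt_iff₀ hapos]
    linarith
  have hbn : b ^ n ≤ b := pow_le_of_le_one hb0.le (by linarith) (by omega)
  have hvle : a ^ n * v ≤ b ^ n * q ^ n := by
    have h1 : v ≤ (Real.exp 4) ^ n * (τ ^ n * (5 ^ n * (1 / Real.sqrt n) ^ n)) := by
      have e1 : (T.card : ℝ) ^ 2 ≤ (Real.exp 4) ^ n := by
        have : (T.card : ℝ) ^ 2 ≤ (Real.exp (2 * n)) ^ 2 :=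
          pow_le_pow_left₀ (Nat.cast_nonneg _) hT 2
        refine this.trans (le_of_eq ?_)
        rw [← Real.exp_nat_mul, ← Real.exp_nat_mul]
        congr 1
        push_cast
        ring
      have e2 : τ ^ n * bv n ≤ τ ^ n * (5 ^ n * (1 / Real.sqrt n) ^ n) :=
        mul_le_mul_of_nonneg_left (bv_le n hn) (by positivity)
      exact mul_le_mul e1 e2 (by positivity) (by positivity)
    calc a ^ n * v ≤ a ^ n * ((Real.exp 4) ^ n * (τ ^ n * (5 ^ n * (1 / Real.sqrt n) ^ n))) :=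
          mul_le_mul_of_nonneg_left h1 (by positivity)
      _ = (a * (Real.exp 4 * (τ * (5 * (1 / Real.sqrt n))))) ^ n := by
          simp only [mul_pow]
      _ = (b * q) ^ n := by
          congr 1
          rw [hb, hq, hτ]
          field_simp
      _ = b ^ n * q ^ n := mul_pow _ _ _
  have hlt : (M : ℝ) * v < q ^ n / 4 := by
    have hqn : 0 < q ^ n := by positivity
    calc (M : ℝ) * v ≤ 2 * a ^ n * v := mul_le_mul_of_nonneg_right hMle hv0
      _ = 2 * (a ^ n * v) := by ring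
      _ ≤ 2 * (b ^ n * q ^ n) := by linarith
      _ ≤ 2 * (b * q ^ n) := by
          have := mul_le_mul_of_nonneg_right hbn hqn.le
          linarith
      _ < q ^ n / 4 := by nlinarith
  have hself : ∀ x : E n, x ∈ Near T τ x := by
    intro x
    obtain ⟨t, ht⟩ := hTne
    exact ⟨t, ht, t, ht, by simpa using hτ0⟩
  have hsymm : ∀ x y : E n, x ∈ Near T τ y → y ∈ Near T τ x := by
    rintro x y ⟨t, ht, t', ht', h⟩
    refine ⟨t', ht', t, ht, ?_⟩
    rw [← norm_neg, show -(x - t' - (y - t)) = y - t - (x - t') by abel]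
    exact h
  obtain ⟨X, hXc, hXG, hXf⟩ := greedy_meas G (Near T τ) v hv0 hsymm hself
    (fun x => vol_Near T hτ0 x) M (by
      refine lt_of_lt_of_le ?_ hG
      have e : ENNReal.ofReal (q ^ n) / 4 = ENNReal.ofReal (q ^ n / 4) := by
        rw [ENNReal.ofReal_div_of_pos (by norm_num)]
        norm_num
      rw [e]
      exact (ENNReal.ofReal_lt_ofReal_iff (by positivity)).mpr hlt)
  refine ⟨X, ?_, hXG, ?_⟩
  · rw [hXc]
    exact Nat.le_ceil _
  · intro x hx x' hx' hne t ht t' ht'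
    by_contra hcon
    push Not at hcon
    exact hXf x hx x' hx' hne ⟨t, ht, t', ht', hcon.le⟩

theorem sel_points_aux {P : ∀ n : ℕ, (Fin n → Fin k0) → Set (E n)}
    (hP : ∀ n : ℕ, 1 ≤ n → ∀ l, volume (P n l) = ENNReal.ofReal ((1 / (k0 * Real.sqrt n)) ^ n)) :
    ∃ n0 : ℕ, ∀ n ≥ n0, ∀ (T : Finset (E n)) (Gd : Set (E n))
    (l : Fin n → Fin k0),
    T.Nonempty → (T.card : ℝ) ≤ Real.exp (2 * n) →
    volume (P n l) / 4 ≤ volume (P n l ∩ Gd) →
    ∃ X : Finset (E n), (n : ℝ) ^ (0.005 * (n : ℝ)) ≤ X.card ∧ (∀ x ∈ X, x ∈ P n l ∩ Gd) ∧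
      ∀ x ∈ X, ∀ x' ∈ X, x ≠ x' → ∀ t ∈ T, ∀ t' ∈ T,
        (n : ℝ) ^ (-0.01 : ℝ) ≤ ‖(x - t) - (x' - t')‖ := by
  have hbig : ∀ᶠ n : ℕ in Filter.atTop, 40 * Real.exp 4 * k0 < (n : ℝ) ^ (0.005 : ℝ) := by
    have := (tendsto_rpow_atTop (by norm_num : (0 : ℝ) < 0.005)).comp
      (tendsto_natCast_atTop_atTop (R := ℝ))
    exact this.eventually_gt_atTop _
  obtain ⟨n1, hn1⟩ := Filter.eventually_atTop.mp hbig
  refine ⟨max n1 1, fun n hn T Gd l hTne hT hG => ?_⟩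
  have h1 : 1 ≤ n := le_trans (le_max_right _ _) hn
  have hn0 : (0 : ℝ) ≤ n := Nat.cast_nonneg n
  have hk : (1 : ℝ) ≤ (k0 : ℝ) := by
    unfold k0
    norm_num
  rw [hP n h1 l] at hG
  obtain ⟨X, hX1, hX2, hX3⟩ := sel_points_of h1 hk (hn1 n (le_trans (le_max_left _ _) hn)) T hTne hT
    (P n l ∩ Gd) hG
  refine ⟨X, ?_, hX2, ?_⟩
  · rw [Real.rpow_mul hn0, Real.rpow_natCast]
    exact hX1
  · intro x hx x' hx' hne t ht t' ht'
    have := hX3 x hx x' hx' hne t ht t' ht'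
    rwa [← Real.rpow_neg hn0, ← Real.rpow_natCast, ← Real.rpow_mul hn0,
      show (-0.005 : ℝ) * ((2 : ℕ) : ℝ) = -0.01 by norm_num] at this

end Cov
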