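import Vale.Agent.Cov.SelBlocks10
import Vale.Agent.Cov.SelPts

/-! # [B] subcubes and selection of far good blocks -/

namespace Cov

open MeasureTheory Finset
open scoped RealInnerProductSpace

/-- Many good blocks, pairwise far for the set of centers `T`. -/
theorem sel_blocks : ∃ n0 : ℕ, ∀ n ≥ n0, ∀ (T : Finset (E n)) (Gd : Set (E n)),
    MeasurableSet Gd → T.Nonempty → (T.card : ℝ) ≤ Real.exp (2 * n) →
    volume (Qc n \ Gd) ≤ volume (Qc n) / 2 →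
    ∃ L : Finset (Fin n → Fin k0),
      Real.exp (4 * n) ≤ L.card ∧
      (∀ l ∈ L, volume (Pc n l) / 4 ≤ volume (Pc n l ∩ Gd)) ∧
      ∀ l ∈ L, ∀ l' ∈ L, l ≠ l' → ∀ x ∈ Pc n l, ∀ x' ∈ Pc n l', ∀ t ∈ T, ∀ t' ∈ T,
        (1 / (k0 : ℝ)) < ‖(x - t) - (x' - t')‖ := by
  exact sel_blocks10

/-- Many good points in one block, pairwise `n^{-0.01}`-far. -/
theorem sel_points : ∃ n0 : ℕ, ∀ n ≥ n0, ∀ (T : Finset (E n)) (Gd : Set (E n))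
    (l : Fin n → Fin k0),
    MeasurableSet Gd → T.Nonempty → (T.card : ℝ) ≤ Real.exp (2 * n) →
    volume (Pc n l) / 4 ≤ volume (Pc n l ∩ Gd) →
    ∃ X : Finset (E n), (n : ℝ) ^ (0.005 * (n : ℝ)) ≤ X.card ∧ (∀ x ∈ X, x ∈ Pc n l ∩ Gd) ∧
      ∀ x ∈ X, ∀ x' ∈ X, x ≠ x' → ∀ t ∈ T, ∀ t' ∈ T,
        (n : ℝ) ^ (-0.01 : ℝ) ≤ ‖(x - t) - (x' - t')‖ := by
  obtain ⟨n0, h⟩ := sel_points_aux (P := Pc) vol_Pc
  exact ⟨n0, fun n hn T Gd l _ => h n hn T Gd l⟩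

end Cov
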