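import Vale.Agent.Cov.Vol

/-! # [B1] subcubes -/

namespace Cov

open MeasureTheory Finset
open scoped RealInnerProductSpace

/-- subcube of side `1/(k0 √n)` with index `l` -/
def Pc (n : ℕ) (l : Fin n → Fin k0) : Set (E n) :=
  {x | ∀ i, (l i : ℝ) / (k0 * Real.sqrt n) ≤ x i ∧ x i < ((l i : ℝ) + 1) / (k0 * Real.sqrt n)}

theorem Pc_subset (n : ℕ) (l : Fin n → Fin k0) : Pc n l ⊆ Qc n := by
  intro x hx i
  obtain ⟨h1, h2⟩ := hx i
  have hn : 0 < n := i.pos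
  have hs : 0 < Real.sqrt n := Real.sqrt_pos.mpr (by exact_mod_cast hn)
  have hk : (0 : ℝ) < k0 := by norm_num [k0]
  refine ⟨le_trans (by positivity) h1, lt_of_lt_of_le h2 ?_⟩
  rw [div_le_div_iff₀ (by positivity) hs]
  have h3 : ((l i : ℕ) : ℝ) + 1 ≤ k0 := by
    have := (l i).isLt
    exact_mod_cast this
  nlinarith

theorem vol_Pc (n : ℕ) (hn : 1 ≤ n) (l : Fin n → Fin k0) :
    volume (Pc n l) = ENNReal.ofReal ((1 / (k0 * Real.sqrt n)) ^ n) := by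
  have h := vol_box n (fun i => (l i : ℝ) / (k0 * Real.sqrt n))
    (fun i => ((l i : ℝ) + 1) / (k0 * Real.sqrt n))
  unfold Pc
  rw [h]
  have h2 : ∀ i : Fin n, ((l i : ℝ) + 1) / (k0 * Real.sqrt n) - (l i : ℝ) / (k0 * Real.sqrt n)
      = 1 / (k0 * Real.sqrt n) := by
    intro i
    ring
  simp only [h2, Finset.prod_const, Finset.card_univ, Fintype.card_fin]
  rw [ENNReal.ofReal_pow (by positivity)]

theorem norm_le_of_Qc {n : ℕ} {x : E n} (hx : x ∈ Qc n) : ‖x‖ ≤ 1 :=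
  norm_le_of_Qc_aux hx

end Cov
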