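import Vale.Agent.Cov.Defs

/-! # [V1b] deep points of the ball, average cost -/

namespace Cov

open MeasureTheory Finset

theorem vol_deep_aux (n : ℕ) (hn : 1 ≤ n) (s : ℝ) (hs : 0 ≤ s) :
    volume {y : E n | ‖y‖ ≤ 1 ∧ s ≤ sg y}
      ≤ ENNReal.ofReal
        (Real.exp (-s) * (volume (Metric.closedBall (0 : E n) 1)).toReal) := by
  have hn' : (0 : ℝ) < n := by exact_mod_cast hn
  by_cases h : 0 ≤ 1 - 2 * s / n
  · have hsub : {y : E n | ‖y‖ ≤ 1 ∧ s ≤ sg y}
        ⊆ Metric.closedBall (0 : E n) (Real.sqrt (1 - 2 * s / n)) := by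
      rintro y ⟨_, hy⟩
      rw [mem_closedBall_zero_iff]
      apply Real.le_sqrt_of_sq_le
      unfold sg at hy
      have h1 : 2 * s / n ≤ 1 - ‖y‖ ^ 2 := by
        rw [div_le_iff₀ hn']
        linarith
      linarith
    refine (measure_mono hsub).trans ?_
    rw [Measure.addHaar_closedBall' _ _ (Real.sqrt_nonneg _), finrank_euclideanSpace,
      Fintype.card_fin, ENNReal.ofReal_mul (Real.exp_nonneg _),
      ENNReal.ofReal_toReal (measure_closedBall_lt_top).ne]
    gcongr
    have h2 : Real.sqrt (1 - 2 * s / n) ≤ Real.exp (-(s / n)) := by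
      apply Real.sqrt_le_iff.mpr
      refine ⟨Real.exp_nonneg _, ?_⟩
      rw [← Real.exp_nat_mul]
      have := Real.add_one_le_exp (-(2 * s / n))
      calc 1 - 2 * s / n = -(2 * s / n) + 1 := by ring
        _ ≤ Real.exp (-(2 * s / n)) := this
        _ = Real.exp (((2 : ℕ) : ℝ) * -(s / n)) := by
            congr 1
            push_cast
            ring
    calc Real.sqrt (1 - 2 * s / n) ^ n ≤ Real.exp (-(s / n)) ^ n :=
          pow_le_pow_left₀ (Real.sqrt_nonneg _) h2 n
      _ = Real.exp (-s) := by
          rw [← Real.exp_nat_mul]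
          congr 1
          field_simp
  · have hemp : {y : E n | ‖y‖ ≤ 1 ∧ s ≤ sg y} = ∅ := by
      ext y
      simp only [Set.mem_ofPred_eq, Set.mem_empty_iff_false, iff_false, not_and, not_le]
      intro _
      unfold sg
      push Not at h
      have h1 : 1 < 2 * s / n := by linarith
      rw [lt_div_iff₀ hn'] at h1
      nlinarith [sq_nonneg ‖y‖, mul_nonneg hn'.le (sq_nonneg ‖y‖)]
    rw [hemp, measure_empty]
    exact bot_le

theorem int_cost_aux (n : ℕ) (hn : 1 ≤ n) (κ : ℝ) (hκ : 0 ≤ κ) :
    ∫⁻ y in Metric.closedBall (0 : E n) 1, ENNReal.ofReal (κ * sg y + 1)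
      ≤ ENNReal.ofReal
        ((κ + 1) * (volume (Metric.closedBall (0 : E n) 1)).toReal) := by
  have hfin : volume (Metric.closedBall (0 : E n) 1) ≠ ⊤ := (measure_closedBall_lt_top).ne
  have hmeas : Measurable (fun y : E n => sg y) := by
    unfold sg
    fun_prop
  have hσ : ∫⁻ y in Metric.closedBall (0 : E n) 1, ENNReal.ofReal (sg y)
      ≤ volume (Metric.closedBall (0 : E n) 1) := by
    rw [lintegral_eq_lintegral_meas_le]
    · calc ∫⁻ t in Set.Ioi (0 : ℝ),
            (volume.restrict (Metric.closedBall (0 : E n) 1)) {a | t ≤ sg a}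
          ≤ ∫⁻ t in Set.Ioi (0 : ℝ), ENNReal.ofReal (Real.exp (-t))
              * volume (Metric.closedBall (0 : E n) 1) := by
            apply setLIntegral_mono' measurableSet_Ioi
            intro t ht
            have ht' : (0 : ℝ) ≤ t := le_of_lt ht
            rw [Measure.restrict_apply (measurableSet_le measurable_const hmeas)]
            have := vol_deep_aux n hn t ht'
            rw [ENNReal.ofReal_mul (Real.exp_nonneg _), ENNReal.ofReal_toReal hfin] at this
            refine le_trans (measure_mono ?_) this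
            rintro y ⟨hy1, hy2⟩
            exact ⟨by simpa using hy2, hy1⟩
        _ = (∫⁻ t in Set.Ioi (0 : ℝ), ENNReal.ofReal (Real.exp (-t)))
              * volume (Metric.closedBall (0 : E n) 1) := by
            rw [lintegral_mul_const _ (by fun_prop)]
        _ = volume (Metric.closedBall (0 : E n) 1) := by
            have h1 : ∫⁻ t in Set.Ioi (0 : ℝ), ENNReal.ofReal (Real.exp (-t)) = 1 := by
              rw [← ofReal_integral_eq_lintegral_ofReal]
              · rw [integral_exp_neg_Ioi]
                simp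
              · exact integrableOn_exp_neg_Ioi 0
              · exact Filter.Eventually.of_forall fun t => (Real.exp_pos _).le
            rw [h1, one_mul]
    · refine (ae_restrict_iff' measurableSet_closedBall).mpr (Filter.Eventually.of_forall ?_)
      intro y hy
      rw [mem_closedBall_zero_iff] at hy
      have : ‖y‖ ^ 2 ≤ 1 := by nlinarith [norm_nonneg y]
      show (0 : ℝ) ≤ sg y
      unfold sg
      have h3 : (0 : ℝ) ≤ n := Nat.cast_nonneg n
      have h4 : 0 ≤ 1 - ‖y‖ ^ 2 := by linarith
      positivity
    · exact hmeas.aemeasurable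
  calc ∫⁻ y in Metric.closedBall (0 : E n) 1, ENNReal.ofReal (κ * sg y + 1)
      ≤ ∫⁻ y in Metric.closedBall (0 : E n) 1,
          (ENNReal.ofReal κ * ENNReal.ofReal (sg y) + 1) := by
        apply lintegral_mono
        intro y
        simp only
        refine ENNReal.ofReal_add_le.trans ?_
        rw [ENNReal.ofReal_mul hκ, ENNReal.ofReal_one]
    _ = ENNReal.ofReal κ * (∫⁻ y in Metric.closedBall (0 : E n) 1, ENNReal.ofReal (sg y))
          + volume (Metric.closedBall (0 : E n) 1) := by
        rw [lintegral_add_right _ measurable_const, lintegral_const_mul _ (by fun_prop)]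
        simp
    _ ≤ ENNReal.ofReal κ * volume (Metric.closedBall (0 : E n) 1)
          + volume (Metric.closedBall (0 : E n) 1) := by
        gcongr
    _ = ENNReal.ofReal
        ((κ + 1) * (volume (Metric.closedBall (0 : E n) 1)).toReal) := by
        rw [ENNReal.ofReal_mul (by linarith), ENNReal.ofReal_toReal hfin,
          ENNReal.ofReal_add hκ zero_le_one, ENNReal.ofReal_one]
        ring

end Cov
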