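import Mathlib

/-!
# P230: convex bodies with translative covering density of order `n log n`

Definitions shared by all files.
-/

namespace Cov

open MeasureTheory Finset
open scoped RealInnerProductSpace

/-- Euclidean space. -/
abbrev E (n : ℕ) := EuclideanSpace ℝ (Fin n)

/-- `σ(y) = n (1 - |y|^2) / 2`. -/
noncomputable def sg {n : ℕ} (y : E n) : ℝ := (n : ℝ) * (1 - ‖y‖ ^ 2) / 2

/-! ### A random subset of a finite set -/

section prob
variable {Ω : Type} [Fintype Ω] [DecidableEq Ω]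

/-- Probability that the random subset equals `A` (independent inclusions). -/
noncomputable def wt (p : Ω → ℝ) (A : Finset Ω) : ℝ :=
  (∏ ω ∈ A, p ω) * ∏ ω ∈ Aᶜ, (1 - p ω)

/-- Expectation over the random subset. -/
noncomputable def Ex (p : Ω → ℝ) (f : Finset Ω → ℝ) : ℝ := ∑ A : Finset Ω, wt p A * f A

open Classical in
/-- Probability of an event. -/
noncomputable def Pr (p : Ω → ℝ) (F : Finset Ω → Prop) : ℝ :=
  Ex p (fun A => if F A then 1 else 0)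

/-- `A` meets `S`. -/
def Hit (S : Finset Ω) (A : Finset Ω) : Prop := (A ∩ S).Nonempty

/-- `A` meets every member of the family. -/
def Hits (F : Finset (Finset Ω)) (A : Finset Ω) : Prop := ∀ S ∈ F, Hit S A

/-- Expected number of points in `S`. -/
noncomputable def nu (p : Ω → ℝ) (S : Finset Ω) : ℝ := ∑ ω ∈ S, p ω

end prob

/-! ### The family of half spaces -/

/-- A finite family of constraints `⟪a, y⟫ ≤ b`, with inclusion probabilities `p`. -/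
structure Mdl (n : ℕ) (κ ρ c0 C3 : ℝ) where
  /-- number of constraints -/
  N : ℕ
  /-- normals -/
  a : Fin N → E n
  /-- levels -/
  b : Fin N → ℝ
  /-- inclusion probabilities -/
  p : Fin N → ℝ
  p_nonneg : ∀ ω, 0 ≤ p ω
  p_le : ∀ ω, p ω ≤ 1 / 2
  a_le : ∀ ω, ‖a ω‖ ≤ 4 / 3 * b ω
  /-- a constraint cuts only a small cap of the unit ball -/
  range : ∀ ω (y y' : E n), ‖y‖ ≤ 1 → ‖y'‖ ≤ 1 → b ω < ⟪a ω, y⟫ → b ω < ⟪a ω, y'⟫ →
    ‖y - y'‖ ≤ ρ
  upper : ∀ y : E n, ‖y‖ ≤ 1 →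
    nu p (univ.filter (fun ω => b ω < ⟪a ω, y⟫)) ≤ Real.exp (1 - κ * sg y)
  lower : ∀ y : E n, ‖y‖ ≤ 1 → sg y ≤ 4 * Real.log n →
    c0 * Real.exp (-(κ * sg y)) ≤ nu p (univ.filter (fun ω => b ω < ⟪a ω, y⟫))
  group : ∀ (y0 : E n) (J : Finset (E n)), y0 ∈ J → (J.card : ℝ) ≤ (n : ℝ) ^ 2 →
    (∀ y ∈ J, ‖y‖ ≤ 1 ∧ sg y ≤ 4 * Real.log n ∧ ‖y - y0‖ ^ 2 ≤ 40 * Real.log n / n) →
    (n : ℝ) ^ (-C3) ≤ nu p (univ.filter (fun ω => ∀ y ∈ J, b ω < ⟪a ω, y⟫))

variable {n : ℕ} {κ ρ c0 C3 : ℝ}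

/-- The constraints violated at `y`. -/
noncomputable def Mdl.C (M : Mdl n κ ρ c0 C3) (y : E n) : Finset (Fin M.N) :=
  univ.filter (fun ω => M.b ω < ⟪M.a ω, y⟫)

/-- The convex body: unit ball cut by the constraints in `A`. -/
def Mdl.K (M : Mdl n κ ρ c0 C3) (A : Finset (Fin M.N)) : Set (E n) :=
  {y | ‖y‖ ≤ 1 ∧ ∀ ω ∈ A, ⟪M.a ω, y⟫ ≤ M.b ω}

open Classical in
/-- Centers at distance at most one. -/
noncomputable def Tx (T : Finset (E n)) (x : E n) : Finset (E n) :=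
  T.filter (fun t => ‖x - t‖ ≤ 1)

/-- `x` sees few centers, none of them deep inside. -/
def Good (κ G : ℝ) (T : Finset (E n)) (x : E n) : Prop :=
  (∑ t ∈ Tx T x, (κ * sg (x - t) + 1)) ≤ G ∧ ∀ t ∈ Tx T x, sg (x - t) ≤ 4 * Real.log n

/-- Small cube of side `1/√n`. -/
def Qc (n : ℕ) : Set (E n) := {x | ∀ i, 0 ≤ x i ∧ x i < 1 / Real.sqrt n}

/-- The absolute constant `k0 = 10^5` (number of subcubes per direction); `ρ = 1/k0`. -/
def k0 : ℕ := 100000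

/-- Grid of spacing `1/(√n n^5)`. -/
def Grid (n : ℕ) : Set (E n) := {t | ∀ i, ∃ z : ℤ, t i = z / (Real.sqrt n * (n : ℝ) ^ 5)}

end Cov
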