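import Mathlib

/-! # P230: the translative covering density (definitions of the problem) -/

namespace Cov

open MeasureTheory Filter
open scoped Pointwise

/-- A convex body: compact, convex, with nonempty interior. -/
def IsBody {n : ℕ} (K : Set (EuclideanSpace ℝ (Fin n))) : Prop :=
  Convex ℝ K ∧ IsCompact K ∧ (interior K).Nonempty

/-- The cube `Q_R = [-R,R]^n`. -/
def QR (n : ℕ) (R : ℝ) : Set (EuclideanSpace ℝ (Fin n)) := {x | ∀ i, |x i| ≤ R}

/-- `X` is locally finite: every bounded set contains finitely many points of `X`. -/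
def LocallyFiniteSet {n : ℕ} (X : Set (EuclideanSpace ℝ (Fin n))) : Prop :=
  ∀ S : Set (EuclideanSpace ℝ (Fin n)), Bornology.IsBounded S → (X ∩ S).Finite

/-- The upper density `limsup_{R → ∞} #(X ∩ Q_R) / (2R)^n`. -/
noncomputable def dens {n : ℕ} (X : Set (EuclideanSpace ℝ (Fin n))) : ENNReal :=
  limsup (fun R : ℝ => ((X ∩ QR n R).ncard : ENNReal) / ENNReal.ofReal ((2 * R) ^ n)) atTop

/-- The translative covering density `θ_T(K)`: the infimum of `vol(K)` times the upper density
of `X`, over the locally finite sets `X` with `K + X = ℝ^n`. -/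
noncomputable def thetaT {n : ℕ} (K : Set (EuclideanSpace ℝ (Fin n))) : ENNReal :=
  ⨅ (X : Set (EuclideanSpace ℝ (Fin n))) (_ : LocallyFiniteSet X) (_ : K + X = Set.univ),
    volume K * dens X

end Cov
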