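import Vale.Agent.Cov.ExAux13

/-! # [X] number of grid sets -/

namespace Cov

open MeasureTheory Finset
open scoped RealInnerProductSpace

/-- finitely many grid points in the ball of radius 2, with a count -/
theorem grid_ball (n : ℕ) (hn : 5 ≤ n) : ∃ G : Finset (E n),
    (∀ t : E n, t ∈ Grid n → ‖t‖ ≤ 2 → t ∈ G) ∧ ((G.card : ℝ) + 1 ≤ Real.exp (8 * n ^ 2)) := by
  classical
  set R : ℤ := 2 * (n : ℤ) ^ 6 with hR
  set P : Finset (Fin n → ℤ) := Fintype.piFinset (fun _ : Fin n => Finset.Icc (-R) R) with hP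
  set f : (Fin n → ℤ) → E n := fun z => WithLp.toLp 2 fun i =>
    (z i : ℝ) / (Real.sqrt n * (n : ℝ) ^ 5) with hf
  have hnpos : (0:ℝ) < n := by
    have : 0 < n := by omega
    exact_mod_cast this
  have hs : 0 < Real.sqrt n := Real.sqrt_pos.2 hnpos
  have hden : 0 < Real.sqrt n * (n : ℝ) ^ 5 := by positivity
  have hsn : Real.sqrt n ≤ n := by
    rw [Real.sqrt_le_left hnpos.le]
    have : (1:ℝ) ≤ n := by
      have : 1 ≤ n := by omega
      exact_mod_cast this
    nlinarith
  refine ⟨P.image f, ?_, ?_⟩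
  · intro t ht hn2
    choose z hz using ht
    rw [Finset.mem_image]
    refine ⟨z, ?_, ?_⟩
    · rw [hP, Fintype.mem_piFinset]
      intro i
      rw [Finset.mem_Icc]
      have h1 : |t i| ≤ 2 := by
        have := PiLp.norm_apply_le t i
        rw [Real.norm_eq_abs] at this
        linarith
      have h2 : |(z i : ℝ)| ≤ 2 * (n : ℝ) ^ 6 := by
        have h3 : (z i : ℝ) = t i * (Real.sqrt n * (n : ℝ) ^ 5) := by
          rw [hz i]; field_simp
        rw [h3, abs_mul, abs_of_pos hden]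
        calc |t i| * (Real.sqrt n * (n : ℝ) ^ 5) ≤ 2 * ((n : ℝ) * (n : ℝ) ^ 5) := by
              gcongr
          _ = 2 * (n : ℝ) ^ 6 := by ring
      have h4 : |z i| ≤ R := by
        rw [hR]
        exact_mod_cast h2
      exact abs_le.1 h4
    · rw [hf]
      ext i
      simp only []
      rw [hz i]
  · have h1 : (P.image f).card ≤ P.card := Finset.card_image_le
    have h2 : P.card = (4 * n ^ 6 + 1) ^ n := by
      rw [hP, Fintype.card_piFinset]
      simp only [Int.card_Icc, Finset.prod_const, Finset.card_univ, Fintype.card_fin]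
      congr 1
      rw [hR]
      have : (2 * (n:ℤ) ^ 6 + 1 - -(2 * (n:ℤ) ^ 6)) = ((4 * n ^ 6 + 1 : ℕ) : ℤ) := by
        push_cast; ring
      rw [this, Int.toNat_natCast]
    have h3 : (P.image f).card + 1 ≤ (n ^ 8) ^ n := by
      have h4 : 4 * n ^ 6 + 1 ≤ n ^ 7 := by
        have : 1 ≤ n ^ 6 := Nat.one_le_pow _ _ (by omega)
        calc 4 * n ^ 6 + 1 ≤ 5 * n ^ 6 := by omega
          _ ≤ n * n ^ 6 := Nat.mul_le_mul_right _ hn
          _ = n ^ 7 := by ring
      have h5 : (n ^ 7) ^ n + 1 ≤ (n ^ 8) ^ n := by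
        have h6 : n ^ 8 = n * n ^ 7 := by ring
        rw [h6, mul_pow]
        have h7 : 2 ≤ n ^ n := by
          calc 2 ≤ n := by omega
            _ = n ^ 1 := (pow_one n).symm
            _ ≤ n ^ n := Nat.pow_le_pow_right (by omega) (by omega)
        have h8 : 1 ≤ (n ^ 7) ^ n := Nat.one_le_pow _ _ (by positivity)
        nlinarith
      calc (P.image f).card + 1 ≤ P.card + 1 := by omega
        _ = (4 * n ^ 6 + 1) ^ n + 1 := by rw [h2]
        _ ≤ (n ^ 7) ^ n + 1 := by
          have := Nat.pow_le_pow_left h4 n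
          omega
        _ ≤ (n ^ 8) ^ n := h5
    have h9 : ((P.image f).card : ℝ) + 1 ≤ ((n : ℝ) ^ 8) ^ n := by exact_mod_cast h3
    refine h9.trans ?_
    have h10 : (n : ℝ) ≤ Real.exp n := by linarith [Real.add_one_le_exp (n : ℝ)]
    calc ((n : ℝ) ^ 8) ^ n ≤ ((Real.exp n) ^ 8) ^ n := by gcongr
      _ = Real.exp (8 * n ^ 2) := by
        rw [← pow_mul, ← Real.exp_nat_mul]
        congr 1
        push_cast
        ring

/-- the number of candidate center sets against the probability of one of them -/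
theorem count_bound (n : ℕ) (hn : 60 ≤ n) (g : ℝ) (hg0 : 0 ≤ g)
    (hg : g + 1 ≤ Real.exp (8 * n ^ 2)) :
    (g + 1) ^ ⌊Real.exp (2 * n)⌋₊ * Real.exp (-Real.exp (3 * n)) ≤ Real.exp (-8) := by
  set N : ℕ := ⌊Real.exp (2 * n)⌋₊ with hN
  have h1 : (N : ℝ) ≤ Real.exp (2 * n) := Nat.floor_le (Real.exp_pos _).le
  have h2 : (g + 1) ^ N ≤ Real.exp (N * (8 * n ^ 2)) := by
    rw [Real.exp_nat_mul]
    exact pow_le_pow_left₀ (by linarith) hg N
  have hnr : (60:ℝ) ≤ n := by exact_mod_cast hn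
  have h3 : (n : ℝ) ^ 3 / 6 ≤ Real.exp n := by
    have := Real.pow_div_factorial_le_exp (n : ℝ) (by linarith) 3
    have h6 : ((Nat.factorial 3 : ℕ) : ℝ) = 6 := by norm_num [Nat.factorial]
    rwa [h6] at this
  have h4 : 8 * (n : ℝ) ^ 2 + 8 ≤ Real.exp n := by
    nlinarith [sq_nonneg (n : ℝ)]
  have h5 : Real.exp (3 * n) = Real.exp (2 * n) * Real.exp n := by
    rw [← Real.exp_add]; congr 1; ring
  have h6 : (1:ℝ) ≤ Real.exp (2 * n) := Real.one_le_exp (by linarith)
  calc (g + 1) ^ N * Real.exp (-Real.exp (3 * n))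
      ≤ Real.exp (N * (8 * n ^ 2)) * Real.exp (-Real.exp (3 * n)) := by gcongr
    _ = Real.exp (N * (8 * n ^ 2) - Real.exp (3 * n)) := by
        rw [← Real.exp_add]; rfl
    _ ≤ Real.exp (-8) := by
        refine Real.exp_le_exp.2 ?_
        have h7 : (N : ℝ) * (8 * n ^ 2) ≤ Real.exp (2 * n) * (8 * n ^ 2) := by gcongr
        rw [h5]
        nlinarith

end Cov
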