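import Vale.Agent.Cov.Fixed
import Vale.Agent.Cov.ExGrid13

/-! # [X] choice of the random subset: union bound and volume of the body -/

namespace Cov

open MeasureTheory Finset
open scoped RealInnerProductSpace

theorem exA {κ c0 C3 : ℝ} (hκ : 1 ≤ κ) (hc0 : 0 < c0) (hC3 : 0 < C3) :
    ∃ c2 : ℝ, 0 < c2 ∧ ∃ n0 : ℕ, ∀ n ≥ n0, ∀ M : Mdl n κ (1 / (k0 : ℝ)) c0 C3,
      ∃ A : Finset (Fin M.N),
        ENNReal.ofReal (Real.exp (-7) * bv n) ≤ volume (M.K A) ∧
        ∀ T : Finset (E n), (∀ t ∈ T, t ∈ Grid n ∧ ‖t‖ ≤ 2) → (T.card : ℝ) ≤ Real.exp (2 * n) →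
          volume (Qc n \ {x | Good κ (c2 * n * Real.log n) T x}) ≤ volume (Qc n) / 2 →
          ∃ x ∈ Qc n, ∀ t ∈ T, x - t ∉ M.K A := by
  classical
  obtain ⟨c2, hc2, n1, hfix⟩ := fixedT hκ hc0 hC3
  refine ⟨c2, hc2, max n1 60, fun n hn M => ?_⟩
  have hn1 : n1 ≤ n := (le_max_left _ _).trans hn
  have hn60 : 60 ≤ n := (le_max_right _ _).trans hn
  obtain ⟨G, hG, hGc⟩ := grid_ball n (by omega)
  have hp0 : ∀ ω, 0 ≤ M.p ω := M.p_nonneg
  have hp1 : ∀ ω, M.p ω ≤ 1 := fun ω => (M.p_le ω).trans (by norm_num)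
  set N : ℕ := ⌊Real.exp (2 * n)⌋₊ with hN
  set TT : Finset (Finset (E n)) := (G.powerset.filter (fun T => T.card ≤ N)).filter
    (fun T => volume (Qc n \ {x | Good κ (c2 * n * Real.log n) T x}) ≤ volume (Qc n) / 2) with hTT
  set Cv : Finset (E n) → Finset (Fin M.N) → Prop := fun T A =>
    ∀ x ∈ Qc n, ∃ t ∈ T, x - t ∈ M.K A with hCv
  have hbad : Pr M.p (fun A => ∃ T ∈ TT, Cv T A) ≤ Real.exp (-8) := by
    calc Pr M.p (fun A => ∃ T ∈ TT, Cv T A) ≤ ∑ T ∈ TT, Pr M.p (Cv T) :=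
          Pr_exists_le hp0 hp1 TT Cv
      _ ≤ ∑ T ∈ TT, Real.exp (-Real.exp (3 * n)) := by
          refine Finset.sum_le_sum fun T hT => ?_
          rw [hTT, Finset.mem_filter, Finset.mem_filter] at hT
          refine hfix n hn1 M T ?_ hT.2
          calc (T.card : ℝ) ≤ (N : ℝ) := by exact_mod_cast hT.1.2
            _ ≤ Real.exp (2 * n) := Nat.floor_le (Real.exp_pos _).le
      _ = (TT.card : ℝ) * Real.exp (-Real.exp (3 * n)) := by
          rw [Finset.sum_const, nsmul_eq_mul]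
      _ ≤ ((G.card : ℝ) + 1) ^ N * Real.exp (-Real.exp (3 * n)) := by
          refine mul_le_mul_of_nonneg_right ?_ (Real.exp_pos _).le
          have h1 : TT.card ≤ (G.card + 1) ^ N :=
            (Finset.card_filter_le _ _).trans (card_small_subsets G N)
          exact_mod_cast h1
      _ ≤ Real.exp (-8) := count_bound n hn60 G.card (Nat.cast_nonneg _) hGc
  have hbv : 0 < bv n := bv_pos n
  have hmain : ∃ A : Finset (Fin M.N),
      ENNReal.ofReal (Real.exp (-7) * bv n) ≤ volume (M.K A) ∧ ¬ ∃ T ∈ TT, Cv T A := by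
    by_contra hcon
    push Not at hcon
    have hle : ∀ A : Finset (Fin M.N), (volume (M.K A)).toReal ≤
        Real.exp (-7) * bv n + bv n * (if ∃ T ∈ TT, Cv T A then (1:ℝ) else 0) := by
      intro A
      by_cases h : ∃ T ∈ TT, Cv T A
      · rw [if_pos h]
        have := vol_K_le M A
        have h2 : 0 ≤ Real.exp (-7) * bv n := by positivity
        linarith
      · rw [if_neg h, mul_zero, add_zero]
        by_contra hlt
        push Not at hlt
        refine h (hcon A ?_)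
        refine (ENNReal.ofReal_le_ofReal hlt.le).trans ?_
        exact ENNReal.ofReal_toReal_le
    have h1 : Ex M.p (fun A => (volume (M.K A)).toReal) ≤
        Real.exp (-7) * bv n + bv n * Pr M.p (fun A => ∃ T ∈ TT, Cv T A) := by
      refine (Ex_mono hp0 hp1 hle).trans (le_of_eq ?_)
      rw [Ex_add, Ex_const, Ex_mul_left]
      congr 2
      unfold Pr
      congr 1
      funext A
      congr
    have h2 := Ex_vol M (by linarith : (0:ℝ) ≤ κ)
    have h3 : Real.exp (-6) * bv n ≤ (Real.exp (-7) + Real.exp (-8)) * bv n := by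
      have h4 : bv n * Pr M.p (fun A => ∃ T ∈ TT, Cv T A) ≤ bv n * Real.exp (-8) := by gcongr
      linarith
    have h5 : Real.exp (-6) ≤ Real.exp (-7) + Real.exp (-8) := le_of_mul_le_mul_right h3 hbv
    have h6 : Real.exp (-7) = Real.exp (-8) * Real.exp 1 := by
      rw [← Real.exp_add]; norm_num
    have h7 : Real.exp (-6) = Real.exp (-8) * (Real.exp 1 * Real.exp 1) := by
      rw [← Real.exp_add, ← Real.exp_add]; norm_num
    have h8 : 2 ≤ Real.exp 1 := by linarith [Real.add_one_le_exp (1:ℝ)]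
    have h9 : 0 < Real.exp (-8) := Real.exp_pos _
    rw [h6, h7] at h5
    have h10 : Real.exp (-8) * (Real.exp 1 * Real.exp 1) ≤ Real.exp (-8) * (Real.exp 1 + 1) := by
      linarith
    have h11 := le_of_mul_le_mul_left h10 h9
    nlinarith
  obtain ⟨A, hA1, hA2⟩ := hmain
  refine ⟨A, hA1, fun T hT hTc hTg => ?_⟩
  by_contra hno
  push Not at hno
  refine hA2 ⟨T, ?_, hno⟩
  rw [hTT, Finset.mem_filter, Finset.mem_filter, Finset.mem_powerset]
  refine ⟨⟨fun t ht => hG t (hT t ht).1 (hT t ht).2, ?_⟩, hTg⟩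
  exact Nat.le_floor hTc

end Cov
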