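import Vale.Agent.Cov.Defs

/-! # volumes of balls and boxes, greedy selection -/

namespace Cov

open MeasureTheory Finset
open scoped RealInnerProductSpace

theorem bv_pos_aux (n : ℕ) : 0 < (volume (Metric.closedBall (0 : E n) 1)).toReal := by
  apply ENNReal.toReal_pos
  · exact (Metric.measure_closedBall_pos volume (0 : E n) one_pos).ne'
  · exact (measure_closedBall_lt_top).ne

theorem vol_ball_aux (n : ℕ) (x : E n) (r : ℝ) (hr : 0 ≤ r) :
    volume (Metric.closedBall x r)
      = ENNReal.ofReal (r ^ n * (volume (Metric.closedBall (0 : E n) 1)).toReal) := by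
  rw [Measure.addHaar_closedBall' volume x hr, finrank_euclideanSpace, Fintype.card_fin,
    ENNReal.ofReal_mul (by positivity), ENNReal.ofReal_toReal (measure_closedBall_lt_top).ne]

theorem vol_box (n : ℕ) (a b : Fin n → ℝ) :
    volume {x : E n | ∀ i, a i ≤ x i ∧ x i < b i} = ∏ i, ENNReal.ofReal (b i - a i) := by
  have h : {x : E n | ∀ i, a i ≤ x i ∧ x i < b i}
      = (@WithLp.ofLp 2 (Fin n → ℝ)) ⁻¹' (Set.univ.pi fun i => Set.Ico (a i) (b i)) := by
    ext x
    simp [Set.mem_pi]
  rw [h, (PiLp.volume_preserving_ofLp (Fin n)).measure_preimage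
    (MeasurableSet.univ_pi fun i => measurableSet_Ico).nullMeasurableSet]
  rw [Real.volume_pi_Ico]

theorem vol_Qc_aux (n : ℕ) (hn : 1 ≤ n) :
    volume (Qc n) = ENNReal.ofReal ((1 / Real.sqrt n) ^ n) := by
  have h := vol_box n (fun _ => 0) (fun _ => 1 / Real.sqrt n)
  unfold Qc
  rw [h]
  simp only [sub_zero, Finset.prod_const, Finset.card_univ, Fintype.card_fin]
  rw [ENNReal.ofReal_pow (by positivity)]

theorem bv_le_aux (n : ℕ) (hn : 1 ≤ n) :
    (volume (Metric.closedBall (0 : E n) 1)).toReal ≤ 5 ^ n * (1 / Real.sqrt n) ^ n := by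
  have hnpos : (0 : ℝ) < n := by exact_mod_cast hn
  set b : ℝ := (n : ℝ) / 2 with hb
  have hbpos : 0 < b := by positivity
  have hint := GaussianFourier.integral_rexp_neg_mul_sq_norm (V := E n) hbpos
  rw [finrank_euclideanSpace, Fintype.card_fin] at hint
  have hI : Integrable (fun v : E n => Real.exp (-b * ‖v‖ ^ 2)) := by
    by_contra hni
    rw [integral_undef hni] at hint
    have : 0 < (Real.pi / b) ^ ((n : ℝ) / 2) := by positivity
    linarith
  have h1 : ∫ v in Metric.closedBall (0 : E n) 1, Real.exp (-b)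
      ≤ ∫ v in Metric.closedBall (0 : E n) 1, Real.exp (-b * ‖v‖ ^ 2) := by
    apply setIntegral_mono_on
    · exact integrableOn_const (measure_closedBall_lt_top).ne
    · exact hI.integrableOn
    · exact measurableSet_closedBall
    · intro v hv
      apply Real.exp_le_exp.mpr
      have : ‖v‖ ≤ 1 := by simpa using hv
      have h2 : ‖v‖ ^ 2 ≤ 1 := by nlinarith [norm_nonneg v]
      nlinarith
  have h2 : ∫ v in Metric.closedBall (0 : E n) 1, Real.exp (-b * ‖v‖ ^ 2)
      ≤ ∫ v : E n, Real.exp (-b * ‖v‖ ^ 2) :=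
    setIntegral_le_integral hI (Filter.Eventually.of_forall fun v => (Real.exp_pos _).le)
  rw [setIntegral_const, smul_eq_mul] at h1
  have h3 : (volume (Metric.closedBall (0 : E n) 1)).toReal * Real.exp (-b)
      ≤ (Real.pi / b) ^ ((n : ℝ) / 2) := by
    have : (volume.real (Metric.closedBall (0 : E n) 1))
      = (volume (Metric.closedBall (0 : E n) 1)).toReal := rfl
    rw [this] at h1
    linarith
  have h4 : (volume (Metric.closedBall (0 : E n) 1)).toReal
      ≤ (Real.pi / b) ^ ((n : ℝ) / 2) * Real.exp b := by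
    have he : Real.exp (-b) * Real.exp b = 1 := by rw [← Real.exp_add]; simp
    calc (volume (Metric.closedBall (0 : E n) 1)).toReal
        = (volume (Metric.closedBall (0 : E n) 1)).toReal * Real.exp (-b) * Real.exp b := by
          rw [mul_assoc, he, mul_one]
      _ ≤ _ := mul_le_mul_of_nonneg_right h3 (Real.exp_pos _).le
  refine h4.trans ?_
  -- (π/b)^(n/2) e^b = (2 π e / n)^(n/2) ≤ (25/n)^(n/2)
  have h5 : Real.exp b = (Real.exp 1) ^ ((n : ℝ) / 2) := by
    rw [← Real.exp_mul, one_mul]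
  rw [h5, ← Real.mul_rpow (by positivity) (by positivity)]
  have h6 : (5 : ℝ) ^ n * (1 / Real.sqrt n) ^ n = (25 / (n : ℝ)) ^ ((n : ℝ) / 2) := by
    rw [← mul_pow]
    have h7 : (5 : ℝ) * (1 / Real.sqrt n) = Real.sqrt (25 / (n : ℝ)) := by
      rw [Real.sqrt_div (by norm_num)]
      have : Real.sqrt 25 = 5 := by
        rw [show (25 : ℝ) = 5 ^ 2 by norm_num]
        exact Real.sqrt_sq (by norm_num)
      rw [this]; ring
    rw [h7, Real.sqrt_eq_rpow, ← Real.rpow_natCast, ← Real.rpow_mul (by positivity)]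
    congr 1
    ring
  rw [h6]
  apply Real.rpow_le_rpow (by positivity) _ (by positivity)
  have hpi : Real.pi < 3.15 := Real.pi_lt_d2
  have hexp : Real.exp 1 < 2.7182818286 := Real.exp_one_lt_d9
  rw [hb]
  have : Real.pi / ((n : ℝ) / 2) * Real.exp 1 = (2 * Real.pi * Real.exp 1) / n := by
    field_simp
  rw [this]
  apply div_le_div_of_nonneg_right _ hnpos.le
  nlinarith [Real.pi_pos, Real.exp_pos 1]

theorem greedy_meas_aux {n : ℕ} (G : Set (E n)) (F : E n → Set (E n)) (v : ℝ) (hv : 0 ≤ v)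
    (hsymm : ∀ x y, x ∈ F y → y ∈ F x) (hself : ∀ x, x ∈ F x)
    (hF : ∀ x, volume (F x) ≤ ENNReal.ofReal v) (M : ℕ)
    (hG : ENNReal.ofReal (M * v) < volume G) :
    ∀ k : ℕ, k ≤ M → ∃ X : Finset (E n), X.card = k ∧ (∀ x ∈ X, x ∈ G) ∧
      ∀ x ∈ X, ∀ y ∈ X, x ≠ y → y ∉ F x := by
  classical
  intro k
  induction k with
  | zero => intro _; exact ⟨∅, by simp, by simp, by simp⟩
  | succ k ih =>
    intro hk
    obtain ⟨X, hc, hX, hsep⟩ := ih (by omega)
    have hne : ¬ G ⊆ ⋃ x ∈ X, F x := by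
      intro hsub
      have h1 : volume G ≤ ∑ x ∈ X, volume (F x) :=
        (measure_mono hsub).trans (measure_biUnion_finset_le X F)
      have h2 : ∑ x ∈ X, volume (F x) ≤ ∑ x ∈ X, ENNReal.ofReal v :=
        Finset.sum_le_sum fun x _ => hF x
      rw [Finset.sum_const, hc, nsmul_eq_mul] at h2
      have h3 : (k : ENNReal) * ENNReal.ofReal v ≤ ENNReal.ofReal (M * v) := by
        rw [ENNReal.ofReal_mul (by positivity), ENNReal.ofReal_natCast]
        gcongr
        omega
      exact absurd (h1.trans (h2.trans h3)) (not_le.mpr hG)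
    rw [Set.not_subset] at hne
    obtain ⟨x, hxG, hx⟩ := hne
    simp only [Set.mem_iUnion, not_exists] at hx
    have hxX : x ∉ X := fun h => hx x h (hself x)
    refine ⟨insert x X, by rw [Finset.card_insert_of_notMem hxX, hc], ?_, ?_⟩
    · intro y hy
      rcases Finset.mem_insert.mp hy with rfl | hy
      · exact hxG
      · exact hX y hy
    · intro y hy z hz hyz
      rcases Finset.mem_insert.mp hy with hy' | hy'
      · rcases Finset.mem_insert.mp hz with hz' | hz'
        · exact absurd (hy'.trans hz'.symm) hyz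
        · intro hzy
          rw [hy'] at hzy
          exact hx z hz' (hsymm _ _ hzy)
      · rcases Finset.mem_insert.mp hz with hz' | hz'
        · rw [hz']
          exact hx y hy'
        · exact hsep y hy' z hz' hyz

theorem norm_le_of_Qc_aux {n : ℕ} {x : E n} (hx : x ∈ Qc n) : ‖x‖ ≤ 1 := by
  rcases Nat.eq_zero_or_pos n with h0 | hn
  · subst h0
    have : x = 0 := Subsingleton.elim _ _
    rw [this]; simp
  have hnpos : (0 : ℝ) < n := by exact_mod_cast hn
  rw [EuclideanSpace.norm_eq]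
  rw [Real.sqrt_le_one]
  have h1 : ∀ i ∈ (Finset.univ : Finset (Fin n)), ‖x i‖ ^ 2 ≤ 1 / (n : ℝ) := by
    intro i _
    obtain ⟨h0, h1⟩ := hx i
    rw [Real.norm_eq_abs, sq_abs]
    have : 1 / (n : ℝ) = (1 / Real.sqrt n) ^ 2 := by
      rw [div_pow, one_pow, Real.sq_sqrt hnpos.le]
    rw [this]
    exact pow_le_pow_left₀ h0 h1.le 2
  refine (Finset.sum_le_sum h1).trans ?_
  rw [Finset.sum_const, Finset.card_univ, Fintype.card_fin, nsmul_eq_mul]
  rw [mul_one_div_cancel hnpos.ne']

end Cov
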