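import Vale.Agent.Cov.Defs
import Vale.Agent.Cov.Deep
import Vale.Agent.Cov.VolA

/-! # [V] volumes -/

namespace Cov

open MeasureTheory Finset
open scoped RealInnerProductSpace

/-- volume of the unit ball -/
noncomputable def bv (n : ℕ) : ℝ := (volume (Metric.closedBall (0 : E n) 1)).toReal

theorem bv_pos (n : ℕ) : 0 < bv n := bv_pos_aux n

theorem vol_ball (n : ℕ) (x : E n) (r : ℝ) (hr : 0 ≤ r) :
    volume (Metric.closedBall x r) = ENNReal.ofReal (r ^ n * bv n) :=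
  vol_ball_aux n x r hr

/-- `vol(B) ≤ 5^n n^(-n/2)`. -/
theorem bv_le (n : ℕ) (hn : 1 ≤ n) : bv n ≤ 5 ^ n * (1 / Real.sqrt n) ^ n :=
  bv_le_aux n hn

theorem vol_Qc (n : ℕ) (hn : 1 ≤ n) :
    volume (Qc n) = ENNReal.ofReal ((1 / Real.sqrt n) ^ n) :=
  vol_Qc_aux n hn

/-- at most `e^{-s}` of the ball has `σ ≥ s` -/
theorem vol_deep (n : ℕ) (hn : 1 ≤ n) (s : ℝ) (hs : 0 ≤ s) :
    volume {y : E n | ‖y‖ ≤ 1 ∧ s ≤ sg y} ≤ ENNReal.ofReal (Real.exp (-s) * bv n) :=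
  vol_deep_aux n hn s hs

/-- average of `κ σ + 1` over the ball is at most `κ + 1` -/
theorem int_cost (n : ℕ) (hn : 1 ≤ n) (κ : ℝ) (hκ : 0 ≤ κ) :
    ∫⁻ y in Metric.closedBall (0 : E n) 1, ENNReal.ofReal (κ * sg y + 1)
      ≤ ENNReal.ofReal ((κ + 1) * bv n) :=
  int_cost_aux n hn κ hκ

/-- greedy selection: `F` symmetric forbidden relation, `x ∈ F x`. -/
theorem greedy_meas {n : ℕ} (G : Set (E n)) (F : E n → Set (E n)) (v : ℝ) (hv : 0 ≤ v)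
    (hsymm : ∀ x y, x ∈ F y → y ∈ F x) (hself : ∀ x, x ∈ F x)
    (hF : ∀ x, volume (F x) ≤ ENNReal.ofReal v) (M : ℕ)
    (hG : ENNReal.ofReal (M * v) < volume G) :
    ∃ X : Finset (E n), X.card = M ∧ (∀ x ∈ X, x ∈ G) ∧
      ∀ x ∈ X, ∀ y ∈ X, x ≠ y → y ∉ F x :=
  greedy_meas_aux G F v hv hsymm hself hF M hG M le_rfl

end Cov
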