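import Vale.Agent.Cov.Prob
import Vale.Agent.Cov.Vol

/-! # [X] auxiliary facts: volume of the body on average, number of grid sets -/

namespace Cov

open MeasureTheory Finset
open scoped RealInnerProductSpace

theorem one_sub_ge_exp {x : ℝ} (h0 : 0 ≤ x) (h1 : x ≤ 1 / 2) :
    Real.exp (-(2 * x)) ≤ 1 - x := by
  have h2 : 1 + 2 * x ≤ Real.exp (2 * x) := by linarith [Real.add_one_le_exp (2 * x)]
  have h3 : 0 < 1 + 2 * x := by linarith
  rw [Real.exp_neg]
  calc (Real.exp (2 * x))⁻¹ ≤ (1 + 2 * x)⁻¹ := inv_anti₀ h3 h2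
    _ ≤ 1 - x := by
      rw [inv_eq_one_div, div_le_iff₀ h3]
      nlinarith

theorem card_small_subsets {α : Type*} [DecidableEq α] (G : Finset α) (N : ℕ) :
    (G.powerset.filter (fun T => T.card ≤ N)).card ≤ (G.card + 1) ^ N := by
  have hsub : G.powerset.filter (fun T => T.card ≤ N) ⊆
      (range (N + 1)).biUnion (fun k => powersetCard k G) := by
    intro T hT
    rw [Finset.mem_filter, Finset.mem_powerset] at hT
    rw [Finset.mem_biUnion]
    exact ⟨T.card, Finset.mem_range.2 (Nat.lt_succ_of_le hT.2), Finset.mem_powersetCard.2 ⟨hT.1, rfl⟩⟩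
  calc (G.powerset.filter (fun T => T.card ≤ N)).card
      ≤ ((range (N + 1)).biUnion (fun k => powersetCard k G)).card := Finset.card_le_card hsub
    _ ≤ ∑ k ∈ range (N + 1), (powersetCard k G).card := Finset.card_biUnion_le
    _ = ∑ k ∈ range (N + 1), G.card.choose k := by
        refine Finset.sum_congr rfl fun k _ => Finset.card_powersetCard k G
    _ ≤ ∑ k ∈ range (N + 1), G.card ^ k * 1 ^ (N - k) * N.choose k := by
        refine Finset.sum_le_sum fun k hk => ?_
        have h1 : G.card.choose k ≤ G.card ^ k := Nat.choose_le_pow _ _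
        have h2 : 1 ≤ N.choose k := Nat.choose_pos (Nat.lt_succ_iff.1 (Finset.mem_range.1 hk))
        calc G.card.choose k ≤ G.card ^ k := h1
          _ = G.card ^ k * 1 ^ (N - k) * 1 := by ring
          _ ≤ G.card ^ k * 1 ^ (N - k) * N.choose k := Nat.mul_le_mul_left _ h2
    _ = (G.card + 1) ^ N := (add_pow _ _ _).symm

variable {n : ℕ} {κ ρ c0 C3 : ℝ}

theorem K_closed (M : Mdl n κ ρ c0 C3) (A : Finset (Fin M.N)) : IsClosed (M.K A) := by
  have h : M.K A = {y : E n | ‖y‖ ≤ 1} ∩ ⋂ ω ∈ A, {y : E n | ⟪M.a ω, y⟫ ≤ M.b ω} := by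
    ext y
    simp [Mdl.K]
  rw [h]
  refine IsClosed.inter (isClosed_le continuous_norm continuous_const) ?_
  refine isClosed_biInter fun ω _ => ?_
  exact isClosed_le (continuous_const.inner continuous_id) continuous_const

theorem K_subset (M : Mdl n κ ρ c0 C3) (A : Finset (Fin M.N)) :
    M.K A ⊆ Metric.closedBall (0 : E n) 1 := by
  intro y hy
  rw [mem_closedBall_zero_iff]
  exact hy.1

theorem mem_K_iff (M : Mdl n κ ρ c0 C3) (A : Finset (Fin M.N)) {y : E n} (hy : ‖y‖ ≤ 1) :
    y ∈ M.K A ↔ ¬ Hit (M.C y) A := by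
  unfold Mdl.K Hit Mdl.C
  simp only [Set.mem_ofPred_eq, hy, true_and, Finset.not_nonempty_iff_eq_empty]
  rw [Finset.eq_empty_iff_forall_notMem]
  constructor
  · intro h ω hω
    simp only [Finset.mem_inter, Finset.mem_filter, Finset.mem_univ, true_and] at hω
    exact absurd (h ω hω.1) (not_le.2 hω.2)
  · intro h ω hω
    by_contra hlt
    refine h ω ?_
    simp only [Finset.mem_inter, Finset.mem_filter, Finset.mem_univ, true_and]
    exact ⟨hω, not_le.1 hlt⟩

theorem vol_K_le (M : Mdl n κ ρ c0 C3) (A : Finset (Fin M.N)) :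
    (volume (M.K A)).toReal ≤ bv n := by
  unfold bv
  exact ENNReal.toReal_mono (measure_closedBall_lt_top).ne (measure_mono (K_subset M A))

theorem Pr_mem_K (M : Mdl n κ ρ c0 C3) (hκ : 0 ≤ κ) {y : E n} (hy : ‖y‖ ≤ 1) :
    Real.exp (-6) ≤ Pr M.p (fun A => ¬ Hit (M.C y) A) := by
  rw [Pr_miss]
  have h1 : ∏ ω ∈ M.C y, Real.exp (-(2 * M.p ω)) ≤ ∏ ω ∈ M.C y, (1 - M.p ω) := by
    refine Finset.prod_le_prod (fun ω _ => (Real.exp_pos _).le) fun ω _ => ?_
    exact one_sub_ge_exp (M.p_nonneg ω) (M.p_le ω)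
  refine le_trans ?_ h1
  rw [← Real.exp_sum]
  refine Real.exp_le_exp.2 ?_
  rw [Finset.sum_neg_distrib, ← Finset.mul_sum]
  have h2 : ∑ ω ∈ M.C y, M.p ω ≤ Real.exp (1 - κ * sg y) := M.upper y hy
  have h3 : 0 ≤ sg y := by
    unfold sg
    have : ‖y‖ ^ 2 ≤ 1 := pow_le_one₀ (norm_nonneg y) hy
    have h4 : 0 ≤ 1 - ‖y‖ ^ 2 := by linarith
    positivity
  have h4 : Real.exp (1 - κ * sg y) ≤ Real.exp 1 := by
    refine Real.exp_le_exp.2 ?_
    have := mul_nonneg hκ h3
    linarith
  have h5 := Real.exp_one_lt_three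
  linarith

theorem Ex_vol (M : Mdl n κ ρ c0 C3) (hκ : 0 ≤ κ) :
    Real.exp (-6) * bv n ≤ Ex M.p (fun A => (volume (M.K A)).toReal) := by
  classical
  set B : Set (E n) := Metric.closedBall (0 : E n) 1 with hB
  have hBm : MeasurableSet B := Metric.isClosed_closedBall.measurableSet
  have hBf : volume B ≠ ⊤ := measure_closedBall_lt_top.ne
  have hfin : IsFiniteMeasure (volume.restrict B) := ⟨by
    rw [Measure.restrict_apply_univ]; exact measure_closedBall_lt_top⟩
  have h1 : ∀ A : Finset (Fin M.N), (volume (M.K A)).toReal =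
      ∫ y in B, (M.K A).indicator (fun _ => (1:ℝ)) y := by
    intro A
    have := integral_indicator_const (μ := volume.restrict B) (1:ℝ) (K_closed M A).measurableSet
    rw [this, smul_eq_mul, mul_one, Measure.real, Measure.restrict_apply (K_closed M A).measurableSet,
      Set.inter_eq_left.2 (K_subset M A)]
  have hint : ∀ A : Finset (Fin M.N),
      Integrable (fun y => wt M.p A * (M.K A).indicator (fun _ => (1:ℝ)) y)
        (volume.restrict B) := by
    intro A
    refine Integrable.const_mul ?_ _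
    exact (integrable_const (1:ℝ)).indicator (K_closed M A).measurableSet
  have h2 : Ex M.p (fun A => (volume (M.K A)).toReal) =
      ∫ y in B, ∑ A : Finset (Fin M.N), wt M.p A * (M.K A).indicator (fun _ => (1:ℝ)) y := by
    rw [integral_finsetSum _ fun A _ => hint A]
    unfold Ex
    refine Finset.sum_congr rfl fun A _ => ?_
    beta_reduce
    rw [integral_const_mul, h1 A]
  have h3 : ∫ _ in B, Real.exp (-6) = Real.exp (-6) * bv n := by
    rw [setIntegral_const, smul_eq_mul, mul_comm]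
    rfl
  rw [h2, ← h3]
  refine setIntegral_mono_on ?_ ?_ hBm ?_
  · exact integrable_const _
  · exact integrable_finsetSum _ fun A _ => hint A
  · intro y hy
    have hy1 : ‖y‖ ≤ 1 := by rwa [hB, mem_closedBall_zero_iff] at hy
    have h4 := Pr_mem_K M hκ hy1
    refine h4.trans (le_of_eq ?_)
    unfold Pr Ex
    refine Finset.sum_congr rfl fun A _ => ?_
    congr 1
    beta_reduce
    by_cases h : y ∈ M.K A
    · rw [Set.indicator_of_mem h, if_pos ((mem_K_iff M A hy1).1 h)]
    · rw [Set.indicator_of_notMem h, if_neg (fun h' => h ((mem_K_iff M A hy1).2 h'))]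

end Cov
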