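import Vale.Agent.Cov.Main26

/-! # [R2] from `main` to the covering density of the problem -/

namespace Cov

open MeasureTheory Filter
open scoped Pointwise

theorem isBounded_QR (n : ℕ) (R : ℝ) : Bornology.IsBounded (QR n R) := by
  refine (Metric.isBounded_closedBall (x := (0 : E n)) (r := Real.sqrt (n * R ^ 2))).subset ?_
  intro x hx
  rw [mem_closedBall_zero_iff, EuclideanSpace.norm_eq]
  apply Real.sqrt_le_sqrt
  calc ∑ i, ‖x i‖ ^ 2 ≤ ∑ _i : Fin n, R ^ 2 := by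
        refine Finset.sum_le_sum fun i _ => ?_
        rw [Real.norm_eq_abs]
        exact pow_le_pow_left₀ (abs_nonneg _) (hx i) 2
    _ = n * R ^ 2 := by simp

theorem LocallyFiniteSet.locFin {n : ℕ} {X : Set (E n)} (h : LocallyFiniteSet X) : LocFin X :=
  fun R => h _ (isBounded_QR n R)

theorem lower : ∃ c : ℝ, 0 < c ∧ ∃ n₀ : ℕ, ∀ n : ℕ, n₀ ≤ n →
    ∃ K : Set (EuclideanSpace ℝ (Fin n)), IsBody K ∧
      ENNReal.ofReal (c * n * Real.log n) ≤ thetaT K := by
  obtain ⟨c, hc, n₀, h⟩ := main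
  refine ⟨c, hc, n₀, fun n hn => ?_⟩
  obtain ⟨K, h1, h2, h3, h4⟩ := h n hn
  refine ⟨K, ⟨h1, h2, h3⟩, ?_⟩
  unfold thetaT
  refine le_iInf fun X => le_iInf fun hX => le_iInf fun hK => ?_
  refine h4 X hX.locFin fun x => ?_
  have hx : x ∈ K + X := by rw [hK]; exact Set.mem_univ x
  obtain ⟨y, hy, t, ht, rfl⟩ := hx
  exact ⟨t, ht, by rw [add_sub_cancel_right]; exact hy⟩

theorem no_linear : ¬ ∃ C : ℝ, ∀ (n : ℕ) (K : Set (EuclideanSpace ℝ (Fin n))),
    IsBody K → thetaT K ≤ ENNReal.ofReal (C * n) := by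
  rintro ⟨C, hC⟩
  obtain ⟨c, hc, n₀, h⟩ := lower
  have h1 : Tendsto (fun n : ℕ => c * Real.log n) atTop atTop :=
    (Real.tendsto_log_atTop.comp tendsto_natCast_atTop_atTop).const_mul_atTop hc
  obtain ⟨n, hn0, hn1, hn2⟩ := ((h1.eventually_gt_atTop (max C 0)).and
    ((eventually_ge_atTop n₀).and (eventually_ge_atTop 1))).exists
  obtain ⟨K, hK, hlow⟩ := h n hn1
  have h2 := hlow.trans (hC n K hK)
  have hnpos : (0 : ℝ) < n := by exact_mod_cast hn2
  have h3 : (0 : ℝ) < c * Real.log n := (le_max_right C 0).trans_lt hn0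
  have h4 : C < c * Real.log n := (le_max_left C 0).trans_lt hn0
  have h5 : (0 : ℝ) < c * n * Real.log n := by nlinarith
  have h6 : C * n < c * n * Real.log n := by nlinarith
  exact absurd h2 (not_le.2 ((ENNReal.ofReal_lt_ofReal_iff h5).2 h6))

end Cov
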