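import Mathlib

/-! # [F] numerical facts for large `n` -/

namespace Cov

open Filter

theorem num_ev (c2 : ℝ) (hc : 0 < c2) (hc1 : c2 ≤ 1) : ∀ᶠ n : ℕ in atTop,
    1 ≤ c2 * n * Real.log n ∧ c2 * n * Real.log n ≤ (n : ℝ) ^ (1.01 : ℝ) ∧
    (c2 * n * Real.log n) ^ 2 * Real.exp (1 - n * ((n : ℝ) ^ (-0.01 : ℝ)) ^ 2 / 8)
      / Real.exp (-(n : ℝ) ^ (0.95 : ℝ)) ^ 2 ≤ 1 := by
  have hlog : ∀ r : ℝ, 0 < r → ∀ᶠ n : ℕ in atTop, Real.log n ≤ (n : ℝ) ^ r := by
    intro r hr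
    have h := (isLittleO_log_rpow_atTop hr).bound (c := 1) one_pos
    have h2 := tendsto_natCast_atTop_atTop (R := ℝ) |>.eventually h
    filter_upwards [h2, eventually_ge_atTop 1] with n hn hn1
    have : (0 : ℝ) ≤ (n : ℝ) ^ r := by positivity
    rw [one_mul, Real.norm_eq_abs, Real.norm_eq_abs, abs_of_nonneg this] at hn
    exact (le_abs_self _).trans hn
  have hbig : ∀ C : ℝ, ∀ᶠ n : ℕ in atTop, C ≤ (n : ℝ) ^ (0.03 : ℝ) := by
    intro C
    have := (tendsto_rpow_atTop (by norm_num : (0 : ℝ) < 0.03)).comp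
      (tendsto_natCast_atTop_atTop (R := ℝ))
    exact this.eventually_ge_atTop C
  have hl : ∀ᶠ n : ℕ in atTop, (1 : ℝ) ≤ Real.log n := by
    have := Real.tendsto_log_atTop.comp (tendsto_natCast_atTop_atTop (R := ℝ))
    exact this.eventually_ge_atTop 1
  have hn1 : ∀ᶠ n : ℕ in atTop, 1 / c2 ≤ (n : ℝ) :=
    (tendsto_natCast_atTop_atTop (R := ℝ)).eventually_ge_atTop _
  filter_upwards [hlog 0.01 (by norm_num), hbig 64, hl, hn1, eventually_ge_atTop 1]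
    with n h1 h3 h4 h5 h6
  have hn : (1 : ℝ) ≤ n := by exact_mod_cast h6
  have hn0 : (0 : ℝ) < n := by linarith
  have hA : 1 ≤ c2 * n * Real.log n := by
    have : 1 ≤ c2 * n := by
      rw [div_le_iff₀ hc] at h5
      linarith
    nlinarith
  have hB : c2 * n * Real.log n ≤ (n : ℝ) ^ (1.01 : ℝ) := by
    have e : (n : ℝ) ^ (1.01 : ℝ) = n * (n : ℝ) ^ (0.01 : ℝ) := by
      rw [show (1.01 : ℝ) = 1 + 0.01 by norm_num, Real.rpow_add hn0, Real.rpow_one]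
    rw [e]
    have : c2 * n * Real.log n ≤ 1 * n * Real.log n := by
      have : 0 ≤ (n : ℝ) * Real.log n := by nlinarith
      nlinarith
    nlinarith
  refine ⟨hA, hB, ?_⟩
  have hsq : (n : ℝ) * ((n : ℝ) ^ (-0.01 : ℝ)) ^ 2 = (n : ℝ) ^ (0.98 : ℝ) := by
    rw [← Real.rpow_natCast, ← Real.rpow_mul hn0.le]
    nth_rewrite 1 [← Real.rpow_one (n : ℝ)]
    rw [← Real.rpow_add hn0]
    norm_num
  rw [hsq]
  have h98 : (n : ℝ) ^ (0.98 : ℝ) = (n : ℝ) ^ (0.95 : ℝ) * (n : ℝ) ^ (0.03 : ℝ) := by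
    rw [← Real.rpow_add hn0]
    norm_num
  have h95 : (1 : ℝ) ≤ (n : ℝ) ^ (0.95 : ℝ) := Real.one_le_rpow hn (by norm_num)
  have hle : c2 * n * Real.log n ≤ Real.exp ((n : ℝ) ^ (0.95 : ℝ) * 2) := by
    refine hB.trans ?_
    have e : (n : ℝ) ^ (1.01 : ℝ) = Real.exp (Real.log n * 1.01) := by
      rw [Real.rpow_def_of_pos hn0]
    rw [e]
    apply Real.exp_le_exp.mpr
    have : Real.log n ≤ (n : ℝ) ^ (0.95 : ℝ) :=
      h1.trans (Real.rpow_le_rpow_of_exponent_le hn (by norm_num))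
    nlinarith
  rw [div_le_one (by positivity)]
  have hpos : 0 ≤ c2 * n * Real.log n := by linarith
  calc (c2 * n * Real.log n) ^ 2 * Real.exp (1 - (n : ℝ) ^ (0.98 : ℝ) / 8)
      ≤ (Real.exp ((n : ℝ) ^ (0.95 : ℝ) * 2)) ^ 2 * Real.exp (1 - (n : ℝ) ^ (0.98 : ℝ) / 8) :=
        mul_le_mul_of_nonneg_right (pow_le_pow_left₀ hpos hle 2) (Real.exp_pos _).le
    _ = Real.exp (4 * (n : ℝ) ^ (0.95 : ℝ) + 1 - (n : ℝ) ^ (0.98 : ℝ) / 8) := by
        rw [← Real.exp_nat_mul, ← Real.exp_add]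
        congr 1
        push_cast
        ring
    _ ≤ Real.exp (-(2 * (n : ℝ) ^ (0.95 : ℝ))) := by
        apply Real.exp_le_exp.mpr
        rw [h98]
        nlinarith
    _ = Real.exp (-(n : ℝ) ^ (0.95 : ℝ)) ^ 2 := by
        rw [← Real.exp_nat_mul]
        congr 1
        push_cast
        ring

theorem num_pow (n : ℕ) (hn : 2 ≤ n) (L : ℕ) (hL : Real.exp (4 * n) ≤ L) :
    ((3 : ℝ) / 4) ^ L ≤ Real.exp (-Real.exp (3 * n)) := by
  have h34 : (3 : ℝ) / 4 ≤ Real.exp (-(1 / 4)) := by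
    have := Real.add_one_le_exp (-(1 / 4 : ℝ))
    linarith
  calc ((3 : ℝ) / 4) ^ L ≤ (Real.exp (-(1 / 4))) ^ L :=
        pow_le_pow_left₀ (by norm_num) h34 L
    _ = Real.exp (-(L / 4)) := by
        rw [← Real.exp_nat_mul]
        congr 1
        ring
    _ ≤ Real.exp (-Real.exp (3 * n)) := by
        apply Real.exp_le_exp.mpr
        have e : Real.exp (4 * n) = Real.exp (3 * n) * Real.exp n := by
          rw [← Real.exp_add]; congr 1; ring
        have h4 : (4 : ℝ) ≤ Real.exp n := by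
          have h2 : (2 : ℝ) ≤ n := by exact_mod_cast hn
          have := Real.add_one_lt_exp (show (1 : ℝ) ≠ 0 by norm_num)
          have h5 : Real.exp 2 = Real.exp 1 * Real.exp 1 := by rw [← Real.exp_add]; norm_num
          have h6 : Real.exp 2 ≤ Real.exp n := Real.exp_le_exp.mpr h2
          nlinarith
        have := Real.exp_pos (3 * (n : ℝ))
        nlinarith

end Cov
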