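import Vale.Agent.Cov.FixedA
import Vale.Agent.Cov.FixedN

/-! # [F] the probability that a fixed set of centers covers the small cube -/

namespace Cov

open MeasureTheory Finset
open scoped RealInnerProductSpace

theorem measurable_good {n : ℕ} (κ G : ℝ) (T : Finset (E n)) :
    MeasurableSet {x : E n | Good κ G T x} := measurable_good' κ G T

theorem zero_mem_Qc {n : ℕ} (hn : 1 ≤ n) : (0 : E n) ∈ Qc n := by
  intro i
  have : (0 : ℝ) < Real.sqrt n := Real.sqrt_pos.mpr (by exact_mod_cast hn)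
  refine ⟨le_refl _, ?_⟩
  show (0 : ℝ) < 1 / Real.sqrt n
  positivity

/-- a point all of whose sets are hit is not covered -/
theorem not_covered {n : ℕ} {κ ρ c0 C3 : ℝ} (M : Mdl n κ ρ c0 C3) {T : Finset (E n)} {x : E n}
    {A : Finset (Fin M.N)} (h : ∀ t ∈ Tx T x, Hit (M.C (x - t)) A) {t : E n} (ht : t ∈ T) :
    x - t ∉ M.K A := by
  classical
  intro hK
  have htx : t ∈ Tx T x := Finset.mem_filter.mpr ⟨ht, hK.1⟩
  obtain ⟨ω, hω⟩ := h t htx
  rw [Finset.mem_inter] at hω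
  have h1 := hK.2 ω hω.1
  have h2 := (Finset.mem_filter.mp hω.2).2
  exact absurd h1 (not_le.mpr h2)

theorem fixedT {κ c0 C3 : ℝ} (hκ : 1 ≤ κ) (hc0 : 0 < c0) (hC3 : 0 < C3) :
    ∃ c2 : ℝ, 0 < c2 ∧ ∃ n0 : ℕ, ∀ n ≥ n0, ∀ M : Mdl n κ (1 / (k0 : ℝ)) c0 C3,
      ∀ T : Finset (E n), (T.card : ℝ) ≤ Real.exp (2 * n) →
        volume (Qc n \ {x | Good κ (c2 * n * Real.log n) T x}) ≤ volume (Qc n) / 2 →
        Pr M.p (fun A => ∀ x ∈ Qc n, ∃ t ∈ T, x - t ∈ M.K A) ≤ Real.exp (-Real.exp (3 * n)) := by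
  classical
  obtain ⟨C5, hC5, n1, hobj⟩ := obj (κ := κ) (ρ := 1 / (k0 : ℝ)) (c0 := c0) (C3 := C3) hκ hc0 hC3
  obtain ⟨n2, hblk⟩ := sel_blocks
  obtain ⟨n3, hpts⟩ := sel_points
  set c2 : ℝ := 0.005 / (C5 + 1) with hc2
  have hc2pos : 0 < c2 := by positivity
  have hc2le : c2 ≤ 1 := by
    rw [hc2, div_le_one (by positivity)]
    linarith
  have hc2C : C5 * c2 ≤ 0.005 := by
    rw [hc2, mul_div_assoc', div_le_iff₀ (by positivity)]
    nlinarith
  obtain ⟨n4, hnum⟩ := Filter.eventually_atTop.mp (num_ev c2 hc2pos hc2le)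
  refine ⟨c2, hc2pos, max (max n1 n2) (max n3 (max n4 2)), ?_⟩
  intro n hn M T hT hgood
  have hn1 : n1 ≤ n := le_trans (le_trans (le_max_left _ _) (le_max_left _ _)) hn
  have hn2 : n2 ≤ n := le_trans (le_trans (le_max_right _ _) (le_max_left _ _)) hn
  have hn3 : n3 ≤ n := le_trans (le_trans (le_max_left _ _) (le_max_right _ _)) hn
  have hn4 : n4 ≤ n := le_trans (le_trans (le_trans (le_max_left _ _) (le_max_right _ _))
    (le_max_right _ _)) hn
  have hn5 : 2 ≤ n := le_trans (le_trans (le_trans (le_max_right _ _) (le_max_right _ _))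
    (le_max_right _ _)) hn
  obtain ⟨hG1, hG2, hG3⟩ := hnum n hn4
  set G : ℝ := c2 * n * Real.log n with hG
  have hp0 := M.p_nonneg
  have hp1 : ∀ ω, M.p ω ≤ 1 := fun ω => (M.p_le ω).trans (by norm_num)
  have hnpos : (0 : ℝ) < n := by exact_mod_cast (by omega : 0 < n)
  -- empty center set
  rcases T.eq_empty_or_nonempty with hTe | hTne
  · have hF : (fun A : Finset (Fin M.N) => ∀ x ∈ Qc n, ∃ t ∈ T, x - t ∈ M.K A)
        = fun _ => False := by
      funext A
      apply propext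
      constructor
      · intro h
        obtain ⟨t, ht, _⟩ := h 0 (zero_mem_Qc (by omega))
        rw [hTe] at ht
        simp at ht
      · intro h
        exact h.elim
    rw [hF]
    have : Pr M.p (fun _ => False) = 0 := by
      unfold Pr Ex
      simp
    rw [this]
    exact (Real.exp_pos _).le
  -- blocks
  set Gd : Set (E n) := {x | Good κ G T x} with hGd
  have hGm : MeasurableSet Gd := measurable_good κ G T
  obtain ⟨L, hLcard, hLgood, hLfar⟩ := hblk n hn2 T Gd hGm hTne hT hgood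
  have hX : ∀ l : Fin n → Fin k0, ∃ X : Finset (E n), l ∈ L →
      (n : ℝ) ^ (0.005 * (n : ℝ)) ≤ X.card ∧ (∀ x ∈ X, x ∈ Pc n l ∩ Gd) ∧
      ∀ x ∈ X, ∀ x' ∈ X, x ≠ x' → ∀ t ∈ T, ∀ t' ∈ T,
        (n : ℝ) ^ (-0.01 : ℝ) ≤ ‖(x - t) - (x' - t')‖ := by
    intro l
    by_cases hl : l ∈ L
    · obtain ⟨X, h1, h2, h3⟩ := hpts n hn3 T Gd l hGm hTne hT (hLgood l hl)
      exact ⟨X, fun _ => ⟨h1, h2, h3⟩⟩
    · exact ⟨∅, fun h => absurd h hl⟩
  choose X hX using hX
  have hFx : ∀ x : E n, ∃ F : Finset (Finset (Fin M.N)), x ∈ Gd →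
        (∀ S ∈ F, ∃ t ∈ Tx T x, S ⊆ M.C (x - t)) ∧
        (∀ A, Hits F A → ∀ t ∈ Tx T x, Hit (M.C (x - t)) A) ∧
        Real.exp (-(C5 * G)) ≤ ∏ S ∈ F, Pr M.p (Hit S) ∧
        ∀ ω, Real.exp (-(n : ℝ) ^ (0.95 : ℝ))
          ≤ ∏ S ∈ F.filter (fun S => ω ∈ S), Pr M.p (Hit S) := by
    intro x
    by_cases hx : x ∈ Gd
    · obtain ⟨F, hF⟩ := hobj n hn1 M G hG1 hG2 T x hx
      exact ⟨F, fun _ => hF⟩
    · exact ⟨∅, fun h => absurd h hx⟩
  choose F hF using hFx
  set D : (Fin n → Fin k0) → Finset (Fin M.N) := fun l =>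
    (X l).biUnion fun x => (Tx T x).biUnion fun t => M.C (x - t) with hD
  have hmain := blocks (p := M.p) hp0 hp1 L X (fun _ x => F x) D ?_ ?_ ?_
  · refine le_trans ?_ (hmain.trans (num_pow n hn5 _ hLcard))
    refine Pr_mono hp0 hp1 ?_
    intro A hA l hl
    rintro ⟨x, hx, hhit⟩
    obtain ⟨_, hXl, _⟩ := hX l hl
    have hxG := hXl x hx
    obtain ⟨t, ht, htK⟩ := hA x (Pc_subset n l hxG.1)
    exact not_covered M ((hF x hxG.2).2.1 A hhit) ht htK
  · -- disjointness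
    intro l hl l' hl' hne
    rw [Finset.disjoint_left]
    intro ω hω hω'
    simp only [hD, Finset.mem_biUnion] at hω hω'
    obtain ⟨x, hx, t, ht, h1⟩ := hω
    obtain ⟨x', hx', t', ht', h2⟩ := hω'
    have hxG := (hX l hl).2.1 x hx
    have hxG' := (hX l' hl').2.1 x' hx'
    have hfar := hLfar l hl l' hl' hne x hxG.1 x' hxG'.1 t (Finset.mem_filter.mp ht).1 t'
      (Finset.mem_filter.mp ht').1
    have hr := M.range ω (x - t) (x' - t') (Finset.mem_filter.mp ht).2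
      (Finset.mem_filter.mp ht').2 (Finset.mem_filter.mp h1).2 (Finset.mem_filter.mp h2).2
    exact absurd hr (not_le.mpr hfar)
  · intro l hl x hx B hB
    have hxG := (hX l hl).2.1 x hx
    obtain ⟨t, ht, hsub⟩ := (hF x hxG.2).1 B hB
    refine hsub.trans ?_
    intro ω hω
    simp only [hD, Finset.mem_biUnion]
    exact ⟨x, hx, t, ht, hω⟩
  · -- one block
    intro l hl
    obtain ⟨hXc, hXl, hXfar⟩ := hX l hl
    have hpow : (0 : ℝ) < (n : ℝ) ^ (0.005 * (n : ℝ)) := Real.rpow_pos_of_pos hnpos _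
    have hcpos : (0 : ℝ) < (X l).card := lt_of_lt_of_le hpow hXc
    have hXne : (X l).Nonempty := by
      rw [← Finset.card_pos]
      exact_mod_cast hcpos
    refine block hp0 hp1 (X l) hXne F ?_ ?_
    · intro x hx
      have hxG := hXl x hx
      refine le_trans ?_ (Pr_hits_ge hp0 hp1 (F x))
      refine le_trans ?_ (hF x hxG.2).2.2.1
      have e1 : 1 / ((X l).card : ℝ) ≤ 1 / (n : ℝ) ^ (0.005 * (n : ℝ)) :=
        one_div_le_one_div_of_le hpow hXc
      refine e1.trans ?_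
      have e2 : (n : ℝ) ^ (0.005 * (n : ℝ)) = Real.exp (Real.log n * (0.005 * n)) :=
        Real.rpow_def_of_pos hnpos _
      rw [e2, one_div, ← Real.exp_neg]
      apply Real.exp_le_exp.mpr
      have hlog : 0 ≤ Real.log n := Real.log_natCast_nonneg n
      have : C5 * G ≤ 0.005 * (n * Real.log n) := by
        have h0 : 0 ≤ (n : ℝ) * Real.log n := mul_nonneg hnpos.le hlog
        calc C5 * G = (C5 * c2) * (n * Real.log n) := by rw [hG]; ring
          _ ≤ 0.005 * (n * Real.log n) := mul_le_mul_of_nonneg_right hc2C h0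
      linarith
    · intro x hx y hy hxy
      have hxG := hXl x hx
      have hyG := hXl y hy
      set S := (Tx T x ×ˢ Tx T y).biUnion (fun q => M.C (x - q.1) ∩ M.C (y - q.2)) with hS
      have hpb := pair_bound hp0 hp1 (F x) (F y) S ?_ (h := Real.exp (-(n : ℝ) ^ (0.95 : ℝ)))
        (Real.exp_pos _) (hF x hxG.2).2.2.2 (hF y hyG.2).2.2.2
      · refine hpb.trans ?_
        have hnu : nu M.p S ≤ G ^ 2 * Real.exp (1 - n * ((n : ℝ) ^ (-0.01 : ℝ)) ^ 2 / 8) :=
          nu_pair_le M hκ (Real.rpow_nonneg hnpos.le _) hxG.2 hyG.2 (hXfar x hx y hy hxy)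
        have hexp : Real.exp (nu M.p S / Real.exp (-(n : ℝ) ^ (0.95 : ℝ)) ^ 2)
            ≤ Real.exp 1 := by
          apply Real.exp_le_exp.mpr
          refine le_trans ?_ hG3
          exact div_le_div_of_nonneg_right hnu (by positivity)
        have hx0 := Pr_nonneg hp0 hp1 (Hits (F x))
        have hy0 := Pr_nonneg hp0 hp1 (Hits (F y))
        calc Pr M.p (Hits (F x)) * Pr M.p (Hits (F y))
              * Real.exp (nu M.p S / Real.exp (-(n : ℝ) ^ (0.95 : ℝ)) ^ 2)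
            ≤ Pr M.p (Hits (F x)) * Pr M.p (Hits (F y)) * Real.exp 1 :=
              mul_le_mul_of_nonneg_left hexp (mul_nonneg hx0 hy0)
          _ = Real.exp 1 * (Pr M.p (Hits (F x)) * Pr M.p (Hits (F y))) := by ring
      · intro B hB B' hB' ω hω
        rw [Finset.mem_inter] at hω
        obtain ⟨t, ht, hsub⟩ := (hF x hxG.2).1 B hB
        obtain ⟨t', ht', hsub'⟩ := (hF y hyG.2).1 B' hB'
        rw [hS, Finset.mem_biUnion]
        refine ⟨(t, t'), Finset.mem_product.mpr ⟨ht, ht'⟩, ?_⟩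
        exact Finset.mem_inter.mpr ⟨hsub hω.1, hsub' hω.2⟩

end Cov
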