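import Vale.Agent.Cov.ObjB23

/-! # [O] the sets to be met for one good point: assembly -/

namespace Cov

open MeasureTheory Finset Filter
open scoped RealInnerProductSpace

variable {n : ℕ} {κ ρ c0 C3 : ℝ}

theorem obj23_large (K c0 : ℝ) :
    ∃ n0 : ℕ, ∀ n ≥ n0, 2 ≤ n ∧ 6 / c0 ≤ (n : ℝ) ∧ K * (1 + Real.log n) ≤ (n : ℝ) ^ (0.03 : ℝ) ∧
      2 ≤ (n : ℝ) ^ (0.01 : ℝ) := by
  have h1 : ∀ᶠ n : ℕ in atTop, 2 ≤ n := eventually_ge_atTop 2
  have h2 : ∀ᶠ n : ℕ in atTop, 6 / c0 ≤ (n : ℝ) :=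
    tendsto_natCast_atTop_atTop.eventually_ge_atTop _
  have h4 : ∀ᶠ n : ℕ in atTop, 2 ≤ (n : ℝ) ^ (0.01 : ℝ) :=
    ((tendsto_rpow_atTop (by norm_num)).comp tendsto_natCast_atTop_atTop).eventually_ge_atTop _
  have h3 : ∀ᶠ n : ℕ in atTop, K * (1 + Real.log n) ≤ (n : ℝ) ^ (0.03 : ℝ) := by
    have ha : Tendsto (fun x : ℝ => (1 + Real.log x) / x ^ (0.03 : ℝ)) atTop (nhds 0) := by
      have e : (fun x : ℝ => (1 + Real.log x) / x ^ (0.03 : ℝ)) =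
          fun x => 1 / x ^ (0.03 : ℝ) + Real.log x / x ^ (0.03 : ℝ) := by
        funext x; rw [add_div]
      rw [e]
      have t1 : Tendsto (fun x : ℝ => 1 / x ^ (0.03 : ℝ)) atTop (nhds 0) := by
        simp only [one_div]
        exact (tendsto_rpow_atTop (by norm_num : (0 : ℝ) < 0.03)).inv_tendsto_atTop
      have t2 : Tendsto (fun x : ℝ => Real.log x / x ^ (0.03 : ℝ)) atTop (nhds 0) :=
        (isLittleO_log_rpow_atTop (by norm_num : (0 : ℝ) < 0.03)).tendsto_div_nhds_zero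
      simpa using t1.add t2
    have hb := (ha.const_mul K).comp tendsto_natCast_atTop_atTop (α := ℕ)
    rw [mul_zero] at hb
    have hc := hb.eventually (gt_mem_nhds (zero_lt_one))
    filter_upwards [hc, h1] with n hn hn1
    have hn0 : (0 : ℝ) < n := by
      have : 0 < n := by omega
      exact_mod_cast this
    have hp : 0 < (n : ℝ) ^ (0.03 : ℝ) := Real.rpow_pos_of_pos hn0 _
    simp only [Function.comp] at hn
    rw [← mul_div_assoc, div_lt_one hp] at hn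
    exact hn.le
  obtain ⟨n0, h⟩ := (((h1.and h2).and h3).and h4).exists_forall_of_atTop
  exact ⟨n0, fun n hn => ⟨(h n hn).1.1.1, (h n hn).1.1.2, (h n hn).1.2, (h n hn).2⟩⟩

/-- hitting probability of a light set -/
theorem light_hit (M : Mdl n κ ρ c0 C3) (hκ : 1 ≤ κ) (hc0 : 0 < c0) (hn : 2 ≤ n)
    (hn2 : 6 / c0 ≤ n) (x : E n) (L : Finset (E n)) (hL1 : ∀ t ∈ L, ‖x - t‖ ≤ 1)
    (hL2 : ∀ t ∈ L, sg (x - t) ≤ 4 * Real.log n) (hsg : ∀ t ∈ L, 0 ≤ sg (x - t))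
    (hcard : (L.card : ℝ) ≤ (n : ℝ) ^ 2)
    {δ : ℝ} (hδ0 : 0 ≤ δ) (hδ : δ ^ 2 = 40 * Real.log n / n) {Λ : ℝ}
    (hΛexp : Real.exp (-Λ) = min c0 1 / 4) {t : E n} (ht : t ∈ L) :
    Real.exp (-(Λ + κ * sg (x - t))) ≤ Pr M.p (Hit (Lset M x δ L t)) := by
  have hp1 : ∀ ω, M.p ω ≤ 1 := fun ω => (M.p_le ω).trans (by norm_num)
  have hc1 : 0 < min c0 1 := lt_min hc0 one_pos
  have hc1' : min c0 1 ≤ 1 := min_le_right _ _
  have h1 := nu_Lset_ge M hκ hc0 hn hn2 x L hL1 hL2 hcard hδ0 hδ ht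
  have h2 : min c0 1 / 2 * Real.exp (-(κ * sg (x - t))) ≤ nu M.p (Lset M x δ L t) := by
    refine le_trans ?_ h1
    exact mul_le_mul_of_nonneg_right (by linarith [min_le_left c0 1]) (Real.exp_pos _).le
  have h3 : Real.exp (-(κ * sg (x - t))) ≤ 1 := by
    rw [Real.exp_le_one_iff]
    have := mul_nonneg (by linarith : (0 : ℝ) ≤ κ) (hsg t ht)
    linarith
  have h4 := Pr_hit_ge' M.p_nonneg hp1 (Lset M x δ L t)
    (c := min c0 1 / 2 * Real.exp (-(κ * sg (x - t)))) (by positivity)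
    (by nlinarith [Real.exp_pos (-(κ * sg (x - t)))]) h2
  refine le_trans (le_of_eq ?_) h4
  rw [neg_add, Real.exp_add, hΛexp]
  ring

/-- hitting probability of a group set -/
theorem group_hit (M : Mdl n κ ρ c0 C3) (hC3 : 0 < C3) (hn : 2 ≤ n) (x : E n) (B : Finset (E n))
    (hB1 : ∀ t ∈ B, ‖x - t‖ ≤ 1) (hB2 : ∀ t ∈ B, sg (x - t) ≤ 4 * Real.log n)
    (hcard : (B.card : ℝ) ≤ (n : ℝ) ^ 2) {δ : ℝ} (hδ0 : 0 ≤ δ)
    (hδ : δ ^ 2 = 40 * Real.log n / n) {t0 : E n} (ht0 : t0 ∈ B)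
    (hd : ∀ t ∈ B, dist t t0 ≤ δ) :
    Real.exp (-(C3 * Real.log n + 1)) ≤ Pr M.p (Hit (Gset M x B)) := by
  have hp1 : ∀ ω, M.p ω ≤ 1 := fun ω => (M.p_le ω).trans (by norm_num)
  have hnR : (2 : ℝ) ≤ n := by exact_mod_cast hn
  have hnpos : (0 : ℝ) < n := by linarith
  have hn1 : (1 : ℝ) ≤ n := by linarith
  have h1 := nu_Gset_ge M x B hB1 hB2 hcard hδ0 hδ ht0 hd
  have h2 : (n : ℝ) ^ (-C3) ≤ 1 := Real.rpow_le_one_of_one_le_of_nonpos hn1 (by linarith)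
  have h3 := Pr_hit_ge' M.p_nonneg hp1 (Gset M x B) (c := (n : ℝ) ^ (-C3)) (by positivity)
    h2 h1
  refine le_trans ?_ h3
  rw [neg_add, Real.exp_add, Real.rpow_def_of_pos hnpos]
  have e1 : Real.log n * -C3 = -(C3 * Real.log n) := by ring
  rw [e1]
  have e2 : Real.exp (-1) ≤ 1 / 2 := by
    rw [Real.exp_neg, inv_eq_one_div]
    apply div_le_div_of_nonneg_left (by norm_num) (by norm_num)
    have := Real.add_one_le_exp (1 : ℝ)
    linarith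
  have := mul_le_mul_of_nonneg_left e2 (Real.exp_pos (-(C3 * Real.log n))).le
  linarith

/-- products over a family of two kinds of sets -/
theorem two_prod {α β ι : Type} [DecidableEq α] {f : α → ℝ} (h0 : ∀ a, 0 ≤ f a)
    (h1 : ∀ a, f a ≤ 1) {s : Finset β} {t : Finset ι} {g : β → α} {h : ι → α} {u : β → ℝ}
    {v : ι → ℝ} (hg : ∀ i ∈ s, Real.exp (-(u i)) ≤ f (g i))
    (hh : ∀ i ∈ t, Real.exp (-(v i)) ≤ f (h i)) {F : Finset α}
    (hF : F ⊆ s.image g ∪ t.image h) {Y : ℝ} (hY : ∑ i ∈ s, u i + ∑ i ∈ t, v i ≤ Y) :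
    Real.exp (-Y) ≤ ∏ a ∈ F, f a := by
  refine le_trans ?_ (prod_subset_ge h0 h1 hF)
  refine le_trans ?_ (prod_union_ge h0 h1 _ _)
  have h4 := prod_ge_exp hg
  have h5 := prod_ge_exp hh
  have h2 := prod_image_ge h0 h1 s g
  have h3 := prod_image_ge h0 h1 t h
  refine le_trans ?_ (mul_le_mul (h4.trans h2) (h5.trans h3) (Real.exp_pos _).le
    (Finset.prod_nonneg fun _ _ => h0 _))
  rw [← Real.exp_add, Real.exp_le_exp]
  linarith

theorem obj23_core {κ ρ c0 C3 : ℝ} (hκ : 1 ≤ κ) (hc0 : 0 < c0) (hC3 : 0 < C3) {Λ : ℝ}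
    (hΛ1 : 1 ≤ Λ) (hΛexp : Real.exp (-Λ) = min c0 1 / 4) {n : ℕ}
    (hnK : (C3 + 1 + Λ + 4 * κ) * (1 + Real.log n) ≤ (n : ℝ) ^ (0.03 : ℝ))
    (hn2 : 2 ≤ n) (hnc : 6 / c0 ≤ (n : ℝ)) (hn01 : 2 ≤ (n : ℝ) ^ (0.01 : ℝ))
    (M : Mdl n κ ρ c0 C3) {G : ℝ} (hG1 : 1 ≤ G) (hG2 : G ≤ (n : ℝ) ^ (1.01 : ℝ))
    {T : Finset (E n)} {x : E n} (hgood : Good κ G T x) :
    ∃ F : Finset (Finset (Fin M.N)),
        (∀ S ∈ F, ∃ t ∈ Tx T x, S ⊆ M.C (x - t)) ∧
        (∀ A, Hits F A → ∀ t ∈ Tx T x, Hit (M.C (x - t)) A) ∧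
        Real.exp (-((Λ + 1) * G)) ≤ ∏ S ∈ F, Pr M.p (Hit S) ∧
        ∀ ω, Real.exp (-(n : ℝ) ^ (0.95 : ℝ))
          ≤ ∏ S ∈ F.filter (fun S => ω ∈ S), Pr M.p (Hit S) := by
  classical
  have hnR : (2 : ℝ) ≤ n := by exact_mod_cast hn2
  have hnpos : (0 : ℝ) < n := by linarith
  have hn1 : (1 : ℝ) ≤ n := by linarith
  have hlog : 0 ≤ Real.log n := Real.log_nonneg hn1
  have hκ0 : 0 ≤ κ := by linarith
  obtain ⟨hsum, hdeep⟩ := hgood
  -- basic facts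
  have hJ1 : ∀ t ∈ Tx T x, ‖x - t‖ ≤ 1 := by
    intro t ht
    unfold Tx at ht
    rw [Finset.mem_filter] at ht
    exact ht.2
  have hsg : ∀ t ∈ Tx T x, 0 ≤ sg (x - t) := by
    intro t ht
    unfold sg
    have h2 : ‖x - t‖ ^ 2 ≤ 1 := pow_le_one₀ (norm_nonneg _) (hJ1 t ht)
    apply div_nonneg _ (by norm_num)
    exact mul_nonneg hnpos.le (by linarith)
  have hJcard : ((Tx T x).card : ℝ) ≤ G := by
    refine le_trans ?_ hsum
    have : ∑ t ∈ Tx T x, (1 : ℝ) ≤ ∑ t ∈ Tx T x, (κ * sg (x - t) + 1) := by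
      apply Finset.sum_le_sum
      intro t ht
      have := mul_nonneg hκ0 (hsg t ht)
      linarith
    simpa using this
  have hGn2 : G ≤ (n : ℝ) ^ 2 := by
    refine hG2.trans ?_
    rw [← Real.rpow_natCast]
    exact Real.rpow_le_rpow_of_exponent_le hn1 (by norm_num)
  -- grouping
  obtain ⟨δ, hδdef⟩ : ∃ δ : ℝ, δ = Real.sqrt (40 * Real.log n / n) := ⟨_, rfl⟩
  have hδ0 : 0 ≤ δ := by rw [hδdef]; exact Real.sqrt_nonneg _
  have hδ2 : δ ^ 2 = 40 * Real.log n / n := by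
    rw [hδdef]; exact Real.sq_sqrt (by positivity)
  obtain ⟨P, L, hLJ, hP, hcov, hPcard, hlight⟩ := grouping δ hδ0 ((n : ℝ) ^ (0.1 : ℝ)) (Tx T x)
  have hLcard : (L.card : ℝ) ≤ (n : ℝ) ^ 2 := by
    refine le_trans ?_ (hJcard.trans hGn2)
    exact_mod_cast Finset.card_le_card hLJ
  have hp1 : ∀ ω, M.p ω ≤ 1 := fun ω => (M.p_le ω).trans (by norm_num)
  have hPr0 : ∀ S : Finset (Fin M.N), 0 ≤ Pr M.p (Hit S) := fun S => Pr_nonneg M.p_nonneg hp1 _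
  have hPr1 : ∀ S : Finset (Fin M.N), Pr M.p (Hit S) ≤ 1 := fun S => Pr_le_one M.p_nonneg hp1 _
  -- light sets
  have hLight : ∀ t ∈ L, Real.exp (-(Λ + κ * sg (x - t))) ≤ Pr M.p (Hit (Lset M x δ L t)) :=
    fun t ht => light_hit M hκ hc0 hn2 hnc x L (fun t ht => hJ1 t (hLJ ht))
      (fun t ht => hdeep t (hLJ ht)) (fun t ht => hsg t (hLJ ht)) hLcard hδ0 hδ2 hΛexp ht
  -- groups
  have hGroup : ∀ B ∈ P, Real.exp (-(C3 * Real.log n + 1)) ≤ Pr M.p (Hit (Gset M x B)) := by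
    intro B hB
    obtain ⟨hBJ, _, t0, ht0, hd⟩ := hP B hB
    have hBcard : (B.card : ℝ) ≤ (n : ℝ) ^ 2 := by
      refine le_trans ?_ (hJcard.trans hGn2)
      exact_mod_cast Finset.card_le_card hBJ
    exact group_hit M hC3 hn2 x B (fun t ht => hJ1 t (hBJ ht)) (fun t ht => hdeep t (hBJ ht))
      hBcard hδ0 hδ2 ht0 hd
  obtain ⟨w, hw⟩ : ∃ w : ℝ, w = C3 * Real.log n + 1 := ⟨_, rfl⟩
  rw [← hw] at hGroup
  have hlin : ∀ a b : ℝ, 0 ≤ a → 0 ≤ b → a + b ≤ C3 + 1 + Λ + 4 * κ →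
      a * Real.log n + b ≤ (C3 + 1 + Λ + 4 * κ) * (1 + Real.log n) := by
    intro a b ha hb hab
    have h1 : a * Real.log n ≤ (C3 + 1 + Λ + 4 * κ) * Real.log n :=
      mul_le_mul_of_nonneg_right (by linarith) hlog
    have h2 : b ≤ (C3 + 1 + Λ + 4 * κ) * 1 := by linarith
    linarith
  have hw0 : 0 ≤ w := by rw [hw]; positivity
  have hwK : w ≤ (n : ℝ) ^ (0.03 : ℝ) := by
    rw [hw]
    exact (hlin C3 1 hC3.le one_pos.le (by linarith)).trans hnK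
  have hPcard2 : (P.card : ℝ) ≤ G / (n : ℝ) ^ (0.1 : ℝ) := by
    rw [le_div_iff₀ (Real.rpow_pos_of_pos hnpos _)]
    exact hPcard.trans hJcard
  -- the family
  refine ⟨L.image (Lset M x δ L) ∪ P.image (Gset M x), ?_, ?_, ?_, ?_⟩
  · intro S hS
    rw [Finset.mem_union, Finset.mem_image, Finset.mem_image] at hS
    rcases hS with ⟨t, ht, rfl⟩ | ⟨B, hB, rfl⟩
    · exact ⟨t, hLJ ht, Lset_sub M x δ L t⟩
    · obtain ⟨hBJ, _, t0, ht0, _⟩ := hP B hB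
      exact ⟨t0, hBJ ht0, Gset_sub M x ht0⟩
  · intro A hA t ht
    rcases hcov t ht with h | ⟨B, hB, htB⟩
    · exact hit_mono (Lset_sub M x δ L t)
        (hA _ (Finset.mem_union_left _ (Finset.mem_image_of_mem _ h)))
    · exact hit_mono (Gset_sub M x htB)
        (hA _ (Finset.mem_union_right _ (Finset.mem_image_of_mem _ hB)))
  · -- product over the whole family
    refine two_prod hPr0 hPr1 (u := fun t => Λ + κ * sg (x - t)) (v := fun _ => w) hLight hGroup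
      (Finset.Subset.refl _) ?_
    have h7 : ∑ t ∈ L, (Λ + κ * sg (x - t)) ≤ Λ * G := by
      calc ∑ t ∈ L, (Λ + κ * sg (x - t)) ≤ ∑ t ∈ L, Λ * (κ * sg (x - t) + 1) := by
            apply Finset.sum_le_sum
            intro t ht
            have h0 := mul_nonneg hκ0 (hsg t (hLJ ht))
            have h1 : 1 * (κ * sg (x - t)) ≤ Λ * (κ * sg (x - t)) :=
              mul_le_mul_of_nonneg_right hΛ1 h0
            linarith
        _ ≤ ∑ t ∈ Tx T x, Λ * (κ * sg (x - t) + 1) := by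
            apply Finset.sum_le_sum_of_subset_of_nonneg hLJ
            intro t ht _
            have h0 := mul_nonneg hκ0 (hsg t ht)
            positivity
        _ = Λ * ∑ t ∈ Tx T x, (κ * sg (x - t) + 1) := by rw [Finset.mul_sum]
        _ ≤ Λ * G := mul_le_mul_of_nonneg_left hsum (by linarith)
    have h8 : ∑ _B ∈ P, w ≤ G := by
      rw [Finset.sum_const, nsmul_eq_mul]
      have hq : w ≤ (n : ℝ) ^ (0.1 : ℝ) :=
        hwK.trans (Real.rpow_le_rpow_of_exponent_le hn1 (by norm_num))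
      have hq0 : 0 < (n : ℝ) ^ (0.1 : ℝ) := Real.rpow_pos_of_pos hnpos _
      calc (P.card : ℝ) * w ≤ G / (n : ℝ) ^ (0.1 : ℝ) * (n : ℝ) ^ (0.1 : ℝ) :=
            mul_le_mul hPcard2 hq hw0 (by positivity)
        _ = G := by field_simp
    linarith
  · -- product over the sets containing ω
    intro ω
    have hsub : (L.image (Lset M x δ L) ∪ P.image (Gset M x)).filter (fun S => ω ∈ S) ⊆
        (L.filter (fun t => ω ∈ Lset M x δ L t)).image (Lset M x δ L) ∪ P.image (Gset M x) := by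
      intro S hS
      rw [Finset.mem_filter, Finset.mem_union] at hS
      rw [Finset.mem_union]
      rcases hS.1 with h | h
      · left
        rw [Finset.mem_image] at h ⊢
        obtain ⟨t, ht, rfl⟩ := h
        exact ⟨t, Finset.mem_filter.mpr ⟨ht, hS.2⟩, rfl⟩
      · exact Or.inr h
    obtain ⟨L', hL'⟩ : ∃ L' : Finset (E n), L' = L.filter (fun t => ω ∈ Lset M x δ L t) :=
      ⟨_, rfl⟩
    rw [← hL'] at hsub
    have hL'sub : L' ⊆ L := by rw [hL']; exact Finset.filter_subset _ _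
    have hL'card : (L'.card : ℝ) ≤ (n : ℝ) ^ (0.1 : ℝ) := by
      rcases L'.eq_empty_or_nonempty with h | ⟨t1, ht1⟩
      · rw [h, Finset.card_empty, Nat.cast_zero]
        exact Real.rpow_nonneg hnpos.le _
      · refine le_trans ?_ (hlight t1 (hL'sub ht1))
        have : L' ⊆ L.filter (fun t' => dist t' t1 ≤ δ) := by
          intro t ht
          rw [Finset.mem_filter]
          refine ⟨hL'sub ht, ?_⟩
          by_contra hd
          push Not at hd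
          rw [hL', Finset.mem_filter] at ht1 ht
          have hm := ht1.2
          unfold Lset at hm
          rw [Finset.mem_filter] at hm
          exact hm.2 t ht.1 hd (Lset_sub M x δ L t ht.2)
        exact_mod_cast Finset.card_le_card this
    have hLight' : ∀ t ∈ L', Real.exp (-(4 * κ * Real.log n + Λ)) ≤
        Pr M.p (Hit (Lset M x δ L t)) := by
      intro t ht
      refine le_trans ?_ (hLight t (hL'sub ht))
      rw [Real.exp_le_exp]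
      have := mul_le_mul_of_nonneg_left (hdeep t (hLJ (hL'sub ht))) hκ0
      linarith
    refine two_prod hPr0 hPr1 (u := fun _ => 4 * κ * Real.log n + Λ) (v := fun _ => w) hLight'
      hGroup hsub ?_
    rw [Finset.sum_const, Finset.sum_const, nsmul_eq_mul, nsmul_eq_mul]
    have hv : 4 * κ * Real.log n + Λ ≤ (n : ℝ) ^ (0.03 : ℝ) :=
      (hlin (4 * κ) Λ (by linarith) (by linarith) (by linarith)).trans hnK
    have hv0 : 0 ≤ 4 * κ * Real.log n + Λ := by positivity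
    have a1 : (L'.card : ℝ) * (4 * κ * Real.log n + Λ) ≤
        (n : ℝ) ^ (0.1 : ℝ) * (n : ℝ) ^ (0.03 : ℝ) :=
      mul_le_mul hL'card hv hv0 (Real.rpow_nonneg hnpos.le _)
    have a2 : (P.card : ℝ) * w ≤ (n : ℝ) ^ (0.91 : ℝ) * (n : ℝ) ^ (0.03 : ℝ) := by
      refine mul_le_mul ?_ hwK hw0 (Real.rpow_nonneg hnpos.le _)
      refine hPcard2.trans ?_
      rw [div_le_iff₀ (Real.rpow_pos_of_pos hnpos _), ← Real.rpow_add hnpos]
      refine hG2.trans (le_of_eq ?_)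
      norm_num
    rw [← Real.rpow_add hnpos] at a1 a2
    have a3 : (n : ℝ) ^ ((0.1 : ℝ) + 0.03) ≤ (n : ℝ) ^ (0.94 : ℝ) :=
      Real.rpow_le_rpow_of_exponent_le hn1 (by norm_num)
    have a4 : (n : ℝ) ^ ((0.91 : ℝ) + 0.03) = (n : ℝ) ^ (0.94 : ℝ) := by norm_num
    have a5 : (n : ℝ) ^ (0.95 : ℝ) = (n : ℝ) ^ (0.94 : ℝ) * (n : ℝ) ^ (0.01 : ℝ) := by
      rw [← Real.rpow_add hnpos]; norm_num
    have a6 : 0 ≤ (n : ℝ) ^ (0.94 : ℝ) := Real.rpow_nonneg hnpos.le _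
    have a7 := mul_le_mul_of_nonneg_left hn01 a6
    rw [a4] at a2
    rw [a5]
    linarith

theorem obj23 {κ ρ c0 C3 : ℝ} (hκ : 1 ≤ κ) (hc0 : 0 < c0) (hC3 : 0 < C3) :
    ∃ C5 : ℝ, 0 < C5 ∧ ∃ n0 : ℕ, ∀ n ≥ n0, ∀ M : Mdl n κ ρ c0 C3, ∀ G : ℝ,
      1 ≤ G → G ≤ (n : ℝ) ^ (1.01 : ℝ) → ∀ (T : Finset (E n)) (x : E n), Good κ G T x →
      ∃ F : Finset (Finset (Fin M.N)),
        (∀ S ∈ F, ∃ t ∈ Tx T x, S ⊆ M.C (x - t)) ∧
        (∀ A, Hits F A → ∀ t ∈ Tx T x, Hit (M.C (x - t)) A) ∧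
        Real.exp (-(C5 * G)) ≤ ∏ S ∈ F, Pr M.p (Hit S) ∧
        ∀ ω, Real.exp (-(n : ℝ) ^ (0.95 : ℝ))
          ≤ ∏ S ∈ F.filter (fun S => ω ∈ S), Pr M.p (Hit S) := by
  classical
  -- constants
  obtain ⟨Λ, hΛ⟩ : ∃ Λ : ℝ, Λ = Real.log (4 / min c0 1) := ⟨_, rfl⟩
  have hc1 : 0 < min c0 1 := lt_min hc0 one_pos
  have hc1' : min c0 1 ≤ 1 := min_le_right _ _
  have hΛ1 : 1 ≤ Λ := by
    rw [hΛ, Real.le_log_iff_exp_le (by positivity), le_div_iff₀ hc1]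
    have h1 := Real.exp_one_lt_d9
    have h2 : Real.exp 1 * min c0 1 ≤ Real.exp 1 * 1 :=
      mul_le_mul_of_nonneg_left hc1' (Real.exp_pos 1).le
    linarith
  have hΛexp : Real.exp (-Λ) = min c0 1 / 4 := by
    rw [hΛ, Real.exp_neg, Real.exp_log (by positivity), inv_div]
  obtain ⟨K, hK⟩ : ∃ K : ℝ, K = C3 + 1 + Λ + 4 * κ := ⟨_, rfl⟩
  obtain ⟨n0, hn0⟩ := obj23_large K c0
  refine ⟨Λ + 1, by linarith, n0, fun n hn M G hG1 hG2 T x hgood => ?_⟩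
  obtain ⟨hn2, hnc, hnK, hn01⟩ := hn0 n hn
  exact obj23_core hκ hc0 hC3 hΛ1 hΛexp (hK ▸ hnK) hn2 hnc hn01 M hG1 hG2 hgood

end Cov
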