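import Vale.Agent.Cov.Defs

/-! # [O1] overlap of two cut sets -/

namespace Cov

open MeasureTheory Finset
open scoped RealInnerProductSpace

/-- `C(y) ∩ C(y') ⊆ C((y+y')/2)` and the upper bound. -/
theorem nu_overlap_aux {n : ℕ} {κ ρ c0 C3 : ℝ} (M : Mdl n κ ρ c0 C3) (y y' : E n)
    (hy : ‖y‖ ≤ 1) (hy' : ‖y'‖ ≤ 1) :
    nu M.p (M.C y ∩ M.C y')
      ≤ Real.exp (1 - κ * (sg y + sg y') / 2 - κ * n * ‖y - y'‖ ^ 2 / 8) := by
  set z : E n := (1 / 2 : ℝ) • (y + y') with hz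
  have hzn : ‖z‖ ≤ 1 := by
    rw [hz, norm_smul]
    have := norm_add_le y y'
    have h2 : ‖(1 / 2 : ℝ)‖ = 1 / 2 := by norm_num
    rw [h2]
    linarith
  have hsub : M.C y ∩ M.C y' ⊆ M.C z := by
    intro ω hω
    simp only [Mdl.C, mem_inter, mem_filter, mem_univ, true_and] at hω ⊢
    rw [hz, inner_smul_right, inner_add_right]
    linarith [hω.1, hω.2]
  have h1 : nu M.p (M.C y ∩ M.C y') ≤ nu M.p (M.C z) :=
    sum_le_sum_of_subset_of_nonneg hsub fun ω _ _ => M.p_nonneg ω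
  have h3 : ‖z‖ ^ 2 = (‖y‖ ^ 2 + ‖y'‖ ^ 2) / 2 - ‖y - y'‖ ^ 2 / 4 := by
    have e1 : ‖z‖ = 1 / 2 * ‖y + y'‖ := by
      rw [hz, norm_smul]
      norm_num
    have e2 := norm_add_sq_real y y'
    have e3 := norm_sub_sq_real y y'
    rw [e1, mul_pow, e2, e3]
    ring
  have h4 : sg z = (sg y + sg y') / 2 + n * ‖y - y'‖ ^ 2 / 8 := by
    unfold sg
    rw [h3]
    ring
  refine h1.trans ((M.upper z hzn).trans (Real.exp_le_exp.mpr ?_))
  rw [h4]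
  apply le_of_eq
  ring

end Cov
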