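import Vale.Agent.Cov.Prob
import Vale.Agent.Cov.Overlap
import Vale.Agent.Cov.ObjC23

/-! # [O] the sets to be met for one good point -/

namespace Cov

open MeasureTheory Finset
open scoped RealInnerProductSpace

/-- `C(y) ∩ C(y') ⊆ C((y+y')/2)` and the upper bound. -/
theorem nu_overlap {n : ℕ} {κ ρ c0 C3 : ℝ} (M : Mdl n κ ρ c0 C3) (y y' : E n)
    (hy : ‖y‖ ≤ 1) (hy' : ‖y'‖ ≤ 1) :
    nu M.p (M.C y ∩ M.C y')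
      ≤ Real.exp (1 - κ * (sg y + sg y') / 2 - κ * n * ‖y - y'‖ ^ 2 / 8) :=
  nu_overlap_aux M y y' hy hy'

theorem obj {κ ρ c0 C3 : ℝ} (hκ : 1 ≤ κ) (hc0 : 0 < c0) (hC3 : 0 < C3) :
    ∃ C5 : ℝ, 0 < C5 ∧ ∃ n0 : ℕ, ∀ n ≥ n0, ∀ M : Mdl n κ ρ c0 C3, ∀ G : ℝ,
      1 ≤ G → G ≤ (n : ℝ) ^ (1.01 : ℝ) → ∀ (T : Finset (E n)) (x : E n), Good κ G T x →
      ∃ F : Finset (Finset (Fin M.N)),
        (∀ S ∈ F, ∃ t ∈ Tx T x, S ⊆ M.C (x - t)) ∧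
        (∀ A, Hits F A → ∀ t ∈ Tx T x, Hit (M.C (x - t)) A) ∧
        Real.exp (-(C5 * G)) ≤ ∏ S ∈ F, Pr M.p (Hit S) ∧
        ∀ ω, Real.exp (-(n : ℝ) ^ (0.95 : ℝ))
          ≤ ∏ S ∈ F.filter (fun S => ω ∈ S), Pr M.p (Hit S) :=
  obj23 hκ hc0 hC3

end Cov
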