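import Vale.Agent.Cov.Pair
import Vale.Agent.Cov.Obj
import Vale.Agent.Cov.Blk

/-! # [F] the probability that a fixed set of centers covers the small cube -/

namespace Cov

open MeasureTheory Finset
open scoped RealInnerProductSpace

theorem sg_continuous {n : ℕ} : Continuous (fun y : E n => sg y) := by
  unfold sg
  fun_prop

theorem measurable_good' {n : ℕ} (κ G : ℝ) (T : Finset (E n)) :
    MeasurableSet {x : E n | Good κ G T x} := by
  classical
  have hset : {x : E n | Good κ G T x}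
      = {x : E n | (∑ t ∈ T, if ‖x - t‖ ≤ 1 then (κ * sg (x - t) + 1) else 0) ≤ G} ∩
        ⋂ t ∈ T, {x : E n | ‖x - t‖ ≤ 1 → sg (x - t) ≤ 4 * Real.log n} := by
    ext x
    simp only [Good, Tx, Set.mem_setOf_eq, Set.mem_inter_iff, Set.mem_iInter,
      Finset.sum_filter, Finset.mem_filter, and_imp]
  rw [hset]
  have hb : ∀ t : E n, MeasurableSet {x : E n | ‖x - t‖ ≤ 1} := fun t =>
    (isClosed_le (by fun_prop) continuous_const).measurableSet
  refine MeasurableSet.inter ?_ ?_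
  · apply measurableSet_le _ measurable_const
    refine Finset.measurable_sum _ fun t _ => ?_
    refine Measurable.ite (hb t) ?_ measurable_const
    have : Continuous (fun x : E n => κ * sg (x - t) + 1) :=
      (continuous_const.mul (sg_continuous.comp (by fun_prop))).add continuous_const
    exact this.measurable
  · refine Finset.measurableSet_biInter _ fun t _ => ?_
    have h2 : {x : E n | ‖x - t‖ ≤ 1 → sg (x - t) ≤ 4 * Real.log n}
        = {x : E n | ‖x - t‖ ≤ 1}ᶜ ∪ {x : E n | sg (x - t) ≤ 4 * Real.log n} := by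
      ext x
      simp only [Set.mem_setOf_eq, Set.mem_union, Set.mem_compl_iff]
      tauto
    rw [h2]
    refine (hb t).compl.union ?_
    exact (isClosed_le (sg_continuous.comp (by fun_prop)) continuous_const).measurableSet

section
variable {Ω : Type} [Fintype Ω] [DecidableEq Ω] {p : Ω → ℝ}

theorem nu_mono' (hp0 : ∀ ω, 0 ≤ p ω) {S S' : Finset Ω} (h : S ⊆ S') : nu p S ≤ nu p S' :=
  Finset.sum_le_sum_of_subset_of_nonneg h fun ω _ _ => hp0 ω

theorem nu_union_le' (hp0 : ∀ ω, 0 ≤ p ω) (S S' : Finset Ω) :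
    nu p (S ∪ S') ≤ nu p S + nu p S' := by
  unfold nu
  rw [← Finset.sum_union_inter]
  have : 0 ≤ ∑ ω ∈ S ∩ S', p ω := Finset.sum_nonneg fun ω _ => hp0 ω
  linarith

theorem nu_biUnion_le' (hp0 : ∀ ω, 0 ≤ p ω) {ι : Type} [DecidableEq ι] (s : Finset ι)
    (f : ι → Finset Ω) : nu p (s.biUnion f) ≤ ∑ i ∈ s, nu p (f i) := by
  induction s using Finset.induction_on with
  | empty => simp [nu]
  | insert i s hi ih =>
    rw [Finset.biUnion_insert, Finset.sum_insert hi]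
    exact (nu_union_le' hp0 _ _).trans (by linarith)

end

theorem sg_nonneg' {n : ℕ} {y : E n} (hy : ‖y‖ ≤ 1) : 0 ≤ sg y := by
  unfold sg
  have : ‖y‖ ^ 2 ≤ 1 := pow_le_one₀ (norm_nonneg _) hy
  have h2 : (0 : ℝ) ≤ n := Nat.cast_nonneg n
  have : 0 ≤ (n : ℝ) * (1 - ‖y‖ ^ 2) := mul_nonneg h2 (by linarith)
  linarith

theorem card_Tx_le {n : ℕ} {κ G : ℝ} (hκ : 1 ≤ κ) {T : Finset (E n)} {x : E n}
    (hx : Good κ G T x) : ((Tx T x).card : ℝ) ≤ G := by
  classical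
  refine le_trans ?_ hx.1
  have : ((Tx T x).card : ℝ) = ∑ t ∈ Tx T x, (1 : ℝ) := by simp
  rw [this]
  refine Finset.sum_le_sum fun t ht => ?_
  have h1 : ‖x - t‖ ≤ 1 := (Finset.mem_filter.mp ht).2
  have := mul_nonneg (by linarith : (0 : ℝ) ≤ κ) (sg_nonneg' h1)
  linarith

/-- overlap of two far good points -/
theorem nu_pair_le {n : ℕ} {κ ρ c0 C3 : ℝ} (M : Mdl n κ ρ c0 C3) (hκ : 1 ≤ κ) {G τ : ℝ}
    (hτ : 0 ≤ τ) {T : Finset (E n)} {x x' : E n} (hx : Good κ G T x) (hx' : Good κ G T x')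
    (hfar : ∀ t ∈ T, ∀ t' ∈ T, τ ≤ ‖(x - t) - (x' - t')‖) :
    nu M.p ((Tx T x ×ˢ Tx T x').biUnion (fun q => M.C (x - q.1) ∩ M.C (x' - q.2)))
      ≤ G ^ 2 * Real.exp (1 - n * τ ^ 2 / 8) := by
  classical
  refine (nu_biUnion_le' M.p_nonneg _ _).trans ?_
  have hterm : ∀ q ∈ Tx T x ×ˢ Tx T x',
      nu M.p (M.C (x - q.1) ∩ M.C (x' - q.2)) ≤ Real.exp (1 - n * τ ^ 2 / 8) := by
    intro q hq
    rw [Finset.mem_product] at hq
    have h1 : ‖x - q.1‖ ≤ 1 := (Finset.mem_filter.mp hq.1).2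
    have h2 : ‖x' - q.2‖ ≤ 1 := (Finset.mem_filter.mp hq.2).2
    refine (nu_overlap M _ _ h1 h2).trans (Real.exp_le_exp.mpr ?_)
    have hf := hfar q.1 (Finset.mem_filter.mp hq.1).1 q.2 (Finset.mem_filter.mp hq.2).1
    have s1 := sg_nonneg' h1
    have s2 := sg_nonneg' h2
    have hsq : τ ^ 2 ≤ ‖(x - q.1) - (x' - q.2)‖ ^ 2 := pow_le_pow_left₀ hτ hf 2
    have hn : (0 : ℝ) ≤ n := Nat.cast_nonneg n
    have e1 : 0 ≤ κ * (sg (x - q.1) + sg (x' - q.2)) / 2 := by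
      have := mul_nonneg (by linarith : (0 : ℝ) ≤ κ) (add_nonneg s1 s2)
      linarith
    have e2 : (n : ℝ) * τ ^ 2 ≤ κ * n * ‖(x - q.1) - (x' - q.2)‖ ^ 2 := by
      have a1 : (n : ℝ) * τ ^ 2 ≤ n * ‖(x - q.1) - (x' - q.2)‖ ^ 2 :=
        mul_le_mul_of_nonneg_left hsq hn
      have a2 : (n : ℝ) * ‖(x - q.1) - (x' - q.2)‖ ^ 2
          ≤ κ * (n * ‖(x - q.1) - (x' - q.2)‖ ^ 2) :=
        le_mul_of_one_le_left (mul_nonneg hn (sq_nonneg _)) hκ
      linarith [mul_assoc κ (n : ℝ) (‖(x - q.1) - (x' - q.2)‖ ^ 2)]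
    linarith
  refine (Finset.sum_le_sum hterm).trans ?_
  rw [Finset.sum_const, nsmul_eq_mul, Finset.card_product]
  push_cast
  refine mul_le_mul_of_nonneg_right ?_ (Real.exp_pos _).le
  have c1 := card_Tx_le hκ hx
  have c2 := card_Tx_le hκ hx'
  have z1 : (0 : ℝ) ≤ (Tx T x).card := Nat.cast_nonneg _
  have z2 : (0 : ℝ) ≤ (Tx T x').card := Nat.cast_nonneg _
  nlinarith

end Cov
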