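import Mathlib

/-! Discrete Gaussian vectors built from signs: moment generating function and tilted
second moment. -/

open Finset

namespace CovG

/-- sign of a boolean -/
noncomputable def sg (b : Bool) : ℝ := if b then 1 else -1

lemma sg_true : sg true = 1 := by simp [sg]
lemma sg_false : sg false = -1 := by simp [sg]
lemma sg_sq (b : Bool) : sg b ^ 2 = 1 := by cases b <;> simp [sg]

/-- sums of products over the cube -/
lemma sum_prod_bool {ι : Type*} [Fintype ι] [DecidableEq ι] (f : ι → Bool → ℝ) :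
    ∑ e : ι → Bool, ∏ i, f i (e i) = ∏ i, (f i true + f i false) := by
  have h := Finset.prod_univ_sum (fun _ : ι => (Finset.univ : Finset Bool)) f
  rw [Fintype.piFinset_univ] at h
  rw [← h]
  apply Finset.prod_congr rfl
  intro i _
  simp [Fintype.sum_bool]

/-- centered second moment for product weights -/
lemma sum_prod_sq {ι : Type*} [Fintype ι] [DecidableEq ι] (w h : ι → Bool → ℝ)
    (hw : ∀ i, w i true + w i false = 1)
    (hh : ∀ i, w i true * h i true + w i false * h i false = 0) (S : Finset ι) :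
    ∑ e : ι → Bool, (∏ i, w i (e i)) * (∑ i ∈ S, h i (e i)) ^ 2
      = ∑ i ∈ S, (w i true * h i true ^ 2 + w i false * h i false ^ 2) := by
  have key : ∀ i j : ι, ∑ e : ι → Bool, (∏ k, w k (e k)) * (h i (e i) * h j (e j))
      = if i = j then (w i true * h i true ^ 2 + w i false * h i false ^ 2) else 0 := by
    intro i j
    have h1 : ∀ e : ι → Bool, (∏ k, w k (e k)) * (h i (e i) * h j (e j))
        = ∏ k, (w k (e k) * ((if k = i then h i (e k) else 1) *
            (if k = j then h j (e k) else 1))) := by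
      intro e
      rw [Finset.prod_mul_distrib, Finset.prod_mul_distrib]
      rw [Finset.prod_ite_eq' Finset.univ i, Finset.prod_ite_eq' Finset.univ j]
      simp
    rw [Finset.sum_congr rfl (fun e _ => h1 e)]
    rw [sum_prod_bool (fun k b => w k b * ((if k = i then h i b else 1) *
            (if k = j then h j b else 1)))]
    by_cases hij : i = j
    · subst hij
      rw [if_pos rfl]
      rw [← Finset.mul_prod_erase Finset.univ _ (Finset.mem_univ i)]
      have h2 : ∏ k ∈ Finset.univ.erase i, (w k true * ((if k = i then h i true else 1) *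
            (if k = i then h i true else 1)) + w k false * ((if k = i then h i false else 1) *
            (if k = i then h i false else 1))) = 1 := by
        apply Finset.prod_eq_one
        intro k hk
        have hki : k ≠ i := (Finset.mem_erase.mp hk).1
        simp [hki, hw k]
      rw [h2]
      simp
      ring
    · rw [if_neg hij]
      apply Finset.prod_eq_zero (Finset.mem_univ i)
      simp [hij]
      exact hh i
  have h3 : ∀ e : ι → Bool, (∏ i, w i (e i)) * (∑ i ∈ S, h i (e i)) ^ 2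
      = ∑ i ∈ S, ∑ j ∈ S, (∏ k, w k (e k)) * (h i (e i) * h j (e j)) := by
    intro e
    rw [sq, Finset.sum_mul_sum, Finset.mul_sum]
    apply Finset.sum_congr rfl
    intro i _
    rw [Finset.mul_sum]
  rw [Finset.sum_congr rfl (fun e _ => h3 e), Finset.sum_comm]
  apply Finset.sum_congr rfl
  intro i hi
  rw [Finset.sum_comm]
  rw [Finset.sum_congr rfl (fun j _ => key i j)]
  rw [Finset.sum_ite_eq]
  simp [hi]

/-- `1 + x^2/2 ≤ cosh x` -/
lemma one_add_le_cosh (x : ℝ) : 1 + x ^ 2 / 2 ≤ Real.cosh x := by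
  have h : Real.cosh x = 1 + 2 * Real.sinh (x / 2) ^ 2 := by
    have h1 := Real.cosh_two_mul (x / 2)
    have h2 := Real.cosh_sq (x / 2)
    rw [show 2 * (x / 2) = x by ring] at h1
    linarith
  rw [h]
  have h3 : (x / 2) ^ 2 ≤ Real.sinh (x / 2) ^ 2 := by
    rw [sq_le_sq]
    rcases le_total 0 (x / 2) with hx | hx
    · rw [abs_of_nonneg hx]
      exact le_trans (Real.self_le_sinh_iff.mpr hx) (le_abs_self _)
    · rw [abs_of_nonpos hx]
      have : Real.sinh (x / 2) ≤ x / 2 := Real.sinh_le_self_iff.mpr hx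
      exact le_trans (neg_le_neg this) (neg_le_abs _)
  nlinarith [h3]

/-- quantitative lower bound for `cosh` -/
lemma exp_le_cosh (x : ℝ) : Real.exp (x ^ 2 / 2 - x ^ 4 / 8) ≤ Real.cosh x := by
  refine le_trans ?_ (one_add_le_cosh x)
  have hy : (0:ℝ) ≤ x ^ 2 / 2 := by positivity
  have h1 := Real.le_log_one_add_of_nonneg hy
  have hpos : (0:ℝ) < 1 + x ^ 2 / 2 := by linarith
  rw [← Real.le_log_iff_exp_le hpos]
  refine le_trans ?_ h1
  rw [le_div_iff₀ (by linarith)]
  nlinarith [sq_nonneg x, sq_nonneg (x ^ 2), mul_nonneg (sq_nonneg x) (sq_nonneg (x ^ 2)),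
    mul_nonneg (mul_nonneg (sq_nonneg x) (sq_nonneg x)) (sq_nonneg x)]

variable {n m : ℕ}

/-- the discrete Gaussian vector -/
noncomputable def av (e : Fin n × Fin m → Bool) : EuclideanSpace ℝ (Fin n) :=
  WithLp.toLp 2 (fun i => (∑ l : Fin m, sg (e (i, l))) / Real.sqrt m)

lemma av_apply (e : Fin n × Fin m → Bool) (i : Fin n) :
    av e i = (∑ l : Fin m, sg (e (i, l))) / Real.sqrt m := rfl

/-- moment generating function -/
noncomputable def Lam (n m : ℕ) (v : EuclideanSpace ℝ (Fin n)) : ℝ :=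
  (1 / 2 : ℝ) ^ (n * m) * ∑ e : Fin n × Fin m → Bool, Real.exp (inner ℝ (av e) v)

lemma inner_eq (x y : EuclideanSpace ℝ (Fin n)) : inner ℝ x y = ∑ i, x i * y i := by
  rw [PiLp.inner_apply]
  apply Finset.sum_congr rfl
  intro i _
  simp [mul_comm]

lemma exp_inner_av (e : Fin n × Fin m → Bool) (v : EuclideanSpace ℝ (Fin n)) :
    Real.exp (inner ℝ (av e) v)
      = ∏ p : Fin n × Fin m, Real.exp (sg (e p) * (v p.1 / Real.sqrt m)) := by
  rw [← Real.exp_sum, inner_eq]
  congr 1
  rw [Fintype.sum_prod_type]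
  apply Finset.sum_congr rfl
  intro i _
  have h : ∑ y : Fin m, sg (e (i, y)) * (v (i, y).1 / Real.sqrt m)
      = (∑ y : Fin m, sg (e (i, y))) * (v i / Real.sqrt m) := by
    rw [Finset.sum_mul]
  rw [h, av_apply]
  ring

lemma Lam_eq (v : EuclideanSpace ℝ (Fin n)) :
    Lam n m v = ∏ p : Fin n × Fin m, Real.cosh (v p.1 / Real.sqrt m) := by
  unfold Lam
  rw [Finset.sum_congr rfl (fun e _ => exp_inner_av e v)]
  rw [sum_prod_bool (fun (p : Fin n × Fin m) (b : Bool) => Real.exp (sg b * (v p.1 / Real.sqrt m)))]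
  have h : ∀ p : Fin n × Fin m, Real.exp (sg true * (v p.1 / Real.sqrt m))
      + Real.exp (sg false * (v p.1 / Real.sqrt m)) = 2 * Real.cosh (v p.1 / Real.sqrt m) := by
    intro p
    rw [sg_true, sg_false, Real.cosh_eq]
    ring_nf
  rw [Finset.prod_congr rfl (fun p _ => h p), Finset.prod_mul_distrib]
  rw [Finset.prod_const, Finset.card_univ, Fintype.card_prod, Fintype.card_fin, Fintype.card_fin]
  rw [← mul_assoc, ← mul_pow]
  norm_num

lemma Lam_pos (v : EuclideanSpace ℝ (Fin n)) : 0 < Lam n m v := by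
  rw [Lam_eq]
  exact Finset.prod_pos (fun p _ => Real.cosh_pos _)

lemma norm_sq_eq (v : EuclideanSpace ℝ (Fin n)) : ‖v‖ ^ 2 = ∑ i, v i ^ 2 := by
  rw [EuclideanSpace.norm_sq_eq]
  simp

lemma Lam_le (hm : 0 < m) (v : EuclideanSpace ℝ (Fin n)) :
    Lam n m v ≤ Real.exp (‖v‖ ^ 2 / 2) := by
  rw [Lam_eq]
  have hm' : (0:ℝ) < m := by exact_mod_cast hm
  calc ∏ p : Fin n × Fin m, Real.cosh (v p.1 / Real.sqrt m)
      ≤ ∏ p : Fin n × Fin m, Real.exp ((v p.1 / Real.sqrt m) ^ 2 / 2) := by
        apply Finset.prod_le_prod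
        · intro p _; exact (Real.cosh_pos _).le
        · intro p _; exact Real.cosh_le_exp_half_sq _
    _ = Real.exp (‖v‖ ^ 2 / 2) := by
        rw [← Real.exp_sum]
        congr 1
        rw [Fintype.sum_prod_type, norm_sq_eq, Finset.sum_div]
        apply Finset.sum_congr rfl
        intro i _
        simp only [Finset.sum_const, Finset.card_univ, Fintype.card_fin, nsmul_eq_mul]
        rw [div_pow, Real.sq_sqrt hm'.le]
        field_simp

lemma le_Lam (hm : 0 < m) (v : EuclideanSpace ℝ (Fin n)) :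
    Real.exp (‖v‖ ^ 2 / 2 - ‖v‖ ^ 4 / (8 * m)) ≤ Lam n m v := by
  rw [Lam_eq]
  have hm' : (0:ℝ) < m := by exact_mod_cast hm
  calc Real.exp (‖v‖ ^ 2 / 2 - ‖v‖ ^ 4 / (8 * m))
      ≤ ∏ p : Fin n × Fin m, Real.exp ((v p.1 / Real.sqrt m) ^ 2 / 2
          - (v p.1 / Real.sqrt m) ^ 4 / 8) := by
        rw [← Real.exp_sum]
        apply Real.exp_le_exp.mpr
        rw [Fintype.sum_prod_type]
        have h4 : ∀ i : Fin n, ∑ _l : Fin m, ((v i / Real.sqrt m) ^ 2 / 2
          - (v i / Real.sqrt m) ^ 4 / 8) = v i ^ 2 / 2 - (v i ^ 2) ^ 2 / (8 * m) := by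
          intro i
          simp only [Finset.sum_const, Finset.card_univ, Fintype.card_fin, nsmul_eq_mul]
          have e4 : (v i / Real.sqrt m) ^ 4 = (v i ^ 2) ^ 2 / (m:ℝ) ^ 2 := by
            rw [show (v i / Real.sqrt m) ^ 4 = ((v i / Real.sqrt m) ^ 2) ^ 2 by ring, div_pow,
              Real.sq_sqrt hm'.le, div_pow]
          rw [e4, div_pow, Real.sq_sqrt hm'.le]
          field_simp
        rw [Finset.sum_congr rfl (fun i _ => h4 i), Finset.sum_sub_distrib, ← Finset.sum_div,
          ← Finset.sum_div, ← norm_sq_eq]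
        apply sub_le_sub_left
        apply div_le_div_of_nonneg_right _ (by positivity)
        have h5 : ‖v‖ ^ 4 = (∑ i, v i ^ 2) ^ 2 := by rw [← norm_sq_eq]; ring
        rw [h5]
        exact Finset.sum_sq_le_sq_sum_of_nonneg (fun i _ => sq_nonneg _)
    _ ≤ _ := by
        apply Finset.prod_le_prod
        · intro p _; exact (Real.exp_pos _).le
        · intro p _; exact exp_le_cosh _

/-- basic exponential Markov bound under a tilt -/
lemma sum_tilt_lt_le (v z : EuclideanSpace ℝ (Fin n)) (t : ℝ) :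
    (1 / 2 : ℝ) ^ (n * m) * ∑ e ∈ Finset.univ.filter
      (fun e : Fin n × Fin m → Bool => inner ℝ (av e) z ≤ t), Real.exp (inner ℝ (av e) v)
      ≤ Real.exp t * Lam n m (v - z) := by
  unfold Lam
  rw [← mul_assoc, mul_comm (Real.exp t), mul_assoc]
  apply mul_le_mul_of_nonneg_left _ (by positivity)
  rw [Finset.mul_sum]
  refine le_trans (Finset.sum_le_sum (g := fun e => Real.exp t * Real.exp (inner ℝ (av e) (v - z))) ?_)
    (Finset.sum_le_sum_of_subset_of_nonneg (Finset.filter_subset _ _) ?_)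
  · intro e he
    have h := (Finset.mem_filter.mp he).2
    rw [← Real.exp_add]
    apply Real.exp_le_exp.mpr
    rw [inner_sub_right]
    linarith
  · intro e _ _
    positivity

/-- `|x - tanh x| ≤ |x|^3/2` in squared form -/
lemma sq_sub_tanh_le (x : ℝ) : (Real.tanh x - x) ^ 2 ≤ x ^ 6 / 4 := by
  have key : ∀ y : ℝ, 0 ≤ y → 0 ≤ y - Real.tanh y ∧ y - Real.tanh y ≤ y ^ 3 / 2 := by
    intro y hy
    have hc : 0 < Real.cosh y := Real.cosh_pos y
    have h1 : y ≤ Real.sinh y := Real.self_le_sinh_iff.mpr hy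
    have hc1 : Real.cosh y ≤ Real.exp (y ^ 2 / 2) := Real.cosh_le_exp_half_sq y
    have h2 : Real.exp (-(y ^ 2 / 2)) ≤ 1 / Real.cosh y := by
      rw [Real.exp_neg, inv_eq_one_div]
      exact one_div_le_one_div_of_le hc hc1
    have h3 : -(y ^ 2 / 2) + 1 ≤ Real.exp (-(y ^ 2 / 2)) := Real.add_one_le_exp _
    have h4 : y * (1 / Real.cosh y) ≤ Real.tanh y := by
      rw [Real.tanh_eq_sinh_div_cosh, mul_one_div]
      exact div_le_div_of_nonneg_right h1 hc.le
    have h5 : Real.tanh y ≤ y := by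
      rw [Real.tanh_eq_sinh_div_cosh, div_le_iff₀ hc]
      -- sinh y ≤ y cosh y
      have : ∀ z : ℝ, 0 ≤ z → Real.sinh z ≤ z * Real.cosh z := by
        intro z hz
        have hmono : MonotoneOn (fun w : ℝ => w * Real.cosh w - Real.sinh w) (Set.Ici 0) := by
          apply monotoneOn_of_deriv_nonneg (convex_Ici 0)
          · fun_prop
          · fun_prop
          · intro w hw
            rw [interior_Ici] at hw
            have hd : HasDerivAt (fun w : ℝ => w * Real.cosh w - Real.sinh w)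
                (1 * Real.cosh w + w * Real.sinh w - Real.cosh w) w :=
              ((hasDerivAt_id w).mul (Real.hasDerivAt_cosh w)).sub (Real.hasDerivAt_sinh w)
            rw [hd.deriv]
            have : 0 ≤ w * Real.sinh w :=
              mul_nonneg (le_of_lt hw) (Real.sinh_nonneg_iff.mpr (le_of_lt hw))
            linarith
        have := hmono (Set.mem_Ici.mpr le_rfl) (Set.mem_Ici.mpr hz) hz
        simp at this
        linarith
      exact this y hy
    refine ⟨by linarith, ?_⟩
    have h6 : y * (1 - y ^ 2 / 2) ≤ Real.tanh y := by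
      refine le_trans (mul_le_mul_of_nonneg_left ?_ hy) h4
      linarith
    nlinarith
  rcases le_total 0 x with hx | hx
  · obtain ⟨h1, h2⟩ := key x hx
    have h3 : (x - Real.tanh x) ^ 2 ≤ (x ^ 3 / 2) ^ 2 := pow_le_pow_left₀ h1 h2 2
    calc (Real.tanh x - x) ^ 2 = (x - Real.tanh x) ^ 2 := by ring
      _ ≤ (x ^ 3 / 2) ^ 2 := h3
      _ = x ^ 6 / 4 := by ring
  · obtain ⟨h1, h2⟩ := key (-x) (by linarith)
    rw [Real.tanh_neg] at h1 h2
    have h3 : (-x - -Real.tanh x) ^ 2 ≤ ((-x) ^ 3 / 2) ^ 2 := pow_le_pow_left₀ h1 h2 2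
    calc (Real.tanh x - x) ^ 2 = (-x - -Real.tanh x) ^ 2 := by ring
      _ ≤ ((-x) ^ 3 / 2) ^ 2 := h3
      _ = x ^ 6 / 4 := by ring

/-- the tilted mean -/
noncomputable def tv (m : ℕ) (v : EuclideanSpace ℝ (Fin n)) : EuclideanSpace ℝ (Fin n) :=
  WithLp.toLp 2 (fun i => Real.sqrt m * Real.tanh (v i / Real.sqrt m))

lemma tv_apply (v : EuclideanSpace ℝ (Fin n)) (i : Fin n) :
    tv m v i = Real.sqrt m * Real.tanh (v i / Real.sqrt m) := rfl

lemma norm_tv_sub_le (hm : 0 < m) (v : EuclideanSpace ℝ (Fin n)) :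
    ‖tv m v - v‖ ≤ ‖v‖ ^ 3 / (2 * m) := by
  have hm' : (0:ℝ) < m := by exact_mod_cast hm
  apply le_of_sq_le_sq _ (by positivity)
  rw [norm_sq_eq]
  calc ∑ i, (tv m v - v) i ^ 2 ≤ ∑ i, (v i ^ 2) ^ 3 / (4 * (m:ℝ) ^ 2) := by
        apply Finset.sum_le_sum
        intro i _
        have h1 : (tv m v - v) i = Real.sqrt m *
            (Real.tanh (v i / Real.sqrt m) - v i / Real.sqrt m) := by
          rw [PiLp.sub_apply, tv_apply]
          have : Real.sqrt m ≠ 0 := (Real.sqrt_pos.mpr hm').ne'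
          field_simp
        rw [h1, mul_pow, Real.sq_sqrt hm'.le]
        calc (m:ℝ) * (Real.tanh (v i / Real.sqrt m) - v i / Real.sqrt m) ^ 2
            ≤ (m:ℝ) * ((v i / Real.sqrt m) ^ 6 / 4) :=
              mul_le_mul_of_nonneg_left (sq_sub_tanh_le _) hm'.le
          _ = (v i ^ 2) ^ 3 / (4 * (m:ℝ) ^ 2) := by
              rw [show (v i / Real.sqrt m) ^ 6 = ((v i / Real.sqrt m) ^ 2) ^ 3 by ring, div_pow,
                Real.sq_sqrt hm'.le]
              field_simp
    _ = (∑ i, (v i ^ 2) ^ 3) / (4 * (m:ℝ) ^ 2) := by rw [Finset.sum_div]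
    _ ≤ (∑ i, v i ^ 2) ^ 3 / (4 * (m:ℝ) ^ 2) := by
        apply div_le_div_of_nonneg_right _ (by positivity)
        have h2 : ∀ i : Fin n, (v i ^ 2) ^ 3 ≤ v i ^ 2 * (∑ j, v j ^ 2) ^ 2 := by
          intro i
          have h3 : v i ^ 2 ≤ ∑ j, v j ^ 2 :=
            Finset.single_le_sum (f := fun j => v j ^ 2) (fun j _ => sq_nonneg _)
              (Finset.mem_univ i)
          calc (v i ^ 2) ^ 3 = v i ^ 2 * (v i ^ 2) ^ 2 := by ring
            _ ≤ v i ^ 2 * (∑ j, v j ^ 2) ^ 2 :=
              mul_le_mul_of_nonneg_left (pow_le_pow_left₀ (sq_nonneg _) h3 2) (sq_nonneg _)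
        calc ∑ i, (v i ^ 2) ^ 3 ≤ ∑ i, v i ^ 2 * (∑ j, v j ^ 2) ^ 2 :=
              Finset.sum_le_sum (fun i _ => h2 i)
          _ = (∑ i, v i ^ 2) ^ 3 := by rw [← Finset.sum_mul]; ring
    _ = (‖v‖ ^ 3 / (2 * m)) ^ 2 := by
        rw [← norm_sq_eq]
        ring

/-- tilted second moment -/
lemma tilt_second_moment (hm : 0 < m) (v : EuclideanSpace ℝ (Fin n)) :
    (1 / 2 : ℝ) ^ (n * m) * ∑ e : Fin n × Fin m → Bool,
      Real.exp (inner ℝ (av e) v) * ‖av e - tv m v‖ ^ 2 ≤ n * Lam n m v := by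
  have hm' : (0:ℝ) < m := by exact_mod_cast hm
  have hsm : Real.sqrt m ≠ 0 := (Real.sqrt_pos.mpr hm').ne'
  set w : Fin n × Fin m → Bool → ℝ := fun p b =>
    Real.exp (sg b * (v p.1 / Real.sqrt m)) / (2 * Real.cosh (v p.1 / Real.sqrt m)) with hwdef
  set h : Fin n × Fin m → Bool → ℝ := fun p b => sg b - Real.tanh (v p.1 / Real.sqrt m) with hhdef
  have hw : ∀ p, w p true + w p false = 1 := by
    intro p
    have hc := Real.cosh_pos (v p.1 / Real.sqrt m)
    simp only [hwdef, sg_true, sg_false, one_mul, neg_mul]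
    rw [← add_div, Real.cosh_eq]
    have : Real.exp (v p.1 / Real.sqrt m) + Real.exp (-(v p.1 / Real.sqrt m)) ≠ 0 := by positivity
    field_simp
  have hh : ∀ p, w p true * h p true + w p false * h p false = 0 := by
    intro p
    have hc := Real.cosh_pos (v p.1 / Real.sqrt m)
    simp only [hwdef, hhdef, sg_true, sg_false, one_mul, neg_mul]
    rw [Real.tanh_eq_sinh_div_cosh, Real.cosh_eq, Real.sinh_eq]
    have : Real.exp (v p.1 / Real.sqrt m) + Real.exp (-(v p.1 / Real.sqrt m)) ≠ 0 := by positivity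
    field_simp
    ring
  have hprod : ∀ e : Fin n × Fin m → Bool, (1 / 2 : ℝ) ^ (n * m) * Real.exp (inner ℝ (av e) v)
      = Lam n m v * ∏ p, w p (e p) := by
    intro e
    rw [exp_inner_av, Lam_eq]
    have h1 : ∏ p, w p (e p) = (∏ p, Real.exp (sg (e p) * (v p.1 / Real.sqrt m))) /
        ((2:ℝ) ^ (n * m) * ∏ p : Fin n × Fin m, Real.cosh (v p.1 / Real.sqrt m)) := by
      simp only [hwdef]
      rw [Finset.prod_div_distrib, Finset.prod_mul_distrib]
      congr 2
      rw [Finset.prod_const, Finset.card_univ, Fintype.card_prod, Fintype.card_fin,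
        Fintype.card_fin]
    rw [h1]
    have h2 : (∏ p : Fin n × Fin m, Real.cosh (v p.1 / Real.sqrt m)) ≠ 0 :=
      (Finset.prod_pos (fun p _ => Real.cosh_pos _)).ne'
    have h3 : ((2:ℝ) ^ (n * m)) ≠ 0 := by positivity
    rw [one_div, inv_pow]
    field_simp
  have hnorm : ∀ e : Fin n × Fin m → Bool, ‖av e - tv m v‖ ^ 2
      = ∑ i : Fin n, (∑ p ∈ ({i} : Finset (Fin n)) ×ˢ (Finset.univ : Finset (Fin m)), h p (e p)) ^ 2 / m := by
    intro e
    rw [norm_sq_eq]
    apply Finset.sum_congr rfl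
    intro i _
    rw [Finset.sum_product, Finset.sum_singleton]
    simp only [hhdef]
    rw [Finset.sum_sub_distrib, PiLp.sub_apply, av_apply, tv_apply]
    simp only [Finset.sum_const, Finset.card_univ, Fintype.card_fin, nsmul_eq_mul]
    rw [← Real.sq_sqrt hm'.le, ← div_pow, Real.sq_sqrt hm'.le]
    congr 1
    have : (m:ℝ) = Real.sqrt m * Real.sqrt m := (Real.mul_self_sqrt hm'.le).symm
    rw [sub_div]
    congr 1
    rw [eq_div_iff hsm]
    rw [mul_comm (Real.sqrt m) (Real.tanh _), mul_assoc, ← this]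
    ring
  calc (1 / 2 : ℝ) ^ (n * m) * ∑ e : Fin n × Fin m → Bool,
      Real.exp (inner ℝ (av e) v) * ‖av e - tv m v‖ ^ 2
      = ∑ e : Fin n × Fin m → Bool, ∑ i : Fin n, Lam n m v / m * ((∏ p, w p (e p)) *
        (∑ p ∈ ({i} : Finset (Fin n)) ×ˢ (Finset.univ : Finset (Fin m)), h p (e p)) ^ 2) := by
        rw [Finset.mul_sum]
        apply Finset.sum_congr rfl
        intro e _
        rw [← mul_assoc, hprod, hnorm, Finset.mul_sum]
        apply Finset.sum_congr rfl
        intro i _
        ring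
    _ = ∑ i : Fin n, Lam n m v / m * ∑ e : Fin n × Fin m → Bool, ((∏ p, w p (e p)) *
        (∑ p ∈ ({i} : Finset (Fin n)) ×ˢ (Finset.univ : Finset (Fin m)), h p (e p)) ^ 2) := by
        rw [Finset.sum_comm]
        apply Finset.sum_congr rfl
        intro i _
        rw [Finset.mul_sum]
    _ ≤ ∑ i : Fin n, Lam n m v / m * m := by
        apply Finset.sum_le_sum
        intro i _
        apply mul_le_mul_of_nonneg_left _ (div_nonneg (Lam_pos v).le hm'.le)
        rw [sum_prod_sq w h hw hh]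
        calc ∑ p ∈ ({i} : Finset (Fin n)) ×ˢ (Finset.univ : Finset (Fin m)),
            (w p true * h p true ^ 2 + w p false * h p false ^ 2)
            ≤ ∑ p ∈ ({i} : Finset (Fin n)) ×ˢ (Finset.univ : Finset (Fin m)), (1:ℝ) := by
              apply Finset.sum_le_sum
              intro p _
              have e1 := hw p
              have e2 := hh p
              have e3 : w p true * h p true ^ 2 + w p false * h p false ^ 2
                  = (w p true + w p false) - 2 * Real.tanh (v p.1 / Real.sqrt m) *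
                    (w p true * h p true + w p false * h p false)
                    - Real.tanh (v p.1 / Real.sqrt m) ^ 2 * (w p true + w p false) := by
                simp only [hhdef, sg_true, sg_false]
                ring
              rw [e3, e1, e2]
              nlinarith [sq_nonneg (Real.tanh (v p.1 / Real.sqrt m))]
          _ = m := by simp
    _ = n * Lam n m v := by
        simp only [Finset.sum_const, Finset.card_univ, Fintype.card_fin, nsmul_eq_mul]
        field_simp

lemma card_inv (n m : ℕ) : ((Fintype.card (Fin n × Fin m → Bool) : ℝ))⁻¹ = (1 / 2 : ℝ) ^ (n * m) := by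
  rw [Fintype.card_fun, Fintype.card_bool, Fintype.card_prod, Fintype.card_fin, Fintype.card_fin]
  push_cast
  rw [one_div, inv_pow]

lemma abs_sg (b : Bool) : |sg b| = 1 := by cases b <;> simp [sg]

/-- norm bound for the discrete Gaussian vector -/
lemma norm_av_le (hm : 0 < m) (e : Fin n × Fin m → Bool) : ‖av e‖ ≤ Real.sqrt (n * m) := by
  have hm' : (0:ℝ) < m := by exact_mod_cast hm
  apply Real.le_sqrt_of_sq_le
  rw [norm_sq_eq]
  calc ∑ i, av e i ^ 2 ≤ ∑ _i : Fin n, (m:ℝ) := by
        apply Finset.sum_le_sum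
        intro i _
        rw [av_apply, div_pow, Real.sq_sqrt hm'.le, div_le_iff₀ hm']
        have h1 : |∑ l : Fin m, sg (e (i, l))| ≤ m := by
          refine le_trans (Finset.abs_sum_le_sum_abs _ _) ?_
          rw [Finset.sum_congr rfl (fun l _ => abs_sg _)]
          simp
        have h2 : (∑ l : Fin m, sg (e (i, l))) ^ 2 ≤ (m:ℝ) ^ 2 := by
          rw [← sq_abs]
          exact pow_le_pow_left₀ (abs_nonneg _) h1 2
        nlinarith
    _ = n * m := by simp

end CovG
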