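import Mathlib

/-! # [O2] greedy grouping -/

namespace Cov

open Finset

/-- Greedy grouping: every point of `J` is either in a group (a set of more than `m` points
of `J` close to one of them) or light (at most `m` light points close to it). -/
theorem grouping {α : Type} [DecidableEq α] [PseudoMetricSpace α] (δ : ℝ) (hδ : 0 ≤ δ)
    (m : ℝ) (J : Finset α) :
    ∃ (P : Finset (Finset α)) (L : Finset α), L ⊆ J ∧
      (∀ B ∈ P, B ⊆ J ∧ m < (B.card : ℝ) ∧ ∃ y0 ∈ B, ∀ y ∈ B, dist y y0 ≤ δ) ∧
      (∀ t ∈ J, t ∈ L ∨ ∃ B ∈ P, t ∈ B) ∧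
      (P.card : ℝ) * m ≤ J.card ∧
      ∀ t ∈ L, (((L.filter (fun t' => dist t' t ≤ δ)).card : ℕ) : ℝ) ≤ m := by
  classical
  induction' hJ : J.card using Nat.strong_induction_on with N ih generalizing J
  subst hJ
  by_cases h : ∀ t ∈ J, (((J.filter (fun t' => dist t' t ≤ δ)).card : ℕ) : ℝ) ≤ m
  · refine ⟨∅, J, Subset.refl _, by simp, fun t ht => Or.inl ht, by simp, h⟩
  · push Not at h
    obtain ⟨t, htJ, ht⟩ := h
    set B := J.filter (fun t' => dist t' t ≤ δ) with hB
    have htB : t ∈ B := by simp [hB, htJ, hδ]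
    have hBJ : B ⊆ J := filter_subset _ _
    have hlt : (J \ B).card < J.card := by
      apply card_lt_card
      refine ⟨sdiff_subset, fun h => ?_⟩
      have := h htJ
      simp [htB] at this
    obtain ⟨P, L, hL, hP, hcov, hcard, hlight⟩ := ih _ hlt (J \ B) rfl
    refine ⟨insert B P, L, hL.trans sdiff_subset, ?_, ?_, ?_, hlight⟩
    · intro B' hB'
      rcases mem_insert.mp hB' with rfl | hB'
      · refine ⟨hBJ, ht, t, htB, fun y hy => (mem_filter.mp hy).2⟩
      · obtain ⟨h1, h2, h3⟩ := hP B' hB'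
        exact ⟨h1.trans sdiff_subset, h2, h3⟩
    · intro s hs
      by_cases hsB : s ∈ B
      · exact Or.inr ⟨B, mem_insert_self _ _, hsB⟩
      · rcases hcov s (mem_sdiff.mpr ⟨hs, hsB⟩) with h | ⟨B', hB', h⟩
        · exact Or.inl h
        · exact Or.inr ⟨B', mem_insert_of_mem hB', h⟩
    · have h1 : ((J \ B).card : ℝ) = (J.card : ℝ) - B.card := by
        rw [card_sdiff_of_subset hBJ, Nat.cast_sub (card_le_card hBJ)]
      by_cases hm : 0 ≤ m
      · have h2 : ((insert B P).card : ℝ) ≤ (P.card : ℝ) + 1 := by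
          exact_mod_cast card_insert_le _ _
        calc ((insert B P).card : ℝ) * m ≤ ((P.card : ℝ) + 1) * m :=
              mul_le_mul_of_nonneg_right h2 hm
          _ = P.card * m + m := by ring
          _ ≤ (J \ B).card + B.card := by linarith
          _ = J.card := by rw [h1]; ring
      · push Not at hm
        have : ((insert B P).card : ℝ) * m ≤ 0 :=
          mul_nonpos_of_nonneg_of_nonpos (Nat.cast_nonneg _) hm.le
        exact this.trans (Nat.cast_nonneg _)

end Cov
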