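import Mathlib

/-! # the lattice covering density -/

namespace Cov

open MeasureTheory
open scoped Pointwise

/-- The lattice `A ℤ^n` spanned by the columns of the matrix `A`. -/
def latSet {n : ℕ} (A : Matrix (Fin n) (Fin n) ℝ) : Set (EuclideanSpace ℝ (Fin n)) :=
  {x | ∃ z : Fin n → ℤ, ∀ i, x i = ∑ j, A i j * z j}

/-- The lattice covering density `θ_L(K)`: the infimum of `vol(K) / det Λ` over the full-rank
lattices `Λ = A ℤ^n` (`det A ≠ 0`, `det Λ = |det A|`) with `K + Λ = ℝ^n`. -/
noncomputable def thetaL {n : ℕ} (K : Set (EuclideanSpace ℝ (Fin n))) : ENNReal :=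
  ⨅ (A : Matrix (Fin n) (Fin n) ℝ) (_ : A.det ≠ 0) (_ : K + latSet A = Set.univ),
    volume K / ENNReal.ofReal |A.det|

end Cov
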