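import Vale.Agent.Cov.Final26
import Vale.Agent.Cov.LatDef

/-! # the lattice covering density is at least the translative one -/

namespace Cov

open MeasureTheory Filter Topology
open scoped Pointwise

theorem locallyFiniteSet_lattice {n : ℕ} (Λ : Submodule ℤ (E n)) [DiscreteTopology Λ] :
    LocallyFiniteSet (Λ : Set (E n)) := by
  intro S hS
  have h1 : DiscreteTopology Λ.toAddSubgroup := (inferInstance : DiscreteTopology Λ)
  have h2 : IsClosed (Λ.toAddSubgroup : Set (E n)) := AddSubgroup.isClosed_of_discrete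
  have h3 := Metric.finite_isBounded_inter_isClosed (s := (Λ.toAddSubgroup : Set (E n)))
    (K := S) ⟨h1⟩ hS h2
  rw [Set.inter_comm]
  exact h3

theorem vol_QR_one (n : ℕ) : volume (QR n 1) = ENNReal.ofReal (2 ^ n) := by
  have h : QR n 1 = (@WithLp.ofLp 2 (Fin n → ℝ)) ⁻¹' (Set.Icc (fun _ => -1) (fun _ => 1)) := by
    ext x
    simp only [QR, abs_le, Set.mem_preimage, Set.mem_Icc, Pi.le_def, Set.mem_ofPred_eq]
    exact forall_and
  rw [h, (PiLp.volume_preserving_ofLp (Fin n)).measure_preimage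
    measurableSet_Icc.nullMeasurableSet]
  rw [Real.volume_Icc_pi, Finset.prod_const, Finset.card_univ, Fintype.card_fin,
    ENNReal.ofReal_pow (by norm_num)]
  norm_num

theorem convex_QR (n : ℕ) (R : ℝ) : Convex ℝ (QR n R) := by
  intro x hx y hy a b ha hb hab i
  have h1 := hx i
  have h2 := hy i
  rw [abs_le] at h1 h2 ⊢
  have h3 : (a • x + b • y) i = a * x i + b * y i := by simp
  rw [h3]
  constructor
  · nlinarith
  · nlinarith

theorem isClosed_QR (n : ℕ) (R : ℝ) : IsClosed (QR n R) := by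
  have : QR n R = ⋂ i, {x : E n | |x i| ≤ R} := by
    ext x
    simp [QR]
  rw [this]
  refine isClosed_iInter fun i => ?_
  exact isClosed_le (by fun_prop) continuous_const

theorem dens_lattice {n : ℕ} (hn : 1 ≤ n) (Λ : Submodule ℤ (E n)) [DiscreteTopology Λ]
    [IsZLattice ℝ Λ] :
    dens (Λ : Set (E n)) = (ENNReal.ofReal (ZLattice.covolume Λ volume))⁻¹ := by
  have hcov : 0 < ZLattice.covolume Λ volume := ZLattice.covolume_pos Λ volume
  have : Nonempty (Fin n) := ⟨⟨0, hn⟩⟩
  have : Nontrivial (E n) := by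
    refine ⟨0, EuclideanSpace.single ⟨0, hn⟩ 1, ?_⟩
    intro h
    have := congrArg (fun v : E n => v ⟨0, hn⟩) h
    simp at this
  set F : E n → ℝ := fun x => ‖(WithLp.ofLp x : Fin n → ℝ)‖ ^ n with hF
  have hset : ∀ R : ℝ, 0 ≤ R → {x : E n | x ∈ (Set.univ : Set (E n)) ∧ F x ≤ R ^ n}
      = QR n R := by
    intro R hR
    ext x
    simp only [Set.mem_univ, true_and, Set.mem_ofPred_eq, QR, hF]
    rw [pow_le_pow_iff_left₀ (norm_nonneg _) hR (by omega), pi_norm_le_iff_of_nonneg hR]
    simp only [Real.norm_eq_abs]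
  have hset1 : {x : E n | x ∈ (Set.univ : Set (E n)) ∧ F x ≤ 1} = QR n 1 := by
    have := hset 1 zero_le_one
    rwa [one_pow] at this
  have hlim := ZLattice.covolume.tendsto_card_le_div' Λ (X := (Set.univ : Set (E n))) (F := F)
    (fun _ _ _ _ => Set.mem_univ _)
    (by
      intro x r hr
      rw [finrank_euclideanSpace, Fintype.card_fin]
      simp only [hF]
      rw [WithLp.ofLp_smul, norm_smul, mul_pow, Real.norm_eq_abs, abs_of_nonneg hr])
    (by rw [hset1]; exact isBounded_QR n 1)
    (by rw [hset1]; exact (isClosed_QR n 1).measurableSet)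
    (by rw [hset1]; exact (convex_QR n 1).addHaar_frontier volume)
  rw [hset1] at hlim
  have hvol : volume.real (QR n 1) = 2 ^ n := by
    rw [measureReal_def, vol_QR_one, ENNReal.toReal_ofReal (by positivity)]
  rw [hvol] at hlim
  have hlim2 : Tendsto (fun R : ℝ => (((Λ : Set (E n)) ∩ QR n R).ncard : ENNReal)
      / ENNReal.ofReal ((2 * R) ^ n)) atTop
      (𝓝 ((ENNReal.ofReal (ZLattice.covolume Λ volume))⁻¹)) := by
    have h1 : Tendsto (fun R : ℝ => R ^ n) atTop atTop := tendsto_pow_atTop (by omega)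
    have h2 := (hlim.comp h1).div_const ((2 : ℝ) ^ n)
    have h3 : (2 : ℝ) ^ n / ZLattice.covolume Λ volume / 2 ^ n
        = (ZLattice.covolume Λ volume)⁻¹ := by
      field_simp
    rw [h3] at h2
    have h4 := ENNReal.tendsto_ofReal h2
    rw [ENNReal.ofReal_inv_of_pos hcov] at h4
    refine h4.congr' ?_
    filter_upwards [eventually_gt_atTop 0] with R hR
    simp only [Function.comp]
    rw [hset R hR.le]
    rw [div_div, ENNReal.ofReal_div_of_pos (by positivity)]
    congr 1
    · rw [ENNReal.ofReal_natCast, Set.inter_comm]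
      rfl
    · congr 1
      rw [mul_pow, mul_comm]
  unfold dens
  exact hlim2.limsup_eq

theorem lat_aux {n : ℕ} (hn : 1 ≤ n) (A : Matrix (Fin n) (Fin n) ℝ) (hA : A.det ≠ 0) :
    LocallyFiniteSet (latSet A) ∧ dens (latSet A) = (ENNReal.ofReal |A.det|)⁻¹ := by
  classical
  set b : Fin n → E n := fun j => WithLp.toLp 2 (fun i => A i j) with hb
  set b₀ := (EuclideanSpace.basisFun (Fin n) ℝ).toBasis with hb₀
  have hmat : b₀.toMatrix b = A := by
    ext i j
    simp [Module.Basis.toMatrix_apply, hb₀, hb]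
  have hdet : b₀.det b = A.det := by
    rw [Module.Basis.det_apply, hmat]
  have hu : IsUnit (b₀.det b) := by
    rw [hdet]; exact isUnit_iff_ne_zero.mpr hA
  obtain ⟨hli, hsp⟩ := (Module.Basis.is_basis_iff_det b₀).mpr hu
  set B : Module.Basis (Fin n) ℝ (E n) := Module.Basis.mk hli hsp.ge with hB
  have hBb : (B : Fin n → E n) = b := Module.Basis.coe_mk hli hsp.ge
  set Λ : Submodule ℤ (E n) := Submodule.span ℤ (Set.range B) with hΛ
  have hset : (Λ : Set (E n)) = latSet A := by
    ext x
    rw [SetLike.mem_coe, hΛ, Submodule.mem_span_range_iff_exists_fun]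
    constructor
    · rintro ⟨z, hz⟩
      refine ⟨z, fun i => ?_⟩
      rw [← hz, hBb]
      simp [hb, mul_comm]
    · rintro ⟨z, hz⟩
      refine ⟨z, ?_⟩
      rw [hBb]
      ext i
      rw [hz i]
      simp [hb, mul_comm]
  have hcov : ZLattice.covolume Λ volume = |A.det| := by
    rw [ZLattice.covolume_eq_det_mul_measureReal Λ volume (B.restrictScalars ℤ) b₀]
    have h1 : ((fun x : Λ => (x : E n)) ∘ (B.restrictScalars ℤ)) = b := by
      ext1 j
      simp [hBb]
    have h2 : volume.real (ZSpan.fundamentalDomain b₀) = 1 := by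
      rw [measureReal_def, measure_congr (ZSpan.fundamentalDomain_ae_parallelepiped b₀ volume),
        hb₀, OrthonormalBasis.coe_toBasis, OrthonormalBasis.volume_parallelepiped]
      simp
    rw [h2, mul_one]
    have h3 : b₀.det ((fun x : Λ => (x : E n)) ∘ (B.restrictScalars ℤ)) = A.det := by
      rw [h1, hdet]
    rw [← h3]
  rw [← hset]
  exact ⟨locallyFiniteSet_lattice Λ, by rw [dens_lattice hn Λ, hcov]⟩

theorem thetaT_le_thetaL {n : ℕ} (hn : 1 ≤ n) (K : Set (E n)) : thetaT K ≤ thetaL K := by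
  unfold thetaL
  refine le_iInf fun A => le_iInf fun h1 => le_iInf fun h3 => ?_
  obtain ⟨h4, h5⟩ := lat_aux hn A h1
  unfold thetaT
  refine iInf_le_of_le (latSet A) ?_
  refine iInf_le_of_le h4 ?_
  refine iInf_le_of_le h3 ?_
  rw [h5, div_eq_mul_inv]

end Cov
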