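import Vale.Agent.Cov.Final26

/-! # no linear bound in dimensions `n ≥ 1` -/

namespace Cov

open MeasureTheory Filter
open scoped Pointwise

theorem no_linear_pos : ¬ ∃ C : ℝ, ∀ n : ℕ, 1 ≤ n → ∀ K : Set (EuclideanSpace ℝ (Fin n)),
    IsBody K → thetaT K ≤ ENNReal.ofReal (C * n) := by
  rintro ⟨C, hC⟩
  obtain ⟨c, hc, n₀, h⟩ := lower
  have h1 : Tendsto (fun n : ℕ => c * Real.log n) atTop atTop :=
    (Real.tendsto_log_atTop.comp tendsto_natCast_atTop_atTop).const_mul_atTop hc
  obtain ⟨n, hn0, hn1, hn2⟩ := ((h1.eventually_gt_atTop (max C 0)).and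
    ((eventually_ge_atTop n₀).and (eventually_ge_atTop 1))).exists
  obtain ⟨K, hK, hlow⟩ := h n hn1
  have h2 := hlow.trans (hC n hn2 K hK)
  have hnpos : (0 : ℝ) < n := by exact_mod_cast hn2
  have h3 : (0 : ℝ) < c * Real.log n := (le_max_right C 0).trans_lt hn0
  have h4 : C < c * Real.log n := (le_max_left C 0).trans_lt hn0
  have h5 : (0 : ℝ) < c * n * Real.log n := by nlinarith
  have h6 : C * n < c * n * Real.log n := by nlinarith
  exact absurd h2 (not_le.2 ((ENNReal.ofReal_lt_ofReal_iff h5).2 h6))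

end Cov
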