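import Vale.Agent.Cov.ModB

/-! # [M] assembly of the model from an abstract finite Gaussian-like family -/

namespace Cov

open MeasureTheory Finset
open scoped RealInnerProductSpace

theorem sum_Om {I : Type} [Fintype I] (J : ℕ) (cond Q : I → ℕ → Prop)
    [∀ i j, Decidable (cond i j)] [∀ i j, Decidable (Q i j)] (f : ℕ → ℝ) :
    ∑ ω ∈ univ.filter (fun ω : {q : I × Fin J // cond q.1 q.2} => Q ω.1.1 ω.1.2), f ω.1.2
      = ∑ i, ∑ j ∈ (range J).filter (fun j => cond i j ∧ Q i j), f j := by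
  classical
  rw [Finset.sum_filter]
  have h1 : ∑ ω : {q : I × Fin J // cond q.1 q.2}, (if Q ω.1.1 ω.1.2 then f ω.1.2 else 0)
      = ∑ q ∈ (univ : Finset (I × Fin J)).filter (fun q => cond q.1 q.2),
          (if Q q.1 q.2 then f q.2 else 0) := by
    refine (Finset.sum_subtype _ (p := fun q : I × Fin J => cond q.1 q.2) ?_
      (fun q : I × Fin J => if Q q.1 q.2 then f q.2 else 0)).symm
    intro q
    simp
  rw [h1, Finset.sum_filter, Fintype.sum_prod_type]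
  refine Finset.sum_congr rfl fun i _ => ?_
  rw [Finset.sum_filter]
  rw [Fin.sum_univ_eq_sum_range (fun j => if cond i j then (if Q i j then f j else 0) else 0) J]
  refine Finset.sum_congr rfl fun j _ => ?_
  by_cases hc : cond i j <;> by_cases hq : Q i j <;> simp [hc, hq]

theorem pw_le {I : Type} [Fintype I] [Nonempty I] {θ δ R : ℝ}
    (hθδ : θ * δ ≤ 1 / 4) (hδ : 0 < δ) (hcard : Real.exp (R ^ 2 / 2) ≤ Fintype.card I)
    {j : ℕ} (hj : (j : ℝ) * δ ≤ R) : pw (I := I) θ δ j ≤ 1 / 2 := by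
  have hc : (0 : ℝ) < (Fintype.card I : ℝ) := by exact_mod_cast Fintype.card_pos
  have hjd : (0 : ℝ) ≤ (j : ℝ) * δ := by positivity
  have h1 : Real.exp (θ * ((j + 1 : ℕ) * δ)) - Real.exp (θ * (j * δ))
      ≤ Real.exp (θ * (j * δ)) * (1 / 2) := by
    have h2 : Real.exp (θ * ((j + 1 : ℕ) * δ)) = Real.exp (θ * (j * δ)) * Real.exp (θ * δ) := by
      rw [← Real.exp_add]; congr 1; push_cast; ring
    have h3 : Real.exp (θ * δ) ≤ 3 / 2 := by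
      have h4 : Real.exp (θ * δ) ≤ Real.exp (1 / 4) := Real.exp_le_exp.mpr hθδ
      have h5 : Real.exp (1 / 4) ≤ 3 / 2 := by
        have h6 := Real.exp_bound_div_one_sub_of_interval (x := 1 / 4) (by norm_num) (by norm_num)
        norm_num at h6 ⊢
        linarith
      linarith
    rw [h2]
    have := Real.exp_pos (θ * (j * δ))
    nlinarith
  unfold pw
  calc (Fintype.card I : ℝ)⁻¹ * Real.exp (-(θ ^ 2 / 2))
        * (Real.exp (θ * ((j + 1 : ℕ) * δ)) - Real.exp (θ * (j * δ)))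
      ≤ (Fintype.card I : ℝ)⁻¹ * Real.exp (-(θ ^ 2 / 2))
        * (Real.exp (θ * (j * δ)) * (1 / 2)) :=
        mul_le_mul_of_nonneg_left h1 (by positivity)
    _ = (Fintype.card I : ℝ)⁻¹ * Real.exp (-(θ ^ 2 / 2) + θ * (j * δ)) * (1 / 2) := by
        rw [Real.exp_add]; ring
    _ ≤ (Fintype.card I : ℝ)⁻¹ * Real.exp (R ^ 2 / 2) * (1 / 2) := by
        apply mul_le_mul_of_nonneg_right _ (by norm_num)
        apply mul_le_mul_of_nonneg_left _ (by positivity)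
        apply Real.exp_le_exp.mpr
        nlinarith [sq_nonneg (θ - j * δ), mul_self_le_mul_self hjd hj]
    _ ≤ (Fintype.card I : ℝ)⁻¹ * Fintype.card I * (1 / 2) := by
        apply mul_le_mul_of_nonneg_right _ (by norm_num)
        exact mul_le_mul_of_nonneg_left hcard (by positivity)
    _ = 1 / 2 := by rw [inv_mul_cancel₀ hc.ne']; norm_num

/-- Assembly of the model from an abstract finite family. -/
theorem assemble {n : ℕ} {κ ρ c0 C3 η θ δ R : ℝ} {I : Type} [Fintype I] [Nonempty I]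
    (a : I → E n) (J : ℕ)
    (hη0 : 0 ≤ η) (hη : 8 * η ≤ ρ ^ 2) (hη4 : η ≤ 1 / 4) (hρ : 0 ≤ ρ) (hθ : 0 ≤ θ)
    (hδ : 0 < δ) (hθδ : θ * δ ≤ 1 / 4) (hκ : θ ^ 2 = κ * n)
    (hup : ∀ v : E n, (Fintype.card I : ℝ)⁻¹ * ∑ i, Real.exp ⟪a i, v⟫ ≤ Real.exp (‖v‖ ^ 2 / 2))
    (hR : ∀ i, ‖a i‖ ≤ R) (hcard : Real.exp (R ^ 2 / 2) ≤ Fintype.card I)
    (lower : ∀ y : E n, ‖y‖ ≤ 1 → sg y ≤ 4 * Real.log n →
      c0 * Real.exp (-(κ * sg y)) ≤
        ∑ i, ∑ j ∈ (range J).filter (fun j : ℕ => (1 - η) * ‖a i‖ ≤ (j : ℝ) * δ ∧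
          (j : ℝ) * δ < ⟪a i, y⟫), pw (I := I) θ δ j)
    (group : ∀ (y0 : E n) (Y : Finset (E n)), y0 ∈ Y → (Y.card : ℝ) ≤ (n : ℝ) ^ 2 →
      (∀ y ∈ Y, ‖y‖ ≤ 1 ∧ sg y ≤ 4 * Real.log n ∧ ‖y - y0‖ ^ 2 ≤ 40 * Real.log n / n) →
      (n : ℝ) ^ (-C3) ≤
        ∑ i, ∑ j ∈ (range J).filter (fun j : ℕ => (1 - η) * ‖a i‖ ≤ (j : ℝ) * δ ∧
          ∀ y ∈ Y, (j : ℝ) * δ < ⟪a i, y⟫), pw (I := I) θ δ j) :
    Nonempty (Mdl n κ ρ c0 C3) := by
  classical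
  have hin : ∀ (i : I) (y : E n), ‖y‖ ≤ 1 → ⟪a i, y⟫ ≤ ‖a i‖ := by
    intro i y hy
    have h1 : ⟪a i, y⟫ ≤ ‖a i‖ * ‖y‖ := real_inner_le_norm _ _
    nlinarith [norm_nonneg (a i)]
  let cond : I → ℕ → Prop := fun i j => (1 - η) * ‖a i‖ ≤ (j : ℝ) * δ ∧ (j : ℝ) * δ ≤ ‖a i‖
  refine mk_mdl (Om := {q : I × Fin J // cond q.1 q.2})
    (fun ω => a ω.1.1) (fun ω => ((ω.1.2 : ℕ) : ℝ) * δ) (fun ω => pw (I := I) θ δ ω.1.2)
    (fun ω => pw_nonneg hθ hδ _) (fun ω => ?_) (fun ω => ?_) (fun ω y y' => ?_) ?_ ?_ ?_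
  · exact pw_le hθδ hδ hcard (ω.2.2.trans (hR _))
  · exact a_le_of hη4 ω.2.1
  · intro hy hy' h h'
    exact range_of hη0 hη hρ ω.2.1 hy hy' h h'
  · intro y hy
    rw [sum_Om J cond (fun i j => (j : ℝ) * δ < ⟪a i, y⟫) (fun j => pw (I := I) θ δ j)]
    exact upper_of hθ hδ (by linarith) hκ hup J
      (fun i j => cond i j ∧ (j : ℝ) * δ < ⟪a i, y⟫) y (fun i j h => h.2)
  · intro y hy hs
    rw [sum_Om J cond (fun i j => (j : ℝ) * δ < ⟪a i, y⟫) (fun j => pw (I := I) θ δ j)]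
    refine (lower y hy hs).trans (le_of_eq ?_)
    refine Finset.sum_congr rfl fun i _ => Finset.sum_congr ?_ fun _ _ => rfl
    ext j
    simp only [Finset.mem_filter, cond]
    constructor
    · rintro ⟨h1, h2, h3⟩
      exact ⟨h1, ⟨h2, h3.le.trans (hin i y hy)⟩, h3⟩
    · rintro ⟨h1, ⟨h2, _⟩, h3⟩
      exact ⟨h1, h2, h3⟩
  · intro y0 Y h1 h2 h3
    rw [sum_Om J cond (fun i j => ∀ y ∈ Y, (j : ℝ) * δ < ⟪a i, y⟫)
      (fun j => pw (I := I) θ δ j)]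
    refine (group y0 Y h1 h2 h3).trans (le_of_eq ?_)
    refine Finset.sum_congr rfl fun i _ => Finset.sum_congr ?_ fun _ _ => rfl
    ext j
    simp only [Finset.mem_filter, cond]
    constructor
    · rintro ⟨h4, h5, h6⟩
      exact ⟨h4, ⟨h5, (h6 y0 h1).le.trans (hin i y0 (h3 y0 h1).1)⟩, h6⟩
    · rintro ⟨h4, ⟨h5, _⟩, h6⟩
      exact ⟨h4, h5, h6⟩

end Cov
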