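import Vale.Agent.Cov.ModNum
import Vale.Agent.Cov.ModA

/-! # [M] the sign model satisfies the abstract hypotheses -/

namespace Cov

open MeasureTheory Finset
open scoped RealInnerProductSpace

theorem sign_up (n m : ℕ) (hm : 0 < m) (v : E n) :
    (Fintype.card (Fin n × Fin m → Bool) : ℝ)⁻¹ *
      ∑ i : Fin n × Fin m → Bool, Real.exp ⟪(CovG.av i : E n), v⟫ ≤ Real.exp (‖v‖ ^ 2 / 2) := by
  rw [CovG.card_inv]
  exact CovG.Lam_le hm v

theorem sign_low {κ : ℝ} (hκ : 1 ≤ κ) {n : ℕ} (hn : 10 * κ ≤ n) (y : E n) (hy : ‖y‖ ≤ 1) :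
    Real.exp (‖Real.sqrt (κ * n) • y‖ ^ 2 / 2 - 1 / 100)
      ≤ (Fintype.card (Fin n × Fin (n ^ 4) → Bool) : ℝ)⁻¹ *
      ∑ i : Fin n × Fin (n ^ 4) → Bool,
        Real.exp ⟪(CovG.av i : E n), Real.sqrt (κ * n) • y⟫ := by
  rw [CovG.card_inv]
  exact CovG.hlow hκ hn y hy

theorem sign_card (n m : ℕ) :
    Real.exp (Real.sqrt (n * m) ^ 2 / 2) ≤ (Fintype.card (Fin n × Fin m → Bool) : ℝ) := by
  rw [Real.sq_sqrt (by positivity)]
  have hc : (0:ℝ) < (Fintype.card (Fin n × Fin m → Bool) : ℝ) := by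
    exact_mod_cast Fintype.card_pos
  rw [← Real.le_log_iff_exp_le hc, CovG.log_card]
  have h := Real.log_two_gt_d9
  have h2 : (0:ℝ) ≤ (n:ℝ) * m := by positivity
  nlinarith

end Cov
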