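import Mathlib

/-! # P230: tilted lower bounds for the random half-space intensity (abstract form) -/

namespace Cov

open Finset

variable {n : ℕ} {I : Type*} [Fintype I]

/-- The Laplace transform of the uniform law on the finite family `a`. -/
noncomputable def Lam (a : I → EuclideanSpace ℝ (Fin n)) (v : EuclideanSpace ℝ (Fin n)) : ℝ :=
  (Fintype.card I : ℝ)⁻¹ * ∑ i, Real.exp (inner ℝ (a i) v)

/-- Tilted mass of a set of indices. -/
noncomputable def tm (a : I → EuclideanSpace ℝ (Fin n)) (v : EuclideanSpace ℝ (Fin n))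
    (P : I → Prop) : ℝ := by
  classical
  exact (Fintype.card I : ℝ)⁻¹ * ∑ i ∈ univ.filter P, Real.exp (inner ℝ (a i) v)

theorem tm_def (a : I → EuclideanSpace ℝ (Fin n)) (v : EuclideanSpace ℝ (Fin n))
    (P : I → Prop) [DecidablePred P] :
    tm a v P = (Fintype.card I : ℝ)⁻¹ * ∑ i ∈ univ.filter P, Real.exp (inner ℝ (a i) v) := by
  unfold tm
  congr!

theorem cardinv_nonneg (I : Type*) [Fintype I] : (0 : ℝ) ≤ (Fintype.card I : ℝ)⁻¹ := by positivity

theorem tm_le_of (a : I → EuclideanSpace ℝ (Fin n)) (v w : EuclideanSpace ℝ (Fin n))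
    (P : I → Prop) (c : ℝ)
    (h : ∀ i, P i → Real.exp (inner ℝ (a i) v) ≤ Real.exp c * Real.exp (inner ℝ (a i) w)) :
    tm a v P ≤ Real.exp c * Lam a w := by
  classical
  rw [tm_def, Lam]
  have h1 : ∑ i ∈ univ.filter P, Real.exp (inner ℝ (a i) v)
      ≤ ∑ i ∈ univ.filter P, Real.exp c * Real.exp (inner ℝ (a i) w) :=
    Finset.sum_le_sum (fun i hi => h i (Finset.mem_filter.1 hi).2)
  have h2 : ∑ i ∈ univ.filter P, Real.exp c * Real.exp (inner ℝ (a i) w)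
      ≤ ∑ i, Real.exp c * Real.exp (inner ℝ (a i) w) :=
    Finset.sum_le_sum_of_subset_of_nonneg (Finset.filter_subset _ _)
      (fun i _ _ => by positivity)
  have h3 : ∑ i, Real.exp c * Real.exp (inner ℝ (a i) w)
      = Real.exp c * ∑ i, Real.exp (inner ℝ (a i) w) := by rw [Finset.mul_sum]
  have h4 := mul_le_mul_of_nonneg_left (h1.trans (h2.trans h3.le)) (cardinv_nonneg I)
  calc _ ≤ _ := h4
    _ = _ := by ring

/-- (T1) exponential Markov for a displacement. -/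
theorem tm_disp (a : I → EuclideanSpace ℝ (Fin n)) (θ u : ℝ) (y0 y : EuclideanSpace ℝ (Fin n)) :
    tm a (θ • y0) (fun i => θ * inner ℝ (a i) (y - y0) < -u)
      ≤ Real.exp (-u) * Lam a (θ • ((2 : ℝ) • y0 - y)) := by
  apply tm_le_of
  intro i hi
  rw [← Real.exp_add]
  apply Real.exp_le_exp.2
  have e1 : inner ℝ (a i) (θ • ((2 : ℝ) • y0 - y))
      = θ * inner ℝ (a i) y0 - θ * inner ℝ (a i) (y - y0) := by
    rw [inner_smul_right, inner_sub_right, inner_sub_right, inner_smul_right]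
    ring
  rw [e1, inner_smul_right]
  linarith

/-- (T2a) lower deviations of the tilted inner product. -/
theorem tm_low (a : I → EuclideanSpace ℝ (Fin n)) (θ t : ℝ) (y0 : EuclideanSpace ℝ (Fin n)) :
    tm a (θ • y0) (fun i => inner ℝ (a i) y0 ≤ θ * ‖y0‖ ^ 2 - t)
      ≤ Real.exp (θ * ‖y0‖ ^ 2 - t) * Lam a ((θ - 1) • y0) := by
  apply tm_le_of
  intro i hi
  rw [← Real.exp_add]
  apply Real.exp_le_exp.2
  rw [inner_smul_right, inner_smul_right]
  nlinarith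

theorem cosh_sq_le (x : ℝ) : 1 + x ^ 2 / 2 ≤ (Real.exp x + Real.exp (-x)) / 2 := by
  have h1 : Real.cosh x = 1 + 2 * Real.sinh (x / 2) ^ 2 := by
    have := Real.cosh_two_mul (x / 2)
    have h2 := Real.cosh_sq (x / 2)
    rw [show 2 * (x / 2) = x by ring] at this
    rw [this, h2]; ring
  have h3 : (x / 2) ^ 2 ≤ Real.sinh (x / 2) ^ 2 := by
    rcases le_total 0 (x / 2) with h | h
    · exact pow_le_pow_left₀ h (Real.self_le_sinh_iff.2 h) 2
    · have h' : 0 ≤ -(x / 2) := by linarith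
      have h4 := Real.self_le_sinh_iff.2 h'
      rw [Real.sinh_neg] at h4
      nlinarith
  rw [← Real.cosh_eq, h1]
  nlinarith

/-- (T2b) tilted second moment around the tilted mean. -/
theorem tilt_second [Nonempty I] (a : I → EuclideanSpace ℝ (Fin n)) (θ err : ℝ)
    (y0 : EuclideanSpace ℝ (Fin n))
    (hup : ∀ v, Lam a v ≤ Real.exp (‖v‖ ^ 2 / 2))
    (hlow : Real.exp (‖θ • y0‖ ^ 2 / 2 - err) ≤ Lam a (θ • y0)) (herr : err ≤ 1 / 100) :
    (Fintype.card I : ℝ)⁻¹ * ∑ i, Real.exp (inner ℝ (a i) (θ • y0)) * ‖a i - θ • y0‖ ^ 2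
      ≤ 2 * n * Lam a (θ • y0) := by
  have key : ∀ c : Fin n, (Fintype.card I : ℝ)⁻¹ *
      ∑ i, Real.exp (inner ℝ (a i) (θ • y0)) * (a i c - θ * y0 c) ^ 2
      ≤ 2 * Lam a (θ • y0) := by
    intro c
    set e : EuclideanSpace ℝ (Fin n) := EuclideanSpace.single c (1 : ℝ) with he
    have hin : ∀ x : EuclideanSpace ℝ (Fin n), inner ℝ x e = x c := by
      intro x
      rw [he, EuclideanSpace.inner_single_right]
      simp
    have hne : ‖e‖ = 1 := by rw [he]; simp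
    have hterm : ∀ i, Real.exp (inner ℝ (a i) (θ • y0)) * (a i c - θ * y0 c) ^ 2
        ≤ Real.exp (-(θ * y0 c)) * Real.exp (inner ℝ (a i) (θ • y0 + e))
          + Real.exp (θ * y0 c) * Real.exp (inner ℝ (a i) (θ • y0 - e))
          - 2 * Real.exp (inner ℝ (a i) (θ • y0)) := by
      intro i
      have h1 := cosh_sq_le (a i c - θ * y0 c)
      have h2 : Real.exp (-(θ * y0 c)) * Real.exp (inner ℝ (a i) (θ • y0 + e))
          = Real.exp (inner ℝ (a i) (θ • y0)) * Real.exp (a i c - θ * y0 c) := by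
        rw [← Real.exp_add, ← Real.exp_add, inner_add_right, hin]; congr 1; ring
      have h3 : Real.exp (θ * y0 c) * Real.exp (inner ℝ (a i) (θ • y0 - e))
          = Real.exp (inner ℝ (a i) (θ • y0)) * Real.exp (-(a i c - θ * y0 c)) := by
        rw [← Real.exp_add, ← Real.exp_add, inner_sub_right, hin]; congr 1; ring
      rw [h2, h3]
      have hp := Real.exp_pos (inner ℝ (a i) (θ • y0))
      nlinarith [mul_le_mul_of_nonneg_left h1 hp.le]
    have hsum := mul_le_mul_of_nonneg_left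
      (Finset.sum_le_sum (fun i (_ : i ∈ (univ : Finset I)) => hterm i)) (cardinv_nonneg I)
    refine hsum.trans ?_
    have e1 : (Fintype.card I : ℝ)⁻¹ * ∑ i, (Real.exp (-(θ * y0 c)) *
          Real.exp (inner ℝ (a i) (θ • y0 + e))
          + Real.exp (θ * y0 c) * Real.exp (inner ℝ (a i) (θ • y0 - e))
          - 2 * Real.exp (inner ℝ (a i) (θ • y0)))
        = Real.exp (-(θ * y0 c)) * Lam a (θ • y0 + e)
          + Real.exp (θ * y0 c) * Lam a (θ • y0 - e) - 2 * Lam a (θ • y0) := by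
      simp only [Lam, Finset.sum_sub_distrib, Finset.sum_add_distrib, ← Finset.mul_sum]
      ring
    rw [e1]
    have hy : inner ℝ (θ • y0) e = θ * y0 c := by rw [hin]; simp
    have n1 : ‖θ • y0 + e‖ ^ 2 = ‖θ • y0‖ ^ 2 + 2 * (θ * y0 c) + 1 := by
      rw [norm_add_sq_real, hy, hne]; ring
    have n2 : ‖θ • y0 - e‖ ^ 2 = ‖θ • y0‖ ^ 2 - 2 * (θ * y0 c) + 1 := by
      rw [norm_sub_sq_real, hy, hne]; ring
    have u1 : Real.exp (-(θ * y0 c)) * Lam a (θ • y0 + e)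
        ≤ Real.exp (‖θ • y0‖ ^ 2 / 2 + 1 / 2) := by
      refine (mul_le_mul_of_nonneg_left (hup _) (Real.exp_pos _).le).trans ?_
      rw [← Real.exp_add, n1]
      apply Real.exp_le_exp.2; linarith
    have u2 : Real.exp (θ * y0 c) * Lam a (θ • y0 - e)
        ≤ Real.exp (‖θ • y0‖ ^ 2 / 2 + 1 / 2) := by
      refine (mul_le_mul_of_nonneg_left (hup _) (Real.exp_pos _).le).trans ?_
      rw [← Real.exp_add, n2]
      apply Real.exp_le_exp.2; linarith
    have u3 : Real.exp (‖θ • y0‖ ^ 2 / 2 + 1 / 2) ≤ 2 * Lam a (θ • y0) := by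
      have h5 : Real.exp (‖θ • y0‖ ^ 2 / 2 + 1 / 2)
          = Real.exp (1 / 2 + err) * Real.exp (‖θ • y0‖ ^ 2 / 2 - err) := by
        rw [← Real.exp_add]; congr 1; ring
      rw [h5]
      have h6 : Real.exp (1 / 2 + err) ≤ 2 := by
        have : Real.exp (1 / 2 + err) ≤ Real.exp (Real.log 2) := by
          apply Real.exp_le_exp.2
          have := Real.log_two_gt_d9
          linarith
        rwa [Real.exp_log (by norm_num)] at this
      exact mul_le_mul h6 hlow (Real.exp_pos _).le (by norm_num)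
    linarith
  have hnorm : ∀ i, ‖a i - θ • y0‖ ^ 2 = ∑ c : Fin n, (a i c - θ * y0 c) ^ 2 := by
    intro i
    rw [EuclideanSpace.norm_sq_eq]
    apply Finset.sum_congr rfl
    intro c _
    rw [Real.norm_eq_abs, sq_abs]
    simp
  have e2 : (Fintype.card I : ℝ)⁻¹ *
      ∑ i, Real.exp (inner ℝ (a i) (θ • y0)) * ‖a i - θ • y0‖ ^ 2
      = ∑ c : Fin n, (Fintype.card I : ℝ)⁻¹ *
      ∑ i, Real.exp (inner ℝ (a i) (θ • y0)) * (a i c - θ * y0 c) ^ 2 := by
    rw [← Finset.mul_sum]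
    congr 1
    rw [Finset.sum_comm]
    apply Finset.sum_congr rfl
    intro i _
    rw [hnorm, Finset.mul_sum]
  rw [e2]
  refine (Finset.sum_le_sum (fun c _ => key c)).trans ?_
  rw [Finset.sum_const, Finset.card_univ, Fintype.card_fin, nsmul_eq_mul]
  linarith

/-- Chebyshev form of `tilt_second`. -/
theorem tm_far [Nonempty I] (a : I → EuclideanSpace ℝ (Fin n)) (θ err : ℝ)
    (y0 : EuclideanSpace ℝ (Fin n)) (hn : 0 < n)
    (hup : ∀ v, Lam a v ≤ Real.exp (‖v‖ ^ 2 / 2))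
    (hlow : Real.exp (‖θ • y0‖ ^ 2 / 2 - err) ≤ Lam a (θ • y0)) (herr : err ≤ 1 / 100) :
    tm a (θ • y0) (fun i => 32 * (n : ℝ) < ‖a i - θ • y0‖ ^ 2) ≤ (1 / 16) * Lam a (θ • y0) := by
  classical
  have h := tilt_second a θ err y0 hup hlow herr
  have hn' : (0 : ℝ) < n := by exact_mod_cast hn
  have h1 : (32 * (n : ℝ)) * tm a (θ • y0) (fun i => 32 * (n : ℝ) < ‖a i - θ • y0‖ ^ 2)
      ≤ (Fintype.card I : ℝ)⁻¹ *
        ∑ i, Real.exp (inner ℝ (a i) (θ • y0)) * ‖a i - θ • y0‖ ^ 2 := by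
    rw [tm_def]
    have h2 : ∑ i ∈ univ.filter (fun i => 32 * (n : ℝ) < ‖a i - θ • y0‖ ^ 2),
        (32 * (n : ℝ)) * Real.exp (inner ℝ (a i) (θ • y0))
        ≤ ∑ i, Real.exp (inner ℝ (a i) (θ • y0)) * ‖a i - θ • y0‖ ^ 2 := by
      refine (Finset.sum_le_sum (fun i hi => ?_)).trans
        (Finset.sum_le_sum_of_subset_of_nonneg (Finset.filter_subset _ _)
          (fun i _ _ => by positivity))
      have := (Finset.mem_filter.1 hi).2
      have hp := Real.exp_pos (inner ℝ (a i) (θ • y0))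
      nlinarith
    rw [← Finset.mul_sum] at h2
    have h3 := mul_le_mul_of_nonneg_left h2 (cardinv_nonneg I)
    calc _ = (Fintype.card I : ℝ)⁻¹ * ((32 * (n : ℝ)) *
        ∑ i ∈ univ.filter (fun i => 32 * (n : ℝ) < ‖a i - θ • y0‖ ^ 2),
          Real.exp (inner ℝ (a i) (θ • y0))) := by ring
      _ ≤ _ := h3
  have h4 := h1.trans h
  have h5 : (32 * (n : ℝ)) * tm a (θ • y0) (fun i => 32 * (n : ℝ) < ‖a i - θ • y0‖ ^ 2)
      ≤ (32 * (n : ℝ)) * ((1 / 16) * Lam a (θ • y0)) := by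
    refine h4.trans (le_of_eq (by ring))
  exact le_of_mul_le_mul_left h5 (by positivity)

theorem telescope_Ico (f : ℕ → ℝ) {p q : ℕ} (h : p ≤ q) :
    ∑ j ∈ Finset.Ico p q, (f (j + 1) - f j) = f q - f p := by
  induction q, h using Nat.le_induction with
  | base => simp
  | succ q hq ih => rw [Finset.sum_Ico_succ_top hq, ih]; ring

/-- The window of admissible levels `j` for one direction. -/
theorem window_sum {θ δ ℓ m : ℝ} {N : ℕ} (hθ : 0 < θ) (hδ : 0 < δ) (hℓ : 0 ≤ ℓ)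
    (hm : m ≤ N * δ) (hlm : ℓ + δ ≤ m) :
    Real.exp (θ * m) - Real.exp (θ * (ℓ + δ)) ≤
      ∑ j ∈ (Finset.range N).filter (fun j : ℕ => ℓ ≤ j * δ ∧ (j : ℝ) * δ < m),
        (Real.exp (θ * ((j + 1 : ℕ) * δ)) - Real.exp (θ * (j * δ))) := by
  have hset : (Finset.range N).filter (fun j : ℕ => ℓ ≤ j * δ ∧ (j : ℝ) * δ < m)
      = Finset.Ico ⌈ℓ / δ⌉₊ ⌈m / δ⌉₊ := by
    ext j
    simp only [Finset.mem_filter, Finset.mem_range, Finset.mem_Ico, Nat.ceil_le, Nat.lt_ceil]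
    rw [div_le_iff₀ hδ, lt_div_iff₀ hδ]
    constructor
    · rintro ⟨_, h1, h2⟩
      exact ⟨h1, h2⟩
    · rintro ⟨h1, h2⟩
      refine ⟨?_, h1, h2⟩
      have : (j : ℝ) * δ < N * δ := lt_of_lt_of_le h2 hm
      have h3 : (j : ℝ) < N := lt_of_mul_lt_mul_right this hδ.le
      exact_mod_cast h3
  rw [hset]
  have hpq : ⌈ℓ / δ⌉₊ ≤ ⌈m / δ⌉₊ := by
    apply Nat.ceil_mono
    apply div_le_div_of_nonneg_right _ hδ.le
    linarith
  rw [telescope_Ico (fun j : ℕ => Real.exp (θ * (j * δ))) hpq]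
  have h1 : Real.exp (θ * m) ≤ Real.exp (θ * (⌈m / δ⌉₊ * δ)) := by
    apply Real.exp_le_exp.2
    apply mul_le_mul_of_nonneg_left _ hθ.le
    rw [← div_le_iff₀ hδ]
    exact Nat.le_ceil _
  have h2 : Real.exp (θ * (⌈ℓ / δ⌉₊ * δ)) ≤ Real.exp (θ * (ℓ + δ)) := by
    apply Real.exp_le_exp.2
    apply mul_le_mul_of_nonneg_left _ hθ.le
    have h3 : (⌈ℓ / δ⌉₊ : ℝ) < ℓ / δ + 1 := Nat.ceil_lt_add_one (by positivity)
    have h4 : (⌈ℓ / δ⌉₊ : ℝ) * δ ≤ (ℓ / δ + 1) * δ :=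
      mul_le_mul_of_nonneg_right h3.le hδ.le
    have h5 : (ℓ / δ + 1) * δ = ℓ + δ := by field_simp
    linarith
  linarith

theorem tm_ite (a : I → EuclideanSpace ℝ (Fin n)) (v : EuclideanSpace ℝ (Fin n))
    (P : I → Prop) [DecidablePred P] :
    tm a v P = (Fintype.card I : ℝ)⁻¹ * ∑ i, (if P i then Real.exp (inner ℝ (a i) v) else 0) := by
  rw [tm_def, Finset.sum_filter]

/-- Most of the tilted mass is good. -/
theorem tm_good [Nonempty I] (a : I → EuclideanSpace ℝ (Fin n)) (θ err u : ℝ)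
    (y0 : EuclideanSpace ℝ (Fin n)) (J : Finset (EuclideanSpace ℝ (Fin n))) (hn : 0 < n)
    (hup : ∀ v, Lam a v ≤ Real.exp (‖v‖ ^ 2 / 2))
    (hlow : Real.exp (‖θ • y0‖ ^ 2 / 2 - err) ≤ Lam a (θ • y0)) (herr : err ≤ 1 / 100)
    (hy0 : ‖y0‖ ≤ 1)
    (hu : ∑ y ∈ J, Real.exp (-u + θ ^ 2 * (‖(2 : ℝ) • y0 - y‖ ^ 2 - ‖y0‖ ^ 2) / 2 + err)
      ≤ 1 / 4) :
    (5 / 8) * Lam a (θ • y0) ≤ tm a (θ • y0) (fun i => ‖a i - θ • y0‖ ^ 2 ≤ 32 * (n : ℝ) ∧
      θ * ‖y0‖ ^ 2 - 5 < inner ℝ (a i) y0 ∧ ∀ y ∈ J, -u ≤ θ * inner ℝ (a i) (y - y0)) := by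
  classical
  set L := Lam a (θ • y0) with hL
  have hLpos : 0 < L := lt_of_lt_of_le (Real.exp_pos _) hlow
  have hnθ : ‖θ • y0‖ ^ 2 = θ ^ 2 * ‖y0‖ ^ 2 := by
    rw [norm_smul, mul_pow, Real.norm_eq_abs, sq_abs]
  have hB1 := tm_far a θ err y0 hn hup hlow herr
  have hB2 : tm a (θ • y0) (fun i => inner ℝ (a i) y0 ≤ θ * ‖y0‖ ^ 2 - 5) ≤ (1 / 16) * L := by
    refine (tm_low a θ 5 y0).trans ?_
    refine (mul_le_mul_of_nonneg_left (hup _) (Real.exp_pos _).le).trans ?_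
    rw [← Real.exp_add]
    have h1 : ‖(θ - 1) • y0‖ ^ 2 = (θ - 1) ^ 2 * ‖y0‖ ^ 2 := by
      rw [norm_smul, mul_pow, Real.norm_eq_abs, sq_abs]
    rw [h1]
    have h2 : θ * ‖y0‖ ^ 2 - 5 + (θ - 1) ^ 2 * ‖y0‖ ^ 2 / 2
        = (‖y0‖ ^ 2 / 2 - 5 + err) + (‖θ • y0‖ ^ 2 / 2 - err) := by
      rw [hnθ]; ring
    rw [h2, Real.exp_add]
    have h3 : Real.exp (‖y0‖ ^ 2 / 2 - 5 + err) ≤ 1 / 16 := by
      have h4 : ‖y0‖ ^ 2 ≤ 1 := by
        have := norm_nonneg y0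
        nlinarith
      have h5 : Real.exp (‖y0‖ ^ 2 / 2 - 5 + err) ≤ Real.exp (-(4 * Real.log 2)) := by
        apply Real.exp_le_exp.2
        have := Real.log_two_lt_d9
        linarith
      refine h5.trans (le_of_eq ?_)
      rw [Real.exp_neg, show 4 * Real.log 2 = Real.log (2 ^ 4) by
        rw [Real.log_pow]; norm_num, Real.exp_log (by norm_num)]
      norm_num
    exact mul_le_mul h3 hlow (Real.exp_pos _).le (by norm_num)
  have hB3 : ∀ y, tm a (θ • y0) (fun i => θ * inner ℝ (a i) (y - y0) < -u)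
      ≤ Real.exp (-u + θ ^ 2 * (‖(2 : ℝ) • y0 - y‖ ^ 2 - ‖y0‖ ^ 2) / 2 + err) * L := by
    intro y
    refine (tm_disp a θ u y0 y).trans ?_
    refine (mul_le_mul_of_nonneg_left (hup _) (Real.exp_pos _).le).trans ?_
    rw [← Real.exp_add]
    have h1 : ‖θ • ((2 : ℝ) • y0 - y)‖ ^ 2 = θ ^ 2 * ‖(2 : ℝ) • y0 - y‖ ^ 2 := by
      rw [norm_smul, mul_pow, Real.norm_eq_abs, sq_abs]
    rw [h1]
    have h2 : -u + θ ^ 2 * ‖(2 : ℝ) • y0 - y‖ ^ 2 / 2
        = (-u + θ ^ 2 * (‖(2 : ℝ) • y0 - y‖ ^ 2 - ‖y0‖ ^ 2) / 2 + err)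
          + (‖θ • y0‖ ^ 2 / 2 - err) := by
      rw [hnθ]; ring
    rw [h2, Real.exp_add]
    exact mul_le_mul_of_nonneg_left hlow (Real.exp_pos _).le
  have hB3s : ∑ y ∈ J, tm a (θ • y0) (fun i => θ * inner ℝ (a i) (y - y0) < -u)
      ≤ (1 / 4) * L := by
    refine (Finset.sum_le_sum (fun y _ => hB3 y)).trans ?_
    rw [← Finset.sum_mul]
    exact mul_le_mul_of_nonneg_right hu hLpos.le
  have hpt : L ≤ tm a (θ • y0) (fun i => ‖a i - θ • y0‖ ^ 2 ≤ 32 * (n : ℝ) ∧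
      θ * ‖y0‖ ^ 2 - 5 < inner ℝ (a i) y0 ∧ ∀ y ∈ J, -u ≤ θ * inner ℝ (a i) (y - y0))
      + tm a (θ • y0) (fun i => 32 * (n : ℝ) < ‖a i - θ • y0‖ ^ 2)
      + tm a (θ • y0) (fun i => inner ℝ (a i) y0 ≤ θ * ‖y0‖ ^ 2 - 5)
      + ∑ y ∈ J, tm a (θ • y0) (fun i => θ * inner ℝ (a i) (y - y0) < -u) := by
    simp only [tm_ite]
    rw [← Finset.mul_sum, Finset.sum_comm, ← mul_add, ← mul_add, ← mul_add,
      ← Finset.sum_add_distrib, ← Finset.sum_add_distrib, ← Finset.sum_add_distrib, hL, Lam]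
    apply mul_le_mul_of_nonneg_left _ (cardinv_nonneg I)
    apply Finset.sum_le_sum
    intro i _
    have hp := Real.exp_pos (inner ℝ (a i) (θ • y0))
    have hs : 0 ≤ ∑ y ∈ J, (if θ * inner ℝ (a i) (y - y0) < -u then
        Real.exp (inner ℝ (a i) (θ • y0)) else 0) :=
      Finset.sum_nonneg (fun y _ => by split_ifs <;> positivity)
    by_cases c1 : ‖a i - θ • y0‖ ^ 2 ≤ 32 * (n : ℝ)
    · by_cases c2 : θ * ‖y0‖ ^ 2 - 5 < inner ℝ (a i) y0
      · by_cases c3 : ∀ y ∈ J, -u ≤ θ * inner ℝ (a i) (y - y0)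
        · rw [if_pos ⟨c1, c2, c3⟩]
          have q1 : 0 ≤ (if 32 * (n : ℝ) < ‖a i - θ • y0‖ ^ 2 then
            Real.exp (inner ℝ (a i) (θ • y0)) else 0) := by split_ifs <;> positivity
          have q2 : 0 ≤ (if inner ℝ (a i) y0 ≤ θ * ‖y0‖ ^ 2 - 5 then
            Real.exp (inner ℝ (a i) (θ • y0)) else 0) := by split_ifs <;> positivity
          linarith
        · push Not at c3
          obtain ⟨y, hy, hy2⟩ := c3
          have q3 : Real.exp (inner ℝ (a i) (θ • y0)) ≤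
              ∑ y ∈ J, (if θ * inner ℝ (a i) (y - y0) < -u then
                Real.exp (inner ℝ (a i) (θ • y0)) else 0) := by
            have := Finset.single_le_sum (s := J) (f := fun y =>
              (if θ * inner ℝ (a i) (y - y0) < -u then
                Real.exp (inner ℝ (a i) (θ • y0)) else 0))
              (fun y _ => by positivity) hy
            simp only [if_pos hy2] at this
            exact this
          have q0 : 0 ≤ (if ‖a i - θ • y0‖ ^ 2 ≤ 32 * (n : ℝ) ∧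
            θ * ‖y0‖ ^ 2 - 5 < inner ℝ (a i) y0 ∧ ∀ y ∈ J, -u ≤ θ * inner ℝ (a i) (y - y0) then
            Real.exp (inner ℝ (a i) (θ • y0)) else 0) := by split_ifs <;> positivity
          have q1 : 0 ≤ (if 32 * (n : ℝ) < ‖a i - θ • y0‖ ^ 2 then
            Real.exp (inner ℝ (a i) (θ • y0)) else 0) := by split_ifs <;> positivity
          have q2 : 0 ≤ (if inner ℝ (a i) y0 ≤ θ * ‖y0‖ ^ 2 - 5 then
            Real.exp (inner ℝ (a i) (θ • y0)) else 0) := by split_ifs <;> positivity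
          linarith
      · have q2 : (if inner ℝ (a i) y0 ≤ θ * ‖y0‖ ^ 2 - 5 then
            Real.exp (inner ℝ (a i) (θ • y0)) else 0) = Real.exp (inner ℝ (a i) (θ • y0)) :=
          if_pos (not_lt.1 c2)
        have q0 : 0 ≤ (if ‖a i - θ • y0‖ ^ 2 ≤ 32 * (n : ℝ) ∧
            θ * ‖y0‖ ^ 2 - 5 < inner ℝ (a i) y0 ∧ ∀ y ∈ J, -u ≤ θ * inner ℝ (a i) (y - y0) then
            Real.exp (inner ℝ (a i) (θ • y0)) else 0) := by split_ifs <;> positivity
        have q1 : 0 ≤ (if 32 * (n : ℝ) < ‖a i - θ • y0‖ ^ 2 then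
            Real.exp (inner ℝ (a i) (θ • y0)) else 0) := by split_ifs <;> positivity
        linarith
    · have q1 : (if 32 * (n : ℝ) < ‖a i - θ • y0‖ ^ 2 then
            Real.exp (inner ℝ (a i) (θ • y0)) else 0) = Real.exp (inner ℝ (a i) (θ • y0)) :=
        if_pos (not_le.1 c1)
      have q0 : 0 ≤ (if ‖a i - θ • y0‖ ^ 2 ≤ 32 * (n : ℝ) ∧
            θ * ‖y0‖ ^ 2 - 5 < inner ℝ (a i) y0 ∧ ∀ y ∈ J, -u ≤ θ * inner ℝ (a i) (y - y0) then
            Real.exp (inner ℝ (a i) (θ • y0)) else 0) := by split_ifs <;> positivity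
      have q2 : 0 ≤ (if inner ℝ (a i) y0 ≤ θ * ‖y0‖ ^ 2 - 5 then
            Real.exp (inner ℝ (a i) (θ • y0)) else 0) := by split_ifs <;> positivity
      linarith
  linarith

end Cov
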