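import Vale.Agent.Cov.ModB
import Vale.Agent.Cov.Tilt

/-! # P230: the lower bounds (I3) and (I4) for an abstract sign model -/

namespace Cov

open Finset
open scoped RealInnerProductSpace

/-- The tilted lower bound, common form of (I3) and (I4). -/
theorem core_lower {n : ℕ} {I : Type} [Fintype I] [Nonempty I] (a : I → E n)
    {θ δ η err u : ℝ} (y0 : E n) (J : Finset (E n)) (N : ℕ)
    (hn : 0 < n) (hθ : 0 < θ) (hδ : 0 < δ) (hη : η ≤ 1)
    (hup : ∀ v, Lam a v ≤ Real.exp (‖v‖ ^ 2 / 2))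
    (hlow : Real.exp (‖θ • y0‖ ^ 2 / 2 - err) ≤ Lam a (θ • y0)) (herr : err ≤ 1 / 100)
    (hy0 : ‖y0‖ ≤ 1) (hJ : y0 ∈ J) (hN : ∀ i, ‖a i‖ ≤ N * δ)
    (hu : ∑ y ∈ J, Real.exp (-u + θ ^ 2 * (‖(2 : ℝ) • y0 - y‖ ^ 2 - ‖y0‖ ^ 2) / 2 + err)
      ≤ 1 / 4)
    (H : (1 - η) * (θ + Real.sqrt (32 * n)) + δ + (u + 1) / θ + 5 ≤ θ * ‖y0‖ ^ 2) :
    (1 / 3) * Real.exp (-u) * Real.exp (-(θ ^ 2 * (1 - ‖y0‖ ^ 2) / 2)) ≤
      ∑ i, ∑ j ∈ (range N).filter
        (fun j : ℕ => (1 - η) * ‖a i‖ ≤ j * δ ∧ ∀ y ∈ J, (j : ℝ) * δ < ⟪a i, y⟫),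
        pw (I := I) θ δ j := by
  classical
  have hgood := tm_good a θ err u y0 J hn hup hlow herr hy0 hu
  rw [tm_ite] at hgood
  have hmono : ∀ j : ℕ, 0 ≤ Real.exp (θ * ((j + 1 : ℕ) * δ)) - Real.exp (θ * (j * δ)) := by
    intro j
    rw [sub_nonneg]
    apply Real.exp_le_exp.mpr
    push_cast
    nlinarith [mul_nonneg hθ.le hδ.le]
  have hpt : ∀ i, (3 / 5) * Real.exp (-u) *
      (if ‖a i - θ • y0‖ ^ 2 ≤ 32 * (n : ℝ) ∧
        θ * ‖y0‖ ^ 2 - 5 < inner ℝ (a i) y0 ∧ ∀ y ∈ J, -u ≤ θ * inner ℝ (a i) (y - y0) then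
        Real.exp (inner ℝ (a i) (θ • y0)) else 0) ≤
      ∑ j ∈ (range N).filter
        (fun j : ℕ => (1 - η) * ‖a i‖ ≤ j * δ ∧ ∀ y ∈ J, (j : ℝ) * δ < ⟪a i, y⟫),
        (Real.exp (θ * ((j + 1 : ℕ) * δ)) - Real.exp (θ * (j * δ))) := by
    intro i
    split_ifs with hg
    · obtain ⟨g1, g2, g3⟩ := hg
      have hJne : J.Nonempty := ⟨y0, hJ⟩
      set m := J.inf' hJne (fun y => ⟪a i, y⟫) with hm
      have hm1 : m ≤ ⟪a i, y0⟫ := Finset.inf'_le _ hJ
      have hm2 : ⟪a i, y0⟫ - u / θ ≤ m := by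
        rw [hm]
        apply Finset.le_inf'
        intro y hy
        have h1 := g3 y hy
        rw [inner_sub_right] at h1
        have h2 : -(u / θ) ≤ ⟪a i, y⟫ - ⟪a i, y0⟫ := by
          rw [neg_le, ← neg_le_neg_iff, neg_neg]
          have : -u / θ ≤ ⟪a i, y⟫ - ⟪a i, y0⟫ := by
            rw [div_le_iff₀ hθ]; linarith
          rw [neg_div] at this
          exact this
        linarith
      have hnorm : ‖a i‖ ≤ θ + Real.sqrt (32 * n) := by
        have h1 : ‖a i - θ • y0‖ ≤ Real.sqrt (32 * n) := Real.le_sqrt_of_sq_le g1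
        have h2 : ‖a i‖ ≤ ‖a i - θ • y0‖ + ‖θ • y0‖ := by
          calc ‖a i‖ = ‖(a i - θ • y0) + θ • y0‖ := by rw [sub_add_cancel]
            _ ≤ _ := norm_add_le _ _
        have h3 : ‖θ • y0‖ ≤ θ := by
          rw [norm_smul, Real.norm_eq_abs, abs_of_pos hθ]
          nlinarith
        linarith
      have hl : (1 - η) * ‖a i‖ ≤ (1 - η) * (θ + Real.sqrt (32 * n)) :=
        mul_le_mul_of_nonneg_left hnorm (by linarith)
      have hdiv : (u + 1) / θ = u / θ + 1 / θ := by rw [add_div]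
      have hθ1 : 0 < 1 / θ := by positivity
      have hlm : (1 - η) * ‖a i‖ + δ ≤ m - 1 / θ := by linarith
      have hmN : m ≤ N * δ := by
        refine hm1.trans ((real_inner_le_norm _ _).trans ?_)
        have := hN i
        have h0 := norm_nonneg (a i)
        nlinarith
      have hw := window_sum (N := N) hθ hδ
        (mul_nonneg (by linarith : (0 : ℝ) ≤ 1 - η) (norm_nonneg (a i))) hmN
        (by linarith : (1 - η) * ‖a i‖ + δ ≤ m)
      have hset : (range N).filter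
          (fun j : ℕ => (1 - η) * ‖a i‖ ≤ j * δ ∧ ∀ y ∈ J, (j : ℝ) * δ < ⟪a i, y⟫)
          = (range N).filter
          (fun j : ℕ => (1 - η) * ‖a i‖ ≤ j * δ ∧ (j : ℝ) * δ < m) := by
        apply Finset.filter_congr
        intro j _
        rw [hm, Finset.lt_inf'_iff]
      rw [hset]
      refine le_trans ?_ hw
      have h1 : Real.exp (θ * ((1 - η) * ‖a i‖ + δ)) ≤ Real.exp (-1) * Real.exp (θ * m) := by
        rw [← Real.exp_add]
        apply Real.exp_le_exp.mpr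
        have := mul_le_mul_of_nonneg_left hlm hθ.le
        have h2 : θ * (m - 1 / θ) = θ * m - 1 := by field_simp
        linarith
      have h3 : Real.exp (-u) * Real.exp (inner ℝ (a i) (θ • y0)) ≤ Real.exp (θ * m) := by
        rw [← Real.exp_add]
        apply Real.exp_le_exp.mpr
        rw [real_inner_smul_right]
        have := mul_le_mul_of_nonneg_left hm2 hθ.le
        have h2 : θ * (⟪a i, y0⟫ - u / θ) = θ * ⟪a i, y0⟫ - u := by field_simp
        linarith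
      have h4 : Real.exp (-1) ≤ 2 / 5 := by
        have := Real.exp_neg_one_lt_d9
        linarith
      have h5 := Real.exp_pos (θ * m)
      calc (3 / 5) * Real.exp (-u) * Real.exp (inner ℝ (a i) (θ • y0))
          = (3 / 5) * (Real.exp (-u) * Real.exp (inner ℝ (a i) (θ • y0))) := by ring
        _ ≤ (3 / 5) * Real.exp (θ * m) := by linarith
        _ ≤ _ := by nlinarith
    · rw [mul_zero]
      exact Finset.sum_nonneg (fun j _ => hmono j)
  have hsum := Finset.sum_le_sum (fun i (_ : i ∈ (univ : Finset I)) => hpt i)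
  rw [← Finset.mul_sum] at hsum
  have hcc : (0 : ℝ) ≤ (Fintype.card I : ℝ)⁻¹ * Real.exp (-(θ ^ 2 / 2)) := by positivity
  have h1 := mul_le_mul_of_nonneg_left hsum hcc
  have e1 : ∑ i, ∑ j ∈ (range N).filter
        (fun j : ℕ => (1 - η) * ‖a i‖ ≤ j * δ ∧ ∀ y ∈ J, (j : ℝ) * δ < ⟪a i, y⟫),
        pw (I := I) θ δ j
      = (Fintype.card I : ℝ)⁻¹ * Real.exp (-(θ ^ 2 / 2)) *
        ∑ i, ∑ j ∈ (range N).filter
        (fun j : ℕ => (1 - η) * ‖a i‖ ≤ j * δ ∧ ∀ y ∈ J, (j : ℝ) * δ < ⟪a i, y⟫),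
        (Real.exp (θ * ((j + 1 : ℕ) * δ)) - Real.exp (θ * (j * δ))) := by
    unfold pw
    simp only [← Finset.mul_sum]
  rw [e1]
  refine le_trans ?_ h1
  have hnθ : ‖θ • y0‖ ^ 2 = θ ^ 2 * ‖y0‖ ^ 2 := by
    rw [norm_smul, mul_pow, Real.norm_eq_abs, sq_abs]
  have h2 : Real.exp (-(1 / 100 : ℝ)) * Real.exp (θ ^ 2 * ‖y0‖ ^ 2 / 2) ≤ Lam a (θ • y0) := by
    refine le_trans ?_ hlow
    rw [← Real.exp_add, hnθ]
    apply Real.exp_le_exp.mpr
    linarith
  have h3 : (24 / 25 : ℝ) ≤ Real.exp (-(1 / 100 : ℝ)) := by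
    have := Real.add_one_le_exp (-(1 / 100 : ℝ))
    linarith
  have h4 : Real.exp (-(θ ^ 2 * (1 - ‖y0‖ ^ 2) / 2))
      = Real.exp (-(θ ^ 2 / 2)) * Real.exp (θ ^ 2 * ‖y0‖ ^ 2 / 2) := by
    rw [← Real.exp_add]; congr 1; ring
  rw [h4]
  have p1 := Real.exp_pos (-u)
  have p2 := Real.exp_pos (-(θ ^ 2 / 2))
  have p3 := Real.exp_pos (θ ^ 2 * ‖y0‖ ^ 2 / 2)
  have h5 : (24 / 25 : ℝ) * Real.exp (θ ^ 2 * ‖y0‖ ^ 2 / 2) ≤ Lam a (θ • y0) := by
    refine le_trans ?_ h2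
    exact mul_le_mul_of_nonneg_right h3 p3.le
  have h6 : (5 / 8) * ((24 / 25 : ℝ) * Real.exp (θ ^ 2 * ‖y0‖ ^ 2 / 2)) ≤
      (Fintype.card I : ℝ)⁻¹ * ∑ i, (if ‖a i - θ • y0‖ ^ 2 ≤ 32 * (n : ℝ) ∧
        θ * ‖y0‖ ^ 2 - 5 < inner ℝ (a i) y0 ∧ ∀ y ∈ J, -u ≤ θ * inner ℝ (a i) (y - y0) then
        Real.exp (inner ℝ (a i) (θ • y0)) else 0) := by
    refine le_trans ?_ hgood
    exact mul_le_mul_of_nonneg_left h5 (by norm_num)
  have h7 := mul_le_mul_of_nonneg_left h6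
    (by positivity : (0 : ℝ) ≤ (3 / 5) * Real.exp (-u) * Real.exp (-(θ ^ 2 / 2)))
  calc (1 / 3) * Real.exp (-u) *
        (Real.exp (-(θ ^ 2 / 2)) * Real.exp (θ ^ 2 * ‖y0‖ ^ 2 / 2))
      ≤ (3 / 5) * Real.exp (-u) * Real.exp (-(θ ^ 2 / 2)) *
        ((5 / 8) * ((24 / 25 : ℝ) * Real.exp (θ ^ 2 * ‖y0‖ ^ 2 / 2))) := by
        have : 0 ≤ Real.exp (-u) * Real.exp (-(θ ^ 2 / 2)) * Real.exp (θ ^ 2 * ‖y0‖ ^ 2 / 2) := by
          positivity
        nlinarith
    _ ≤ _ := h7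
    _ = _ := by ring

theorem log_small (C : ℝ) : ∃ n0 : ℕ, 9 ≤ n0 ∧ ∀ n : ℕ, n0 ≤ n →
    C * Real.log n ≤ Real.sqrt n := by
  have h := isLittleO_log_rpow_atTop (show (0 : ℝ) < 1 / 2 by norm_num)
  have hC : (0 : ℝ) < 1 / (|C| + 1) := by positivity
  have h1 := h.bound hC
  have h2 := (tendsto_natCast_atTop_atTop (R := ℝ)).eventually h1
  obtain ⟨n1, hn1⟩ := Filter.eventually_atTop.1 h2
  refine ⟨max n1 9, le_max_right _ _, fun n hn => ?_⟩
  have h3 := hn1 n ((le_max_left _ _).trans hn)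
  have hlog : 0 ≤ Real.log n := Real.log_natCast_nonneg n
  have hs : 0 ≤ (n : ℝ) ^ (1 / 2 : ℝ) := by positivity
  rw [Real.norm_eq_abs, Real.norm_eq_abs, abs_of_nonneg hlog, abs_of_nonneg hs] at h3
  rw [Real.sqrt_eq_rpow]
  have h4 : (|C| + 1) * Real.log n ≤ (n : ℝ) ^ (1 / 2 : ℝ) := by
    have := mul_le_mul_of_nonneg_left h3 (by positivity : (0 : ℝ) ≤ |C| + 1)
    rwa [← mul_assoc, mul_one_div_cancel (by positivity), one_mul] at this
  have h5 : C * Real.log n ≤ (|C| + 1) * Real.log n :=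
    mul_le_mul_of_nonneg_right (by linarith [le_abs_self C]) hlog
  linarith

/-- The numerical condition of `core_lower`. -/
theorem H_num {κ η δ u q : ℝ} {n : ℕ} (hη0 : 0 < η) (hη1 : η ≤ 1) (hκ : 128 / η ^ 2 ≤ κ)
    (hn : 9 ≤ n) (hδ : δ ≤ 1) (hu : u ≤ Real.sqrt n)
    (hq : 1 - 8 * Real.log n / n ≤ q) (hk : 8 * Real.sqrt κ * Real.log n ≤ Real.sqrt n) :
    (1 - η) * (Real.sqrt (κ * n) + Real.sqrt (32 * n)) + δ + (u + 1) / Real.sqrt (κ * n) + 5
      ≤ Real.sqrt (κ * n) * q := by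
  have hn' : (9 : ℝ) ≤ n := by exact_mod_cast hn
  have hη2 : 0 < η ^ 2 := by positivity
  have hκη : 128 ≤ κ * η ^ 2 := by rwa [div_le_iff₀ hη2] at hκ
  have hκ1 : 128 ≤ κ := by
    have : η ^ 2 ≤ 1 := by nlinarith
    have hκ0 : 0 < κ := by
      by_contra hc
      push Not at hc
      nlinarith
    nlinarith
  have hκ0 : 0 < κ := by linarith
  set s := Real.sqrt n with hs
  have hs2 : s * s = n := Real.mul_self_sqrt (by linarith)
  have hs0 : 0 ≤ s := Real.sqrt_nonneg _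
  have hs3 : 3 ≤ s := by
    rw [hs]
    apply Real.le_sqrt_of_sq_le
    linarith
  set k := Real.sqrt κ with hkdef
  have hk2 : k * k = κ := Real.mul_self_sqrt hκ0.le
  have hk0 : 0 ≤ k := Real.sqrt_nonneg _
  have hθ : Real.sqrt (κ * n) = k * s := by rw [Real.sqrt_mul hκ0.le]
  rw [hθ]
  have hkη : 11 ≤ k * η := by
    by_contra hc
    push Not at hc
    have h1 : 0 ≤ k * η := by positivity
    have h2 : (k * η) * (k * η) = κ * η ^ 2 := by rw [← hk2]; ring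
    nlinarith
  have hk1 : 11 ≤ k := by nlinarith
  have h32 : Real.sqrt (32 * n) ≤ η / 2 * (k * s) := by
    apply Real.sqrt_le_iff.2
    refine ⟨by positivity, ?_⟩
    have : (η / 2 * (k * s)) ^ 2 = (κ * η ^ 2) * n / 4 := by
      rw [← hk2, ← hs2]; ring
    rw [this]
    nlinarith
  have hks : 0 < k * s := by positivity
  have hdiv : (u + 1) / (k * s) ≤ 2 := by
    rw [div_le_iff₀ hks]
    nlinarith
  have hlast : k * s - 1 ≤ k * s * q := by
    have h1 : k * s * (1 - 8 * Real.log n / n) ≤ k * s * q :=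
      mul_le_mul_of_nonneg_left hq hks.le
    have h2 : k * s * (8 * Real.log n / n) ≤ 1 := by
      rw [mul_div_assoc', div_le_one (by linarith)]
      have h3 := mul_le_mul_of_nonneg_left hk hs0
      nlinarith
    linarith
  have hmain : (1 - η) * (k * s + η / 2 * (k * s)) ≤ k * s - 16 := by
    have h1 : 33 ≤ k * η * s := by nlinarith
    have h2 : 0 ≤ k * s * η ^ 2 := by positivity
    nlinarith
  have hmono : (1 - η) * (k * s + Real.sqrt (32 * n)) ≤ (1 - η) * (k * s + η / 2 * (k * s)) :=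
    mul_le_mul_of_nonneg_left (by linarith) (by linarith)
  linarith

theorem norm_two_smul_sub {n : ℕ} (y0 y : E n) :
    ‖(2 : ℝ) • y0 - y‖ ^ 2 = 2 * ‖y0‖ ^ 2 + 2 * ‖y - y0‖ ^ 2 - ‖y‖ ^ 2 := by
  have h1 := parallelogram_law_with_norm ℝ y0 (y0 - y)
  have h2 : y0 + (y0 - y) = (2 : ℝ) • y0 - y := by rw [two_smul]; abel
  have h3 : y0 - (y0 - y) = y := by abel
  rw [h2, h3, norm_sub_rev y0 y] at h1
  nlinarith

/-- (I3) and (I4) for an abstract sign model. -/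
theorem t3 {κ η : ℝ} (hη0 : 0 < η) (hη1 : η ≤ 1) (hκ : 128 / η ^ 2 ≤ κ) :
    ∃ n0 : ℕ, ∀ n : ℕ, n0 ≤ n → ∀ {I : Type} [Fintype I] [Nonempty I] (a : I → E n)
      (δ : ℝ) (N : ℕ), 0 < δ → δ ≤ 1 →
      (∀ v : E n, (Fintype.card I : ℝ)⁻¹ * ∑ i, Real.exp ⟪a i, v⟫ ≤ Real.exp (‖v‖ ^ 2 / 2)) →
      (∀ v : E n, ‖v‖ ≤ Real.sqrt (κ * n) → Real.exp (‖v‖ ^ 2 / 2 - 1 / 100)
        ≤ (Fintype.card I : ℝ)⁻¹ * ∑ i, Real.exp ⟪a i, v⟫) →
      (∀ i, ‖a i‖ ≤ N * δ) →
      (∀ y : E n, ‖y‖ ≤ 1 → sg y ≤ 4 * Real.log n →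
        Real.exp (-2) / 3 * Real.exp (-(κ * sg y)) ≤
          ∑ i, ∑ j ∈ (range N).filter
            (fun j : ℕ => (1 - η) * ‖a i‖ ≤ j * δ ∧ (j : ℝ) * δ < ⟪a i, y⟫),
            pw (I := I) (Real.sqrt (κ * n)) δ j) ∧
      (∀ (y0 : E n) (J : Finset (E n)), y0 ∈ J → (J.card : ℝ) ≤ (n : ℝ) ^ 2 →
        (∀ y ∈ J, ‖y‖ ≤ 1 ∧ sg y ≤ 4 * Real.log n ∧ ‖y - y0‖ ^ 2 ≤ 40 * Real.log n / n) →
        (n : ℝ) ^ (-(48 * κ + 5)) ≤
          ∑ i, ∑ j ∈ (range N).filter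
            (fun j : ℕ => (1 - η) * ‖a i‖ ≤ j * δ ∧ ∀ y ∈ J, (j : ℝ) * δ < ⟪a i, y⟫),
            pw (I := I) (Real.sqrt (κ * n)) δ j) := by
  obtain ⟨n1, hn1, h1⟩ := log_small (8 * Real.sqrt κ)
  obtain ⟨n2, hn2, h2⟩ := log_small (44 * κ + 4)
  refine ⟨max n1 n2, ?_⟩
  intro n hn I _ _ a δ N hδ0 hδ1 hup hlow hN
  have hnn1 : n1 ≤ n := (le_max_left _ _).trans hn
  have hnn2 : n2 ≤ n := (le_max_right _ _).trans hn
  have hn9 : 9 ≤ n := hn1.trans hnn1
  have hn' : (9 : ℝ) ≤ n := by exact_mod_cast hn9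
  have hn0 : (0 : ℝ) < n := by linarith
  have hη2 : 0 < η ^ 2 := by positivity
  have hκ0 : 0 < κ := lt_of_lt_of_le (by positivity) hκ
  have hL0 : 0 ≤ Real.log n := Real.log_natCast_nonneg n
  set θ := Real.sqrt (κ * n) with hθdef
  have hθ2 : θ ^ 2 = κ * n := Real.sq_sqrt (by positivity)
  have hθ0 : 0 < θ := Real.sqrt_pos.2 (by positivity)
  have hs3 : 3 ≤ Real.sqrt n := by
    apply Real.le_sqrt_of_sq_le
    linarith
  have hup' : ∀ v, Lam a v ≤ Real.exp (‖v‖ ^ 2 / 2) := hup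
  have hlow' : ∀ y0 : E n, ‖y0‖ ≤ 1 →
      Real.exp (‖θ • y0‖ ^ 2 / 2 - 1 / 100) ≤ Lam a (θ • y0) := by
    intro y0 hy0
    apply hlow
    rw [norm_smul, Real.norm_eq_abs, abs_of_pos hθ0]
    nlinarith
  have hsg : ∀ y : E n, sg y ≤ 4 * Real.log n → 1 - 8 * Real.log n / n ≤ ‖y‖ ^ 2 := by
    intro y hy
    unfold sg at hy
    have h3 : (1 - ‖y‖ ^ 2) ≤ 8 * Real.log n / n := by
      rw [le_div_iff₀ hn0]
      linarith
    linarith
  have hsge : ∀ y : E n, θ ^ 2 * (1 - ‖y‖ ^ 2) / 2 = κ * sg y := by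
    intro y
    unfold sg
    rw [hθ2]
    ring
  constructor
  · intro y hy hs
    have hc := core_lower (θ := θ) (δ := δ) (η := η) (err := 1 / 100) (u := 2) a y {y} N
      (by omega) hθ0 hδ0 hη1 hup' (hlow' y hy) le_rfl hy (Finset.mem_singleton_self y) hN
      (by
        rw [Finset.sum_singleton]
        have h3 : (2 : ℝ) • y - y = y := by rw [two_smul]; abel
        rw [h3, sub_self, mul_zero, zero_div, add_zero]
        have h4 : Real.exp (-2 + 1 / 100) ≤ Real.exp (-(2 * Real.log 2)) := by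
          apply Real.exp_le_exp.2
          have := Real.log_two_lt_d9
          linarith
        refine h4.trans (le_of_eq ?_)
        rw [Real.exp_neg, show 2 * Real.log 2 = Real.log (2 ^ 2) by
          rw [Real.log_pow]; norm_num, Real.exp_log (by norm_num)]
        norm_num)
      (H_num hη0 hη1 hκ hn9 hδ1 (by linarith) (hsg y hs) (h1 n hnn1))
    rw [hsge] at hc
    have e1 : Real.exp (-2) / 3 * Real.exp (-(κ * sg y))
        = 1 / 3 * Real.exp (-2) * Real.exp (-(κ * sg y)) := by ring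
    rw [e1]
    refine hc.trans (le_of_eq ?_)
    apply Finset.sum_congr rfl
    intro i _
    apply Finset.sum_congr _ (fun _ _ => rfl)
    apply Finset.filter_congr
    intro j _
    simp
  · intro y0 J hJ hcard hall
    obtain ⟨hy0, hs0, -⟩ := hall y0 hJ
    have hc := core_lower (θ := θ) (δ := δ) (η := η) (err := 1 / 100)
      (u := (44 * κ + 4) * Real.log n) a y0 J N
      (by omega) hθ0 hδ0 hη1 hup' (hlow' y0 hy0) le_rfl hy0 hJ hN
      (by
        have hterm : ∀ y ∈ J, Real.exp (-((44 * κ + 4) * Real.log n)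
            + θ ^ 2 * (‖(2 : ℝ) • y0 - y‖ ^ 2 - ‖y0‖ ^ 2) / 2 + 1 / 100)
            ≤ Real.exp (-(4 * Real.log n) + 1 / 100) := by
          intro y hy
          obtain ⟨-, hsy, hyy⟩ := hall y hy
          apply Real.exp_le_exp.2
          rw [norm_two_smul_sub]
          have hq := hsg y hsy
          have hy0' : ‖y0‖ ^ 2 ≤ 1 := by
            have := norm_nonneg y0
            nlinarith
          have h5 : 2 * ‖y0‖ ^ 2 + 2 * ‖y - y0‖ ^ 2 - ‖y‖ ^ 2 - ‖y0‖ ^ 2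
              ≤ 88 * Real.log n / n := by
            have e : 88 * Real.log n / n
                = 8 * Real.log n / n + 2 * (40 * Real.log n / n) := by ring
            rw [e]
            linarith
          have h6 : θ ^ 2 * (2 * ‖y0‖ ^ 2 + 2 * ‖y - y0‖ ^ 2 - ‖y‖ ^ 2 - ‖y0‖ ^ 2)
              ≤ θ ^ 2 * (88 * Real.log n / n) :=
            mul_le_mul_of_nonneg_left h5 (by positivity)
          have h7 : θ ^ 2 * (88 * Real.log n / n) = 88 * κ * Real.log n := by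
            rw [hθ2]; field_simp
          linarith
        refine (Finset.sum_le_sum hterm).trans ?_
        rw [Finset.sum_const, nsmul_eq_mul]
        have h8 : Real.exp (-(4 * Real.log n) + 1 / 100)
            = ((n : ℝ) ^ 4)⁻¹ * Real.exp (1 / 100) := by
          rw [Real.exp_add, Real.exp_neg, show 4 * Real.log n = Real.log ((n : ℝ) ^ 4) by
            rw [Real.log_pow]; norm_num, Real.exp_log (by positivity)]
        rw [h8]
        have h9 : Real.exp (1 / 100) ≤ 2 := by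
          have h10 : Real.exp (1 / 100 : ℝ) ≤ Real.exp (Real.log 2) := by
            apply Real.exp_le_exp.2
            have := Real.log_two_gt_d9
            linarith
          rwa [Real.exp_log (by norm_num)] at h10
        calc (J.card : ℝ) * (((n : ℝ) ^ 4)⁻¹ * Real.exp (1 / 100))
            ≤ (n : ℝ) ^ 2 * (((n : ℝ) ^ 4)⁻¹ * 2) := by
              apply mul_le_mul hcard _ (by positivity) (by positivity)
              exact mul_le_mul_of_nonneg_left h9 (by positivity)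
          _ = 2 / (n : ℝ) ^ 2 := by field_simp
          _ ≤ 1 / 4 := by
              rw [div_le_div_iff₀ (by positivity) (by norm_num)]
              nlinarith)
      (H_num hη0 hη1 hκ hn9 hδ1 (h2 n hnn2) (hsg y0 hs0) (h1 n hnn1))
    rw [hsge] at hc
    refine le_trans ?_ hc
    have h3 : Real.exp (-Real.log n) ≤ 1 / 3 := by
      rw [Real.exp_neg, Real.exp_log hn0, one_div]
      exact inv_anti₀ (by norm_num) (by linarith)
    have h4 : Real.exp (-(4 * κ * Real.log n)) ≤ Real.exp (-(κ * sg y0)) := by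
      apply Real.exp_le_exp.2
      nlinarith
    have h5 : (n : ℝ) ^ (-(48 * κ + 5)) = Real.exp (-Real.log n) *
        Real.exp (-((44 * κ + 4) * Real.log n)) * Real.exp (-(4 * κ * Real.log n)) := by
      rw [Real.rpow_def_of_pos hn0, ← Real.exp_add, ← Real.exp_add]
      congr 1
      ring
    rw [h5]
    apply mul_le_mul _ h4 (Real.exp_pos _).le (by positivity)
    exact mul_le_mul_of_nonneg_right h3 (Real.exp_pos _).le

end Cov
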