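import Vale.Agent.Cov.Defs
import Vale.Agent.Cov.ModInst
import Vale.Agent.Cov.TiltB

/-! # [M] existence of the family of constraints (sign model) -/

namespace Cov

open MeasureTheory Finset
open scoped RealInnerProductSpace

theorem sign_low' {κ : ℝ} (hκ : 1 ≤ κ) {n : ℕ} (hn : 10 * κ ≤ n) (v : E n)
    (hv : ‖v‖ ≤ Real.sqrt (κ * n)) :
    Real.exp (‖v‖ ^ 2 / 2 - 1 / 100)
      ≤ (Fintype.card (Fin n × Fin (n ^ 4) → Bool) : ℝ)⁻¹ *
      ∑ i : Fin n × Fin (n ^ 4) → Bool, Real.exp ⟪(CovG.av i : E n), v⟫ := by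
  have h10 : (10:ℝ) ≤ n := by linarith
  have hn0 : 0 < n := by
    have : (0:ℝ) < n := by linarith
    exact_mod_cast this
  rw [CovG.card_inv]
  refine le_trans ?_ (CovG.le_Lam (by positivity) v)
  apply Real.exp_le_exp.mpr
  apply sub_le_sub_left
  refine le_trans ?_ (CovG.err_le hκ hn)
  apply div_le_div_of_nonneg_right _ (by positivity)
  calc ‖v‖ ^ 4 ≤ Real.sqrt (κ * n) ^ 4 := pow_le_pow_left₀ (norm_nonneg _) hv 4
    _ = (Real.sqrt (κ * n) ^ 2) ^ 2 := by ring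
    _ = (κ * n) ^ 2 := by rw [Real.sq_sqrt (by positivity)]

theorem mdl_exists (ρ : ℝ) (hρ : 0 < ρ) : ∃ κ c0 C3 : ℝ, 1 ≤ κ ∧ 0 < c0 ∧ 0 < C3 ∧
    ∃ n0 : ℕ, ∀ n ≥ n0, Nonempty (Mdl n κ ρ c0 C3) := by
  set η : ℝ := min (1 / 4) (ρ ^ 2 / 8) with hηdef
  have hη0 : 0 < η := by
    rw [hηdef]
    exact lt_min (by norm_num) (by positivity)
  have hη4 : η ≤ 1 / 4 := min_le_left _ _
  have hη8 : 8 * η ≤ ρ ^ 2 := by
    have : η ≤ ρ ^ 2 / 8 := min_le_right _ _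
    linarith
  have hη1 : η ≤ 1 := by linarith
  have hκ1 : (1:ℝ) ≤ 128 / η ^ 2 := by
    rw [le_div_iff₀ (by positivity)]
    nlinarith
  set κ : ℝ := 128 / η ^ 2 with hκdef
  obtain ⟨n0, hn0⟩ := t3 hη0 hη1 (le_refl (128 / η ^ 2))
  refine ⟨κ, Real.exp (-2) / 3, 48 * κ + 5, hκ1, by positivity, by positivity,
    max n0 ⌈10 * κ⌉₊, fun n hn => ?_⟩
  have hn1 : n0 ≤ n := le_trans (le_max_left _ _) hn
  have hn2 : 10 * κ ≤ n := by
    have h1 : 10 * κ ≤ (⌈10 * κ⌉₊ : ℝ) := Nat.le_ceil _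
    have h2 : ((⌈10 * κ⌉₊ : ℕ) : ℝ) ≤ (n : ℝ) := by
      exact_mod_cast le_trans (le_max_right _ _) hn
    linarith
  have hn10 : (10:ℝ) ≤ n := by linarith
  have hnpos : 0 < n := by
    have : (0:ℝ) < n := by linarith
    exact_mod_cast this
  have hm : 0 < n ^ 4 := by positivity
  set θ : ℝ := Real.sqrt (κ * n) with hθdef
  have hκn : (1:ℝ) ≤ κ * n := by nlinarith
  have hθ1 : 1 ≤ θ := by
    rw [hθdef]
    exact Real.one_le_sqrt.mpr hκn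
  have hθ0 : 0 < θ := by linarith
  have hθsq : θ ^ 2 = κ * n := Real.sq_sqrt (by linarith)
  set δ : ℝ := 1 / (4 * θ) with hδdef
  have hδ0 : 0 < δ := by positivity
  have hδ1 : δ ≤ 1 := by
    rw [hδdef, div_le_one (by positivity)]
    linarith
  have hθδ : θ * δ ≤ 1 / 4 := by
    rw [hδdef]
    have : θ * (1 / (4 * θ)) = 1 / 4 := by field_simp
    rw [this]
  set R : ℝ := Real.sqrt ((n : ℝ) * ((n ^ 4 : ℕ) : ℝ)) with hRdef
  set J : ℕ := ⌈R / δ⌉₊ with hJdef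
  have hJ : R ≤ J * δ := by
    have : R / δ ≤ (J : ℝ) := Nat.le_ceil _
    rwa [div_le_iff₀ hδ0] at this
  have hR : ∀ i : Fin n × Fin (n ^ 4) → Bool, ‖(CovG.av i : E n)‖ ≤ R := fun i =>
    CovG.norm_av_le hm i
  obtain ⟨hlower, hgroup⟩ := hn0 n hn1 (I := Fin n × Fin (n ^ 4) → Bool)
    (fun i => (CovG.av i : E n)) δ J hδ0 hδ1 (sign_up n (n ^ 4) hm)
    (sign_low' hκ1 hn2) (fun i => le_trans (hR i) hJ)
  exact assemble (I := Fin n × Fin (n ^ 4) → Bool) (fun i => (CovG.av i : E n)) J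
    hη0.le hη8 hη4 hρ.le hθ0.le hδ0 hθδ hθsq (sign_up n (n ^ 4) hm) hR
    (sign_card n (n ^ 4)) hlower hgroup

end Cov
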