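import Vale.Agent.Cov.Red
import Vale.Agent.Cov.Model

/-! # [R2] the main lower bound -/

namespace Cov

open MeasureTheory Finset
open scoped RealInnerProductSpace Pointwise

theorem Good.mono {n : ℕ} {κ G G' : ℝ} {T : Finset (E n)} {x : E n} (h : Good κ G T x)
    (hG : G ≤ G') : Good κ G' T x := ⟨h.1.trans hG, h.2⟩

theorem shrink_pow {n : ℕ} (hn : 2 ≤ n) :
    Real.exp (-1) ≤ (1 / (1 + 2 / (n : ℝ) ^ 5)) ^ n := by
  have hn2 : (2 : ℝ) ≤ n := by exact_mod_cast hn
  have hn0 : (0 : ℝ) < n := by linarith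
  have h1 : (1 + 2 / (n : ℝ) ^ 5) ^ n ≤ Real.exp 1 := by
    calc (1 + 2 / (n : ℝ) ^ 5) ^ n ≤ (Real.exp (2 / (n : ℝ) ^ 5)) ^ n := by
          gcongr
          have := Real.add_one_le_exp (2 / (n : ℝ) ^ 5)
          linarith
      _ = Real.exp (n * (2 / (n : ℝ) ^ 5)) := by rw [← Real.exp_nat_mul]
      _ ≤ Real.exp 1 := by
          apply Real.exp_le_exp.2
          have h2 : (n : ℝ) * (2 / (n : ℝ) ^ 5) = 2 / (n : ℝ) ^ 4 := by field_simp
          rw [h2, div_le_one (by positivity)]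
          calc (2 : ℝ) ≤ 2 ^ 4 := by norm_num
            _ ≤ (n : ℝ) ^ 4 := pow_le_pow_left₀ (by norm_num) hn2 4
  rw [Real.exp_neg, one_div, inv_pow]
  exact inv_anti₀ (by positivity) h1

theorem main : ∃ c : ℝ, 0 < c ∧ ∃ n0 : ℕ, ∀ n ≥ n0, ∃ K : Set (E n),
    Convex ℝ K ∧ IsCompact K ∧ (interior K).Nonempty ∧
    ∀ X : Set (E n), LocFin X → (∀ x : E n, ∃ t ∈ X, x - t ∈ K) →
      ENNReal.ofReal (c * n * Real.log n) ≤ volume K * dens X := by
  obtain ⟨κ, c0, C3, hκ, hc0, hC3, n1, hM⟩ := mdl_exists (1 / (k0 : ℝ))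
    (by unfold k0; norm_num)
  obtain ⟨c2, hc2, n2, hA⟩ := exA hκ hc0 hC3
  set c : ℝ := min c2 1 with hc
  have hcpos : 0 < c := lt_min hc2 one_pos
  have hc1 : c ≤ 1 := min_le_right _ _
  have hcc2 : c ≤ c2 := min_le_left _ _
  obtain ⟨n3, hT⟩ := good_tile (κ := κ) (c := c) hκ hcpos
  have hκ32 : 0 < 32 * (κ + 1) := by linarith
  refine ⟨Real.exp (-8) * (c / (32 * (κ + 1))), by positivity, n1 + n2 + n3 + 2, fun n hn => ?_⟩
  have hn2 : 2 ≤ n := by omega
  have hn2' : (2 : ℝ) ≤ n := by exact_mod_cast hn2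
  have hn0 : (0 : ℝ) < n := by linarith
  have hlog : 0 ≤ Real.log n := Real.log_nonneg (by linarith)
  obtain ⟨M⟩ := hM n (by omega)
  obtain ⟨A, hvol, hbad⟩ := hA n (by omega) M
  set s : ℝ := 1 / (1 + 2 / (n : ℝ) ^ 5) with hs
  have hs0 : 0 < s := by positivity
  obtain ⟨hb1, hb2, hb3⟩ := body M A s hs0
  refine ⟨s • M.K A, hb1, hb2, hb3, fun X hX hcov => ?_⟩
  by_contra hlt
  rw [not_le] at hlt
  obtain ⟨X', hX'g, hX'f, hX'd, hX'c⟩ := round_grid n hn2 M A X hX hcov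
  have hvK : ENNReal.ofReal (Real.exp (-8)) * ENNReal.ofReal (bv n) ≤ volume (s • M.K A) := by
    rw [Measure.addHaar_smul, finrank_euclideanSpace, Fintype.card_fin,
      abs_of_pos (by positivity)]
    calc ENNReal.ofReal (Real.exp (-8)) * ENNReal.ofReal (bv n)
        = ENNReal.ofReal (Real.exp (-1)) * ENNReal.ofReal (Real.exp (-7) * bv n) := by
          rw [← ENNReal.ofReal_mul (Real.exp_pos _).le, ← ENNReal.ofReal_mul (Real.exp_pos _).le,
            ← mul_assoc, ← Real.exp_add]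
          norm_num
      _ ≤ ENNReal.ofReal (s ^ n) * volume (M.K A) := by
          gcongr
          exact shrink_pow hn2
  have hdens : dens X' * ENNReal.ofReal (bv n)
      < ENNReal.ofReal (c / (32 * (κ + 1)) * n * Real.log n) := by
    by_contra h2
    rw [not_lt] at h2
    apply absurd hlt
    rw [not_lt]
    calc ENNReal.ofReal (Real.exp (-8) * (c / (32 * (κ + 1))) * n * Real.log n)
        = ENNReal.ofReal (Real.exp (-8)) *
            ENNReal.ofReal (c / (32 * (κ + 1)) * n * Real.log n) := by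
          rw [← ENNReal.ofReal_mul (Real.exp_pos _).le]
          congr 1
          ring
      _ ≤ ENNReal.ofReal (Real.exp (-8)) * (dens X' * ENNReal.ofReal (bv n)) := by gcongr
      _ = ENNReal.ofReal (Real.exp (-8)) * ENNReal.ofReal (bv n) * dens X' := by ring
      _ ≤ volume (s • M.K A) * dens X := by gcongr
  obtain ⟨z, -, T, hTm, hTg, hTc, hTv⟩ := hT n (by omega) X' hX'g hX'f hdens hc1
  have hsub : volume (Qc n \ {x | Good κ (c2 * n * Real.log n) T x}) ≤ volume (Qc n) / 2 := by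
    refine le_trans (measure_mono ?_) hTv
    refine Set.sdiff_subset_sdiff_right fun x hx => ?_
    refine Good.mono hx ?_
    gcongr
  obtain ⟨x, hx, hxT⟩ := hbad T (fun t ht => ⟨hTg t ht, ((hTm t).1 ht).2⟩) hTc hsub
  obtain ⟨t', ht', hxt'⟩ := hX'c (x + z)
  have h1 : x - (t' - z) = x + z - t' := by abel
  have h2 : x - (t' - z) ∈ M.K A := by rw [h1]; exact hxt'
  refine hxT (t' - z) ?_ h2
  rw [hTm]
  refine ⟨by rw [sub_add_cancel]; exact ht', ?_⟩
  have h3 : t' - z = x - (x - (t' - z)) := by abel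
  rw [h3]
  refine (norm_sub_le _ _).trans ?_
  have h4 := norm_le_of_Qc hx
  have h5 := h2.1
  linarith

end Cov
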