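import Vale.Agent.Cov.Defs

/-! # [M] geometry of the constraints, upper bound, reindexing -/

namespace Cov

open MeasureTheory Finset
open scoped RealInnerProductSpace

/-- A constraint with `(1-η)‖a‖ ≤ b` cuts only a small cap. -/
theorem range_of {n : ℕ} {a : E n} {b η ρ : ℝ} (hη0 : 0 ≤ η) (hη : 8 * η ≤ ρ ^ 2) (hρ : 0 ≤ ρ)
    (hb : (1 - η) * ‖a‖ ≤ b) {y y' : E n} (hy : ‖y‖ ≤ 1) (hy' : ‖y'‖ ≤ 1)
    (h : b < ⟪a, y⟫) (h' : b < ⟪a, y'⟫) : ‖y - y'‖ ≤ ρ := by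
  -- the midpoint has norm > 1 - η
  have h1 : 2 * b < ⟪a, y + y'⟫ := by rw [inner_add_right]; linarith
  have h2 : ⟪a, y + y'⟫ ≤ ‖a‖ * ‖y + y'‖ := real_inner_le_norm _ _
  have h3 : 2 * ((1 - η) * ‖a‖) < ‖a‖ * ‖y + y'‖ := by linarith
  have ha : 0 < ‖a‖ := by
    rcases (norm_nonneg a).eq_or_lt with h0 | h0
    · rw [← h0] at h3; simp at h3
    · exact h0
  have h4 : 2 * (1 - η) < ‖y + y'‖ := by
    by_contra hc
    push Not at hc
    have := mul_le_mul_of_nonneg_left hc ha.le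
    linarith
  have hpar := parallelogram_law_with_norm ℝ y y'
  have h5 : ‖y‖ * ‖y‖ ≤ 1 := by nlinarith [norm_nonneg y]
  have h6 : ‖y'‖ * ‖y'‖ ≤ 1 := by nlinarith [norm_nonneg y']
  have h7 : ‖y - y'‖ * ‖y - y'‖ ≤ ρ ^ 2 := by
    by_cases hη1 : η ≤ 1
    · have h8 : (2 * (1 - η)) * (2 * (1 - η)) ≤ ‖y + y'‖ * ‖y + y'‖ :=
        mul_self_le_mul_self (by linarith) h4.le
      nlinarith
    · push Not at hη1
      have h9 : 0 ≤ ‖y + y'‖ * ‖y + y'‖ := mul_self_nonneg _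
      nlinarith
  exact abs_le_of_sq_le_sq' (by nlinarith) hρ |>.2

theorem a_le_of {n : ℕ} {a : E n} {b η : ℝ} (hη : η ≤ 1 / 4)
    (hb : (1 - η) * ‖a‖ ≤ b) : ‖a‖ ≤ 4 / 3 * b := by
  nlinarith [norm_nonneg a]

/-- telescoping, upper bound -/
theorem tele_upper {θ δ t : ℝ} (hθ : 0 ≤ θ) (hδ : 0 < δ) (J : ℕ) (P : ℕ → Prop)
    [DecidablePred P] (hP : ∀ j, P j → (j : ℝ) * δ < t) :
    ∑ j ∈ (range J).filter P, (Real.exp (θ * ((j + 1 : ℕ) * δ)) - Real.exp (θ * (j * δ)))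
      ≤ Real.exp (θ * (t + δ)) := by
  have hmono : ∀ j : ℕ, Real.exp (θ * (j * δ)) ≤ Real.exp (θ * ((j + 1 : ℕ) * δ)) := by
    intro j
    apply Real.exp_le_exp.mpr
    push_cast
    nlinarith [mul_nonneg hθ hδ.le]
  by_cases hne : ((range J).filter P).Nonempty
  · obtain ⟨j1, hj1, hmax⟩ := ((range J).filter P).exists_max_image (fun j => j) hne
    have hsub : (range J).filter P ⊆ range (j1 + 1) := by
      intro j hj
      rw [Finset.mem_range]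
      have := hmax j hj
      omega
    calc ∑ j ∈ (range J).filter P,
          (Real.exp (θ * ((j + 1 : ℕ) * δ)) - Real.exp (θ * (j * δ)))
        ≤ ∑ j ∈ range (j1 + 1),
          (Real.exp (θ * ((j + 1 : ℕ) * δ)) - Real.exp (θ * (j * δ))) :=
          Finset.sum_le_sum_of_subset_of_nonneg hsub
            (fun j _ _ => sub_nonneg.mpr (hmono j))
      _ = Real.exp (θ * ((j1 + 1 : ℕ) * δ)) - Real.exp (θ * ((0 : ℕ) * δ)) :=
          Finset.sum_range_sub (fun j : ℕ => Real.exp (θ * (j * δ))) (j1 + 1)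
      _ ≤ Real.exp (θ * ((j1 + 1 : ℕ) * δ)) := by
          have := Real.exp_pos (θ * ((0 : ℕ) * δ)); linarith
      _ ≤ Real.exp (θ * (t + δ)) := by
          apply Real.exp_le_exp.mpr
          apply mul_le_mul_of_nonneg_left _ hθ
          have := hP j1 (Finset.mem_filter.mp hj1).2
          push_cast
          nlinarith
  · rw [Finset.not_nonempty_iff_eq_empty] at hne
    rw [hne, Finset.sum_empty]
    exact (Real.exp_pos _).le

/-- the weight of the pair `(i, j)` -/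
noncomputable def pw {I : Type} [Fintype I] (θ δ : ℝ) (j : ℕ) : ℝ :=
  (Fintype.card I : ℝ)⁻¹ * Real.exp (-(θ ^ 2 / 2))
    * (Real.exp (θ * ((j + 1 : ℕ) * δ)) - Real.exp (θ * (j * δ)))

theorem pw_nonneg {I : Type} [Fintype I] {θ δ : ℝ} (hθ : 0 ≤ θ) (hδ : 0 < δ) (j : ℕ) :
    0 ≤ pw (I := I) θ δ j := by
  unfold pw
  apply mul_nonneg (by positivity)
  rw [sub_nonneg]
  apply Real.exp_le_exp.mpr
  push_cast
  nlinarith [mul_nonneg hθ hδ.le]

/-- (I2) in abstract form -/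
theorem upper_of {n : ℕ} {I : Type} [Fintype I] [Nonempty I] {a : I → E n} {κ θ δ : ℝ}
    (hθ : 0 ≤ θ) (hδ : 0 < δ) (hθδ : θ * δ ≤ 1) (hκ : θ ^ 2 = κ * n)
    (hup : ∀ v : E n, (Fintype.card I : ℝ)⁻¹ * ∑ i, Real.exp ⟪a i, v⟫ ≤ Real.exp (‖v‖ ^ 2 / 2))
    (J : ℕ) (P : I → ℕ → Prop) [∀ i, DecidablePred (P i)] (y : E n)
    (hP : ∀ i j, P i j → (j : ℝ) * δ < ⟪a i, y⟫) :
    ∑ i, ∑ j ∈ (range J).filter (P i), pw (I := I) θ δ j ≤ Real.exp (1 - κ * sg y) := by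
  unfold pw
  simp only [← Finset.mul_sum]
  have h1 : ∀ i, ∑ j ∈ (range J).filter (P i),
      (Real.exp (θ * ((j + 1 : ℕ) * δ)) - Real.exp (θ * (j * δ)))
      ≤ Real.exp 1 * Real.exp ⟪a i, θ • y⟫ := by
    intro i
    refine (tele_upper hθ hδ J (P i) (hP i)).trans ?_
    rw [← Real.exp_add]
    apply Real.exp_le_exp.mpr
    rw [real_inner_smul_right]
    nlinarith
  have hc : (0 : ℝ) < (Fintype.card I : ℝ) := by exact_mod_cast Fintype.card_pos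
  have h2 := hup (θ • y)
  rw [norm_smul, Real.norm_eq_abs, abs_of_nonneg hθ, mul_pow] at h2
  calc (Fintype.card I : ℝ)⁻¹ * Real.exp (-(θ ^ 2 / 2)) * ∑ i, ∑ j ∈ (range J).filter (P i),
          (Real.exp (θ * ((j + 1 : ℕ) * δ)) - Real.exp (θ * (j * δ)))
      ≤ (Fintype.card I : ℝ)⁻¹ * Real.exp (-(θ ^ 2 / 2))
          * ∑ i, Real.exp 1 * Real.exp ⟪a i, θ • y⟫ :=
        mul_le_mul_of_nonneg_left (Finset.sum_le_sum fun i _ => h1 i) (by positivity)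
    _ = Real.exp (-(θ ^ 2 / 2)) * Real.exp 1
          * ((Fintype.card I : ℝ)⁻¹ * ∑ i, Real.exp ⟪a i, θ • y⟫) := by
        rw [← Finset.mul_sum]; ring
    _ ≤ Real.exp (-(θ ^ 2 / 2)) * Real.exp 1 * Real.exp (θ ^ 2 * ‖y‖ ^ 2 / 2) :=
        mul_le_mul_of_nonneg_left h2 (by positivity)
    _ = Real.exp (1 - κ * sg y) := by
        rw [← Real.exp_add, ← Real.exp_add]
        congr 1
        unfold sg
        rw [hκ]
        ring

/-- reindexing: a finite family with all the properties gives a model -/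
theorem mk_mdl {n : ℕ} {κ ρ c0 C3 : ℝ} {Om : Type} [Fintype Om] (a : Om → E n) (b p : Om → ℝ)
    (p_nonneg : ∀ ω, 0 ≤ p ω) (p_le : ∀ ω, p ω ≤ 1 / 2) (a_le : ∀ ω, ‖a ω‖ ≤ 4 / 3 * b ω)
    (hrange : ∀ ω (y y' : E n), ‖y‖ ≤ 1 → ‖y'‖ ≤ 1 → b ω < ⟪a ω, y⟫ → b ω < ⟪a ω, y'⟫ →
      ‖y - y'‖ ≤ ρ)
    (upper : ∀ y : E n, ‖y‖ ≤ 1 →
      ∑ ω ∈ univ.filter (fun ω => b ω < ⟪a ω, y⟫), p ω ≤ Real.exp (1 - κ * sg y))
    (lower : ∀ y : E n, ‖y‖ ≤ 1 → sg y ≤ 4 * Real.log n →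
      c0 * Real.exp (-(κ * sg y)) ≤ ∑ ω ∈ univ.filter (fun ω => b ω < ⟪a ω, y⟫), p ω)
    (group : ∀ (y0 : E n) (J : Finset (E n)), y0 ∈ J → (J.card : ℝ) ≤ (n : ℝ) ^ 2 →
      (∀ y ∈ J, ‖y‖ ≤ 1 ∧ sg y ≤ 4 * Real.log n ∧ ‖y - y0‖ ^ 2 ≤ 40 * Real.log n / n) →
      (n : ℝ) ^ (-C3) ≤ ∑ ω ∈ univ.filter (fun ω => ∀ y ∈ J, b ω < ⟪a ω, y⟫), p ω) :
    Nonempty (Mdl n κ ρ c0 C3) := by
  classical
  let e : Fin (Fintype.card Om) ≃ Om := (Fintype.equivFin Om).symm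
  have key : ∀ (Q : Om → Prop) [DecidablePred Q],
      nu (fun w => p (e w)) (univ.filter (fun w => Q (e w)))
        = ∑ ω ∈ univ.filter Q, p ω := by
    intro Q _
    unfold nu
    rw [Finset.sum_filter, Finset.sum_filter]
    exact Equiv.sum_comp e (fun ω => if Q ω then p ω else 0)
  refine ⟨{ N := Fintype.card Om, a := fun w => a (e w), b := fun w => b (e w),
            p := fun w => p (e w), p_nonneg := fun w => p_nonneg _, p_le := fun w => p_le _,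
            a_le := fun w => a_le _, range := fun w => hrange _, upper := ?_, lower := ?_,
            group := ?_ }⟩
  · intro y hy
    rw [key (fun ω => b ω < ⟪a ω, y⟫)]
    exact upper y hy
  · intro y hy hs
    rw [key (fun ω => b ω < ⟪a ω, y⟫)]
    exact lower y hy hs
  · intro y0 J h1 h2 h3
    rw [key (fun ω => ∀ y ∈ J, b ω < ⟪a ω, y⟫)]
    exact group y0 J h1 h2 h3

end Cov
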