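import Vale.Agent.Cov.Gauss

/-! # [M] numerical constants of the sign model -/

namespace CovG

open Finset

/-- number of levels -/
noncomputable def Jn (κ : ℝ) (n : ℕ) : ℕ := ⌈κ * (n:ℝ) ^ 3⌉₊ + 1

lemma Jn_le {κ : ℝ} (hκ : 1 ≤ κ) (n : ℕ) : (Jn κ n : ℝ) ≤ κ * (n:ℝ) ^ 3 + 2 := by
  have h : (0:ℝ) ≤ κ * (n:ℝ) ^ 3 := by positivity
  have := (Nat.ceil_lt_add_one h).le
  unfold Jn
  push_cast
  linarith

lemma le_Jn (κ : ℝ) (n : ℕ) : κ * (n:ℝ) ^ 3 + 1 ≤ (Jn κ n : ℝ) := by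
  unfold Jn
  push_cast
  linarith [Nat.le_ceil (κ * (n:ℝ) ^ 3)]

/-- all norms are below the top level, with `δ = 1/θ` -/
lemma norm_le_top {κ : ℝ} (hκ : 1 ≤ κ) {n : ℕ} (hn : 1 ≤ n)
    (e : Fin n × Fin (n ^ 4) → Bool) :
    ‖av e‖ + 1 / Real.sqrt (κ * n) ≤ (Jn κ n : ℝ) * (1 / Real.sqrt (κ * n)) := by
  have hn' : (1:ℝ) ≤ n := by exact_mod_cast hn
  have hpos : (0:ℝ) < κ * n := by positivity
  have hs : 0 < Real.sqrt (κ * n) := Real.sqrt_pos.mpr hpos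
  have h1 := norm_av_le (n := n) (m := n ^ 4) (by positivity) e
  rw [mul_one_div, le_div_iff₀ hs, add_mul, one_div, inv_mul_cancel₀ hs.ne']
  refine le_trans ?_ (le_Jn κ n)
  apply add_le_add_left
  refine le_trans (mul_le_mul_of_nonneg_right h1 hs.le) ?_
  rw [← Real.sqrt_mul (by positivity)]
  apply Real.sqrt_le_iff.mpr
  refine ⟨by positivity, ?_⟩
  push_cast
  have : (n:ℝ) * (n:ℝ) ^ 4 * (κ * n) = κ * (n:ℝ) ^ 6 := by ring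
  rw [this]
  have h2 : (κ * (n:ℝ) ^ 3) ^ 2 = κ ^ 2 * (n:ℝ) ^ 6 := by ring
  rw [h2]
  apply mul_le_mul_of_nonneg_right _ (by positivity)
  nlinarith

lemma log_card (n m : ℕ) :
    Real.log (Fintype.card (Fin n × Fin m → Bool) : ℝ) = (n * m) * Real.log 2 := by
  rw [Fintype.card_fun, Fintype.card_bool, Fintype.card_prod, Fintype.card_fin, Fintype.card_fin]
  push_cast
  rw [Real.log_pow]
  push_cast
  ring

lemma Jn_le_log {κ : ℝ} (hκ : 1 ≤ κ) {n : ℕ} (hn : 10 * κ ≤ n) :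
    (Jn κ n : ℝ) ≤ Real.log (Fintype.card (Fin n × Fin (n ^ 4) → Bool) : ℝ) - 1 := by
  rw [log_card]
  have h10 : (10:ℝ) ≤ n := by linarith
  have h1 := Jn_le hκ n
  have h2 : (0.6:ℝ) ≤ Real.log 2 := by
    have := Real.log_two_gt_d9
    linarith
  have h3 : (0:ℝ) ≤ (n:ℝ) ^ 5 := by positivity
  have h4 : κ * (n:ℝ) ^ 3 ≤ (n:ℝ) ^ 4 / 10 := by
    have : κ ≤ (n:ℝ) / 10 := by linarith
    calc κ * (n:ℝ) ^ 3 ≤ (n:ℝ) / 10 * (n:ℝ) ^ 3 :=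
          mul_le_mul_of_nonneg_right this (by positivity)
      _ = (n:ℝ) ^ 4 / 10 := by ring
  have h5 : 10 * (n:ℝ) ^ 4 ≤ (n:ℝ) ^ 5 := by
    calc 10 * (n:ℝ) ^ 4 ≤ (n:ℝ) * (n:ℝ) ^ 4 := mul_le_mul_of_nonneg_right h10 (by positivity)
      _ = (n:ℝ) ^ 5 := by ring
  have h6 : (10:ℝ) ^ 4 ≤ (n:ℝ) ^ 4 := pow_le_pow_left₀ (by norm_num) h10 4
  have h7 : (0.6:ℝ) * (n:ℝ) ^ 5 ≤ (n:ℝ) ^ 5 * Real.log 2 := by
    rw [mul_comm]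
    exact mul_le_mul_of_nonneg_left h2 h3
  push_cast
  have h8 : (n:ℝ) * (n:ℝ) ^ 4 * Real.log 2 = (n:ℝ) ^ 5 * Real.log 2 := by ring
  rw [h8]
  nlinarith

lemma err_le {κ : ℝ} (hκ : 1 ≤ κ) {n : ℕ} (hn : 10 * κ ≤ n) :
    (κ * n) ^ 2 / (8 * ((n ^ 4 : ℕ) : ℝ)) ≤ 1 / 100 := by
  have h10 : (10:ℝ) ≤ n := by linarith
  push_cast
  rw [div_le_iff₀ (by positivity)]
  have : κ ≤ (n:ℝ) / 10 := by linarith
  have h1 : κ ^ 2 ≤ ((n:ℝ) / 10) ^ 2 := pow_le_pow_left₀ (by linarith) this 2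
  calc (κ * (n:ℝ)) ^ 2 = κ ^ 2 * (n:ℝ) ^ 2 := by ring
    _ ≤ ((n:ℝ) / 10) ^ 2 * (n:ℝ) ^ 2 := mul_le_mul_of_nonneg_right h1 (by positivity)
    _ = (n:ℝ) ^ 4 / 100 := by ring
    _ ≤ 1 / 100 * (8 * (n:ℝ) ^ 4) := by nlinarith [pow_nonneg (show (0:ℝ) ≤ n by linarith) 4]

/-- lower bound of `Lam` at `θ y` for `‖y‖ ≤ 1`, `θ² = κ n`, `m = n⁴` -/
lemma hlow {κ : ℝ} (hκ : 1 ≤ κ) {n : ℕ} (hn : 10 * κ ≤ n) (y : EuclideanSpace ℝ (Fin n))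
    (hy : ‖y‖ ≤ 1) :
    Real.exp (‖Real.sqrt (κ * n) • y‖ ^ 2 / 2 - 1 / 100)
      ≤ Lam n (n ^ 4) (Real.sqrt (κ * n) • y) := by
  have h10 : (10:ℝ) ≤ n := by linarith
  have hn0 : 0 < n := by
    have : (0:ℝ) < n := by linarith
    exact_mod_cast this
  refine le_trans ?_ (le_Lam (by positivity) _)
  apply Real.exp_le_exp.mpr
  apply sub_le_sub_left
  refine le_trans ?_ (err_le hκ hn)
  apply div_le_div_of_nonneg_right _ (by positivity)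
  rw [norm_smul, Real.norm_eq_abs, abs_of_nonneg (Real.sqrt_nonneg _)]
  have h1 : (Real.sqrt (κ * n) * ‖y‖) ^ 4 = (κ * n) ^ 2 * ‖y‖ ^ 4 := by
    rw [mul_pow, show Real.sqrt (κ * n) ^ 4 = (Real.sqrt (κ * n) ^ 2) ^ 2 by ring,
      Real.sq_sqrt (by positivity)]
  rw [h1]
  have h2 : ‖y‖ ^ 4 ≤ 1 := pow_le_one₀ (norm_nonneg _) hy
  nlinarith [sq_nonneg (κ * (n:ℝ))]

end CovG
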