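import Vale.Agent.Cov.Prob
import Vale.Agent.Cov.Grouping

/-! # [O] the sets to be met for one good point: auxiliary lemmas -/

namespace Cov

open MeasureTheory Finset
open scoped RealInnerProductSpace

section prods
variable {ι α : Type} [DecidableEq α]

theorem prod_subset_ge {f : α → ℝ} (h0 : ∀ a, 0 ≤ f a) (h1 : ∀ a, f a ≤ 1) {s t : Finset α}
    (h : s ⊆ t) : ∏ a ∈ t, f a ≤ ∏ a ∈ s, f a := by
  rw [← Finset.prod_sdiff h]
  calc (∏ a ∈ t \ s, f a) * ∏ a ∈ s, f a ≤ 1 * ∏ a ∈ s, f a :=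
        mul_le_mul_of_nonneg_right (Finset.prod_le_one (fun a _ => h0 a) fun a _ => h1 a)
          (Finset.prod_nonneg fun a _ => h0 a)
    _ = _ := one_mul _

theorem prod_union_ge {f : α → ℝ} (h0 : ∀ a, 0 ≤ f a) (h1 : ∀ a, f a ≤ 1) (s t : Finset α) :
    (∏ a ∈ s, f a) * ∏ a ∈ t, f a ≤ ∏ a ∈ s ∪ t, f a := by
  have e : s ∪ t = s ∪ (t \ s) := by
    ext a; simp
  rw [e, Finset.prod_union (Finset.disjoint_sdiff)]
  exact mul_le_mul_of_nonneg_left (prod_subset_ge h0 h1 Finset.sdiff_subset)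
    (Finset.prod_nonneg fun a _ => h0 a)

theorem prod_image_ge {f : α → ℝ} (h0 : ∀ a, 0 ≤ f a) (h1 : ∀ a, f a ≤ 1) (s : Finset ι)
    (g : ι → α) : ∏ i ∈ s, f (g i) ≤ ∏ a ∈ s.image g, f a := by
  classical
  induction s using Finset.induction_on with
  | empty => simp
  | insert i s hi ih =>
    rw [Finset.prod_insert hi, Finset.image_insert]
    by_cases hg : g i ∈ s.image g
    · rw [Finset.insert_eq_of_mem hg]
      calc f (g i) * ∏ j ∈ s, f (g j) ≤ 1 * ∏ j ∈ s, f (g j) :=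
            mul_le_mul_of_nonneg_right (h1 _) (Finset.prod_nonneg fun a _ => h0 _)
        _ = ∏ j ∈ s, f (g j) := one_mul _
        _ ≤ _ := ih
    · rw [Finset.prod_insert hg]
      exact mul_le_mul_of_nonneg_left ih (h0 _)

/-- lower bound for a product of numbers in `[0,1]` -/
theorem prod_ge_exp {s : Finset ι} {f : ι → ℝ} {w : ι → ℝ} (h : ∀ i ∈ s, Real.exp (-(w i)) ≤ f i) :
    Real.exp (-(∑ i ∈ s, w i)) ≤ ∏ i ∈ s, f i := by
  rw [← Finset.sum_neg_distrib, Real.exp_sum]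
  exact Finset.prod_le_prod (fun i _ => (Real.exp_pos _).le) h

end prods

theorem nu_mono {Ω : Type} [Fintype Ω] [DecidableEq Ω] {p : Ω → ℝ} (hp0 : ∀ ω, 0 ≤ p ω)
    {S S' : Finset Ω} (h : S ⊆ S') : nu p S ≤ nu p S' :=
  Finset.sum_le_sum_of_subset_of_nonneg h fun ω _ _ => hp0 ω

theorem nu_union_le {Ω : Type} [Fintype Ω] [DecidableEq Ω] {p : Ω → ℝ} (hp0 : ∀ ω, 0 ≤ p ω)
    (S S' : Finset Ω) : nu p (S ∪ S') ≤ nu p S + nu p S' := by
  unfold nu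
  have := Finset.sum_union_inter (s₁ := S) (s₂ := S') (f := p)
  have h0 : 0 ≤ ∑ ω ∈ S ∩ S', p ω := Finset.sum_nonneg fun ω _ => hp0 ω
  linarith

theorem nu_biUnion_le {Ω ι : Type} [Fintype Ω] [DecidableEq Ω] {p : Ω → ℝ}
    (hp0 : ∀ ω, 0 ≤ p ω) (s : Finset ι) (f : ι → Finset Ω) :
    nu p (s.biUnion f) ≤ ∑ i ∈ s, nu p (f i) := by
  classical
  induction s using Finset.induction_on with
  | empty => simp [nu]
  | insert i s hi ih =>
    rw [Finset.biUnion_insert, Finset.sum_insert hi]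
    exact (nu_union_le hp0 _ _).trans (add_le_add_right ih _)

/-- `C(y) ∩ C(y') ⊆ C((y+y')/2)` and the upper bound. -/
theorem nu_overlap23 {n : ℕ} {κ ρ c0 C3 : ℝ} (M : Mdl n κ ρ c0 C3) (y y' : E n)
    (hy : ‖y‖ ≤ 1) (hy' : ‖y'‖ ≤ 1) :
    nu M.p (M.C y ∩ M.C y')
      ≤ Real.exp (1 - κ * (sg y + sg y') / 2 - κ * n * ‖y - y'‖ ^ 2 / 8) := by
  set z : E n := (1 / 2 : ℝ) • (y + y') with hz
  have hz1 : ‖z‖ ≤ 1 := by
    rw [hz, norm_smul]
    have : ‖(1 / 2 : ℝ)‖ = 1 / 2 := by norm_num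
    rw [this]
    have := norm_add_le y y'
    linarith
  have hsub : M.C y ∩ M.C y' ⊆ M.C z := by
    intro ω hω
    rw [Finset.mem_inter] at hω
    obtain ⟨h1, h2⟩ := hω
    unfold Mdl.C at h1 h2 ⊢
    rw [Finset.mem_filter] at h1 h2 ⊢
    refine ⟨Finset.mem_univ _, ?_⟩
    rw [hz, real_inner_smul_right, inner_add_right]
    linarith [h1.2, h2.2]
  have hsg : sg z = (sg y + sg y') / 2 + n * ‖y - y'‖ ^ 2 / 8 := by
    unfold sg
    have e1 : ‖z‖ ^ 2 = (1 / 4) * ‖y + y'‖ ^ 2 := by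
      rw [hz, norm_smul]
      have : ‖(1 / 2 : ℝ)‖ = 1 / 2 := by norm_num
      rw [this]; ring
    have e2 := parallelogram_law_with_norm ℝ y y'
    have e3 : ‖y + y'‖ ^ 2 = 2 * ‖y‖ ^ 2 + 2 * ‖y'‖ ^ 2 - ‖y - y'‖ ^ 2 := by
      nlinarith
    rw [e1, e3]; ring
  calc nu M.p (M.C y ∩ M.C y') ≤ nu M.p (M.C z) := nu_mono M.p_nonneg hsub
    _ ≤ Real.exp (1 - κ * sg z) := M.upper z hz1
    _ = _ := by rw [hsg]; congr 1; ring

end Cov
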