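import Vale.Agent.Cov.ObjA23

/-! # [O] the sets to be met for one good point -/

namespace Cov

open MeasureTheory Finset Filter
open scoped RealInnerProductSpace

variable {n : ℕ} {κ ρ c0 C3 : ℝ}

/-- the light set of `t` -/
noncomputable def Lset (M : Mdl n κ ρ c0 C3) (x : E n) (δ : ℝ) (L : Finset (E n)) (t : E n) :
    Finset (Fin M.N) := by
  classical
  exact (M.C (x - t)).filter (fun ω => ∀ t' ∈ L, δ < dist t' t → ω ∉ M.C (x - t'))

/-- the group set of `B` -/
noncomputable def Gset (M : Mdl n κ ρ c0 C3) (x : E n) (B : Finset (E n)) :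
    Finset (Fin M.N) := by
  classical
  exact univ.filter (fun ω => ∀ t ∈ B, ω ∈ M.C (x - t))

theorem Lset_sub (M : Mdl n κ ρ c0 C3) (x : E n) (δ : ℝ) (L : Finset (E n)) (t : E n) :
    Lset M x δ L t ⊆ M.C (x - t) := by
  classical
  exact Finset.filter_subset _ _

theorem Gset_sub (M : Mdl n κ ρ c0 C3) (x : E n) {B : Finset (E n)} {t : E n} (ht : t ∈ B) :
    Gset M x B ⊆ M.C (x - t) := by
  classical
  intro ω hω
  unfold Gset at hω
  rw [Finset.mem_filter] at hω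
  exact hω.2 t ht

theorem hit_mono {Ω : Type} [Fintype Ω] [DecidableEq Ω] {S S' A : Finset Ω} (h : S ⊆ S')
    (hS : Hit S A) : Hit S' A := hS.mono (Finset.inter_subset_inter_left h)

/-- light domination -/
theorem nu_Lset_ge (M : Mdl n κ ρ c0 C3) (hκ : 1 ≤ κ) (hc0 : 0 < c0) (hn : 2 ≤ n)
    (hn2 : 6 / c0 ≤ n) (x : E n) (L : Finset (E n)) (hL1 : ∀ t ∈ L, ‖x - t‖ ≤ 1)
    (hL2 : ∀ t ∈ L, sg (x - t) ≤ 4 * Real.log n) (hcard : (L.card : ℝ) ≤ (n : ℝ) ^ 2)
    {δ : ℝ} (hδ0 : 0 ≤ δ) (hδ : δ ^ 2 = 40 * Real.log n / n) {t : E n} (ht : t ∈ L) :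
    c0 / 2 * Real.exp (-(κ * sg (x - t))) ≤ nu M.p (Lset M x δ L t) := by
  classical
  have hn0 : (0 : ℝ) < n := by
    have : 0 < n := by omega
    exact_mod_cast this
  have hlog : 0 ≤ Real.log n := Real.log_nonneg (by exact_mod_cast (by omega : 1 ≤ n))
  have hsg : ∀ t ∈ L, 0 ≤ sg (x - t) := by
    intro t ht
    unfold sg
    have h1 := hL1 t ht
    have h2 : ‖x - t‖ ^ 2 ≤ 1 := by
      have := norm_nonneg (x - t)
      nlinarith
    apply div_nonneg _ (by norm_num)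
    exact mul_nonneg hn0.le (by linarith)
  have hlow := M.lower (x - t) (hL1 t ht) (hL2 t ht)
  change c0 * Real.exp (-(κ * sg (x - t))) ≤ nu M.p (M.C (x - t)) at hlow
  -- C ⊆ Lset ∪ ⋃ (C ∩ C')
  have hcov : M.C (x - t) ⊆ Lset M x δ L t ∪
      (L.filter (fun t' => δ < dist t' t)).biUnion (fun t' => M.C (x - t) ∩ M.C (x - t')) := by
    intro ω hω
    rw [Finset.mem_union]
    by_cases h : ∀ t' ∈ L, δ < dist t' t → ω ∉ M.C (x - t')
    · left
      unfold Lset
      rw [Finset.mem_filter]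
      exact ⟨hω, h⟩
    · right
      push Not at h
      obtain ⟨t', ht', hd, hωt'⟩ := h
      rw [Finset.mem_biUnion]
      exact ⟨t', Finset.mem_filter.mpr ⟨ht', hd⟩, Finset.mem_inter.mpr ⟨hω, hωt'⟩⟩
  have hnu : nu M.p (M.C (x - t)) ≤ nu M.p (Lset M x δ L t) +
      ∑ t' ∈ L.filter (fun t' => δ < dist t' t), nu M.p (M.C (x - t) ∩ M.C (x - t')) := by
    refine (nu_mono M.p_nonneg hcov).trans ?_
    refine (nu_union_le M.p_nonneg _ _).trans ?_
    exact add_le_add_right (nu_biUnion_le M.p_nonneg _ _) _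
  have hterm : ∀ t' ∈ L.filter (fun t' => δ < dist t' t),
      nu M.p (M.C (x - t) ∩ M.C (x - t')) ≤
        c0 / 2 * Real.exp (-(κ * sg (x - t))) / (n : ℝ) ^ 2 := by
    intro t' ht'
    rw [Finset.mem_filter] at ht'
    have h1 := nu_overlap23 M (x - t) (x - t') (hL1 t ht) (hL1 t' ht'.1)
    refine h1.trans ?_
    have h2 : ‖(x - t) - (x - t')‖ = dist t' t := by
      rw [dist_eq_norm]; congr 1; abel
    rw [h2]
    have h3 : δ ^ 2 ≤ dist t' t ^ 2 := by
      apply pow_le_pow_left₀ hδ0 ht'.2.le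
    have h4 : 5 * κ * Real.log n ≤ κ * n * dist t' t ^ 2 / 8 := by
      rw [hδ] at h3
      have : κ * n * (40 * Real.log n / n) / 8 ≤ κ * n * dist t' t ^ 2 / 8 := by
        apply div_le_div_of_nonneg_right _ (by norm_num)
        exact mul_le_mul_of_nonneg_left h3 (by positivity)
      have e : κ * n * (40 * Real.log n / n) / 8 = 5 * κ * Real.log n := by
        field_simp; ring
      linarith
    have h5 := hsg t' ht'.1
    have h6 := hL2 t ht
    have h7 : 1 - κ * (sg (x - t) + sg (x - t')) / 2 - κ * n * dist t' t ^ 2 / 8 ≤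
        -(κ * sg (x - t)) + (1 - 3 * Real.log n) := by
      have a1 : κ * sg (x - t) ≤ κ * (4 * Real.log n) :=
        mul_le_mul_of_nonneg_left h6 (by linarith)
      have a2 : 0 ≤ κ * sg (x - t') := by positivity
      have a3 : 3 * Real.log n ≤ 3 * κ * Real.log n := by nlinarith
      nlinarith
    refine (Real.exp_le_exp.mpr h7).trans ?_
    rw [Real.exp_add]
    have h8 : Real.exp (1 - 3 * Real.log n) ≤ c0 / 2 / (n : ℝ) ^ 2 := by
      have b1 : Real.exp (1 - 3 * Real.log n) = Real.exp 1 / (n : ℝ) ^ 3 := by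
        rw [Real.exp_sub]
        congr 1
        rw [← Real.rpow_natCast, Real.rpow_def_of_pos hn0]
        congr 1; push_cast; ring
      rw [b1, div_le_div_iff₀ (by positivity) (by positivity)]
      have b2 : Real.exp 1 ≤ 3 := by
        have := Real.exp_one_lt_d9; linarith
      rw [div_le_iff₀ hc0] at hn2
      have : Real.exp 1 * (n : ℝ) ^ 2 ≤ 3 * (n : ℝ) ^ 2 :=
        mul_le_mul_of_nonneg_right b2 (by positivity)
      have b3 : c0 / 2 * (n : ℝ) ^ 3 = (n * c0) / 2 * (n : ℝ) ^ 2 := by ring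
      rw [b3]
      have : 3 * (n : ℝ) ^ 2 ≤ (n * c0) / 2 * (n : ℝ) ^ 2 :=
        mul_le_mul_of_nonneg_right (by linarith) (by positivity)
      linarith
    calc Real.exp (-(κ * sg (x - t))) * Real.exp (1 - 3 * Real.log n)
        ≤ Real.exp (-(κ * sg (x - t))) * (c0 / 2 / (n : ℝ) ^ 2) :=
          mul_le_mul_of_nonneg_left h8 (Real.exp_pos _).le
      _ = _ := by ring
  have hsum : ∑ t' ∈ L.filter (fun t' => δ < dist t' t), nu M.p (M.C (x - t) ∩ M.C (x - t'))
      ≤ c0 / 2 * Real.exp (-(κ * sg (x - t))) := by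
    refine (Finset.sum_le_card_nsmul _ _ _ hterm).trans ?_
    rw [nsmul_eq_mul]
    have hc : ((L.filter (fun t' => δ < dist t' t)).card : ℝ) ≤ (n : ℝ) ^ 2 := by
      refine le_trans ?_ hcard
      exact_mod_cast Finset.card_filter_le _ _
    have hpos : 0 ≤ c0 / 2 * Real.exp (-(κ * sg (x - t))) / (n : ℝ) ^ 2 := by positivity
    refine (mul_le_mul_of_nonneg_right hc hpos).trans (le_of_eq ?_)
    field_simp
  linarith

/-- group lower bound -/
theorem nu_Gset_ge (M : Mdl n κ ρ c0 C3) (x : E n) (B : Finset (E n))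
    (hB1 : ∀ t ∈ B, ‖x - t‖ ≤ 1) (hB2 : ∀ t ∈ B, sg (x - t) ≤ 4 * Real.log n)
    (hcard : (B.card : ℝ) ≤ (n : ℝ) ^ 2) {δ : ℝ} (hδ0 : 0 ≤ δ)
    (hδ : δ ^ 2 = 40 * Real.log n / n) {t0 : E n} (ht0 : t0 ∈ B)
    (hd : ∀ t ∈ B, dist t t0 ≤ δ) :
    (n : ℝ) ^ (-C3) ≤ nu M.p (Gset M x B) := by
  classical
  have h := M.group (x - t0) (B.image (fun t => x - t)) (Finset.mem_image_of_mem _ ht0) ?_ ?_
  · refine h.trans (nu_mono M.p_nonneg ?_)
    intro ω hω
    rw [Finset.mem_filter] at hω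
    unfold Gset
    rw [Finset.mem_filter]
    refine ⟨Finset.mem_univ _, fun t ht => ?_⟩
    unfold Mdl.C
    rw [Finset.mem_filter]
    exact ⟨Finset.mem_univ _, hω.2 _ (Finset.mem_image_of_mem _ ht)⟩
  · refine le_trans ?_ hcard
    exact_mod_cast Finset.card_image_le
  · intro y hy
    rw [Finset.mem_image] at hy
    obtain ⟨t, ht, rfl⟩ := hy
    refine ⟨hB1 t ht, hB2 t ht, ?_⟩
    have h2 : ‖(x - t) - (x - t0)‖ = dist t t0 := by
      rw [dist_comm, dist_eq_norm]; congr 1; abel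
    rw [h2, ← hδ]
    exact pow_le_pow_left₀ dist_nonneg (hd t ht) 2

end Cov
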