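import Vale.Agent.Cov.Prob

set_option linter.unusedSectionVars false

/-! # [PP] pair correlation bound, second moment, independent blocks -/

namespace Cov

open MeasureTheory Finset
open scoped RealInnerProductSpace

variable {Ω : Type} [Fintype Ω] [DecidableEq Ω] {p : Ω → ℝ}

/-- Conditioning on `A ∩ S = W`; `h` bounds from below the product of the hitting
probabilities of the sets containing a given point. -/
theorem pair_bound (hp0 : ∀ ω, 0 ≤ p ω) (hp1 : ∀ ω, p ω ≤ 1) (F F' : Finset (Finset Ω))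
    (S : Finset Ω) (hS : ∀ B ∈ F, ∀ B' ∈ F', B ∩ B' ⊆ S) {h : ℝ} (hh : 0 < h)
    (hF : ∀ ω, h ≤ ∏ B ∈ F.filter (fun B => ω ∈ B), Pr p (Hit B))
    (hF' : ∀ ω, h ≤ ∏ B ∈ F'.filter (fun B => ω ∈ B), Pr p (Hit B)) :
    Pr p (fun A => Hits F A ∧ Hits F' A)
      ≤ Pr p (Hits F) * Pr p (Hits F') * Real.exp (nu p S / h ^ 2) := by
  classical
  have hPr : ∀ B : Finset Ω, CovB.Pr p (CovB.hit B) = Pr p (Hit B) := fun B =>
    (Pr_eq_bern _).symm
  rcases isEmpty_or_nonempty Ω with hE | ⟨⟨ω0⟩⟩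
  · -- no points at all: everything is deterministic
    have hS0 : S = ∅ := Finset.eq_empty_of_isEmpty S
    have hnu : nu p S = 0 := by rw [hS0]; simp [nu]
    rw [hnu, zero_div, Real.exp_zero, mul_one]
    have hind := Pr_indep (p := p) (D := ∅) (D' := ∅) (F := Hits F) (G := Hits F')
      (Finset.disjoint_empty_left _)
      (fun A => by rw [Finset.eq_empty_of_isEmpty A]; simp)
      (fun A => by rw [Finset.eq_empty_of_isEmpty A]; simp)
    exact hind.le
  have hle1 : ∀ (G : Finset (Finset Ω)), ∏ B ∈ G, Pr p (Hit B) ≤ 1 := fun G =>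
    Finset.prod_le_one (fun B _ => Pr_nonneg hp0 hp1 _) fun B _ => Pr_le_one hp0 hp1 _
  have hh1 : h ≤ 1 := (hF ω0).trans (hle1 _)
  set L := -Real.log h with hLdef
  have hL0 : 0 ≤ L := by
    have := Real.log_nonpos hh.le hh1
    linarith
  have heL : Real.exp (-L) = h := by
    rw [hLdef, neg_neg, Real.exp_log hh]
  have he2L : Real.exp (2 * L) = 1 / h ^ 2 := by
    have : Real.exp (2 * L) = (Real.exp (-L) ^ 2)⁻¹ := by
      rw [← Real.exp_nat_mul, ← Real.exp_neg]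
      congr 1
      push_cast
      ring
    rw [this, heL, one_div]
  have key := CovB.two_point hp0 hp1 F F' S hS hL0
    (fun ω => by
      rw [heL]
      refine (hF ω).trans (le_of_eq ?_)
      exact Finset.prod_congr rfl fun B _ => (hPr B).symm)
    (fun ω => by
      rw [heL]
      refine (hF' ω).trans (le_of_eq ?_)
      exact Finset.prod_congr rfl fun B _ => (hPr B).symm)
  rw [Pr_eq_bern, Pr_eq_bern, Pr_eq_bern]
  rw [he2L, mul_one_div] at key
  exact key

/-- Second moment method in one block. -/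
theorem block (hp0 : ∀ ω, 0 ≤ p ω) (hp1 : ∀ ω, p ω ≤ 1) {ι : Type} (X : Finset ι)
    (hX : X.Nonempty) (F : ι → Finset (Finset Ω))
    (h1 : ∀ x ∈ X, 1 / (X.card : ℝ) ≤ Pr p (Hits (F x)))
    (h2 : ∀ x ∈ X, ∀ y ∈ X, x ≠ y →
      Pr p (fun A => Hits (F x) A ∧ Hits (F y) A)
        ≤ Real.exp 1 * (Pr p (Hits (F x)) * Pr p (Hits (F y)))) :
    1 / 4 ≤ Pr p (fun A => ∃ x ∈ X, Hits (F x) A) := by
  classical
  have hcard : (0 : ℝ) < X.card := by
    exact_mod_cast hX.card_pos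
  have hsum : 1 ≤ ∑ x ∈ X, CovB.Pr p (CovB.hitAll (F x)) := by
    have h3 : ∑ x ∈ X, (1 / (X.card : ℝ)) ≤ ∑ x ∈ X, CovB.Pr p (CovB.hitAll (F x)) := by
      refine Finset.sum_le_sum fun x hx => ?_
      have := h1 x hx
      rw [Pr_eq_bern] at this
      exact this
    rw [Finset.sum_const, nsmul_eq_mul, mul_one_div, div_self hcard.ne'] at h3
    exact h3
  have key := CovB.second_moment hp0 hp1 X (fun x => CovB.hitAll (F x))
    (Real.exp_pos 1).le
    (fun x hx y hy hxy => by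
      have := h2 x hx y hy hxy
      rw [Pr_eq_bern, Pr_eq_bern, Pr_eq_bern] at this
      exact this) hsum
  rw [Pr_eq_bern]
  have h4 : {A : Finset Ω | ∃ x ∈ X, Hits (F x) A} = ⋃ x ∈ X, CovB.hitAll (F x) := by
    ext A
    simp only [Set.mem_iUnion, exists_prop]
    rfl
  rw [h4]
  refine le_trans ?_ key
  have := Real.exp_one_lt_d9
  refine one_div_le_one_div_of_le (by positivity) ?_
  linarith

/-- Independent blocks. -/
theorem blocks (hp0 : ∀ ω, 0 ≤ p ω) (hp1 : ∀ ω, p ω ≤ 1) {ι l : Type} [DecidableEq l]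
    (L : Finset l) (X : l → Finset ι)
    (F : l → ι → Finset (Finset Ω)) (D : l → Finset Ω)
    (hD : ∀ i ∈ L, ∀ j ∈ L, i ≠ j → Disjoint (D i) (D j))
    (hF : ∀ i ∈ L, ∀ x ∈ X i, ∀ B ∈ F i x, B ⊆ D i)
    (h : ∀ i ∈ L, 1 / 4 ≤ Pr p (fun A => ∃ x ∈ X i, Hits (F i x) A)) :
    Pr p (fun A => ∀ i ∈ L, ¬ ∃ x ∈ X i, Hits (F i x) A) ≤ (3 / 4) ^ L.card := by
  classical
  rw [Pr_eq_bern]
  have h1 : {A : Finset Ω | ∀ i ∈ L, ¬ ∃ x ∈ X i, Hits (F i x) A} =
      ⋂ i ∈ L, {A | ¬ ∃ x ∈ X i, Hits (F i x) A} := by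
    ext A
    simp
  rw [h1, CovB.Pr_biInter_of_dep L _ D _ hD]
  · rw [← Finset.prod_const]
    refine Finset.prod_le_prod (fun i _ => CovB.Pr_nonneg hp0 hp1 _) fun i hi => ?_
    have h2 := h i hi
    have h3 := Pr_compl (p := p) (fun A => ∃ x ∈ X i, Hits (F i x) A)
    rw [Pr_eq_bern] at h3
    rw [h3]
    linarith
  · intro i hi A B hAB
    change (¬ ∃ x ∈ X i, Hits (F i x) A) ↔ (¬ ∃ x ∈ X i, Hits (F i x) B)
    refine not_congr (exists_congr fun x => and_congr_right fun hx => ?_)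
    exact CovB.dep_hitAll (F i x) (fun E hE => hF i hi x hx E hE) A B hAB

end Cov
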