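import Vale.Agent.Cov.Defs
import Vale.Agent.Cov.Bern

set_option linter.unusedSectionVars false

/-! # [P] basic facts on the random subset, Harris inequality -/

namespace Cov

open MeasureTheory Finset
open scoped RealInnerProductSpace

variable {Ω : Type} [Fintype Ω] [DecidableEq Ω] {p : Ω → ℝ}

/-! Bridge to the file `Bern`. -/

theorem wt_eq_bern (A : Finset Ω) : wt p A = CovB.wt p A := by
  unfold wt CovB.wt
  rw [Finset.prod_ite]
  congr 1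
  · refine Finset.prod_congr ?_ fun _ _ => rfl
    ext ω; simp
  · refine Finset.prod_congr ?_ fun _ _ => rfl
    ext ω; simp

theorem Ex_eq_bern (f : Finset Ω → ℝ) : Ex p f = CovB.Ex p f := by
  unfold Ex CovB.Ex
  exact Finset.sum_congr rfl fun A _ => by rw [wt_eq_bern]

theorem Pr_eq_bern (F : Finset Ω → Prop) : Pr p F = CovB.Pr p {A | F A} := by
  classical
  unfold Pr
  rw [Ex_eq_bern, ← CovB.Ex_indicator]
  congr 1

theorem Hits_eq_bern (F : Finset (Finset Ω)) : {A | Hits F A} = CovB.hitAll F := rfl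

theorem Hit_eq_bern (S : Finset Ω) : {A | Hit S A} = CovB.hit S := rfl

theorem nu_eq_bern (S : Finset Ω) : nu p S = CovB.mass p S := rfl

theorem wt_nonneg (hp0 : ∀ ω, 0 ≤ p ω) (hp1 : ∀ ω, p ω ≤ 1) (A : Finset Ω) : 0 ≤ wt p A := by
  rw [wt_eq_bern]
  exact CovB.wt_nonneg hp0 hp1 A

theorem wt_sum : ∑ A : Finset Ω, wt p A = 1 := by
  rw [← CovB.sum_wt (p := p)]
  exact Finset.sum_congr rfl fun A _ => wt_eq_bern A

theorem Ex_add (f g : Finset Ω → ℝ) : Ex p (fun A => f A + g A) = Ex p f + Ex p g := by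
  unfold Ex
  rw [← Finset.sum_add_distrib]
  exact Finset.sum_congr rfl fun A _ => by ring

theorem Ex_mul_left (c : ℝ) (f : Finset Ω → ℝ) : Ex p (fun A => c * f A) = c * Ex p f := by
  unfold Ex
  rw [Finset.mul_sum]
  exact Finset.sum_congr rfl fun A _ => by ring

theorem Ex_sum {ι : Type} (s : Finset ι) (f : ι → Finset Ω → ℝ) :
    Ex p (fun A => ∑ i ∈ s, f i A) = ∑ i ∈ s, Ex p (f i) := by
  unfold Ex
  rw [Finset.sum_comm]
  exact Finset.sum_congr rfl fun A _ => by rw [Finset.mul_sum]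

theorem Ex_const (c : ℝ) : Ex p (fun _ => c) = c := by
  unfold Ex
  rw [← Finset.sum_mul, wt_sum, one_mul]

theorem Ex_mono (hp0 : ∀ ω, 0 ≤ p ω) (hp1 : ∀ ω, p ω ≤ 1) {f g : Finset Ω → ℝ}
    (h : ∀ A, f A ≤ g A) : Ex p f ≤ Ex p g :=
  Finset.sum_le_sum fun A _ => mul_le_mul_of_nonneg_left (h A) (wt_nonneg hp0 hp1 A)

theorem Pr_nonneg (hp0 : ∀ ω, 0 ≤ p ω) (hp1 : ∀ ω, p ω ≤ 1) (F : Finset Ω → Prop) :
    0 ≤ Pr p F := by
  rw [Pr_eq_bern]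
  exact CovB.Pr_nonneg hp0 hp1 _

theorem Pr_le_one (hp0 : ∀ ω, 0 ≤ p ω) (hp1 : ∀ ω, p ω ≤ 1) (F : Finset Ω → Prop) :
    Pr p F ≤ 1 := by
  rw [Pr_eq_bern]
  exact CovB.Pr_le_one hp0 hp1 _

theorem Pr_mono (hp0 : ∀ ω, 0 ≤ p ω) (hp1 : ∀ ω, p ω ≤ 1) {F G : Finset Ω → Prop}
    (h : ∀ A, F A → G A) : Pr p F ≤ Pr p G := by
  rw [Pr_eq_bern, Pr_eq_bern]
  exact CovB.Pr_mono hp0 hp1 fun A hA => h A hA

theorem Pr_compl (F : Finset Ω → Prop) : Pr p (fun A => ¬ F A) = 1 - Pr p F := by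
  rw [Pr_eq_bern, Pr_eq_bern]
  exact CovB.Pr_compl _

/-- Union bound. -/
theorem Pr_exists_le (hp0 : ∀ ω, 0 ≤ p ω) (hp1 : ∀ ω, p ω ≤ 1) {ι : Type} (s : Finset ι)
    (F : ι → Finset Ω → Prop) : Pr p (fun A => ∃ i ∈ s, F i A) ≤ ∑ i ∈ s, Pr p (F i) := by
  rw [Pr_eq_bern]
  have h1 : {A : Finset Ω | ∃ i ∈ s, F i A} = ⋃ i ∈ s, {A | F i A} := by
    ext A
    simp
  rw [h1]
  refine (CovB.Pr_biUnion_le hp0 hp1 s _).trans (le_of_eq ?_)
  exact Finset.sum_congr rfl fun i _ => (Pr_eq_bern _).symm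

theorem dep_of_iff {D : Finset Ω} {F : Finset Ω → Prop} (hF : ∀ A, F A ↔ F (A ∩ D)) :
    CovB.Dep {A | F A} D := by
  intro A B hAB
  change F A ↔ F B
  rw [hF A, hF B, hAB]

/-- Events depending on disjoint sets of coordinates are independent. -/
theorem Pr_indep {D D' : Finset Ω} (hD : Disjoint D D') {F G : Finset Ω → Prop}
    (hF : ∀ A, F A ↔ F (A ∩ D)) (hG : ∀ A, G A ↔ G (A ∩ D')) :
    Pr p (fun A => F A ∧ G A) = Pr p F * Pr p G := by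
  rw [Pr_eq_bern, Pr_eq_bern, Pr_eq_bern]
  exact CovB.Pr_inter_of_dep (dep_of_iff hF) (dep_of_iff hG) hD

theorem Pr_miss (S : Finset Ω) : Pr p (fun A => ¬ Hit S A) = ∏ ω ∈ S, (1 - p ω) := by
  rw [Pr_eq_bern]
  exact CovB.Pr_miss S

theorem Pr_hit_ge (hp0 : ∀ ω, 0 ≤ p ω) (hp1 : ∀ ω, p ω ≤ 1) (S : Finset Ω) :
    1 - Real.exp (-(nu p S)) ≤ Pr p (Hit S) := by
  rw [Pr_eq_bern]
  exact CovB.one_sub_exp_le_Pr_hit hp1 S

theorem Pr_hit_ge' (hp0 : ∀ ω, 0 ≤ p ω) (hp1 : ∀ ω, p ω ≤ 1) (S : Finset Ω) {c : ℝ}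
    (hc0 : 0 ≤ c) (hc1 : c ≤ 1) (hc : c ≤ nu p S) : c / 2 ≤ Pr p (Hit S) := by
  rw [Pr_eq_bern]
  exact CovB.half_le_Pr_hit hp1 S hc0 hc1 hc

/-- Harris inequality. -/
theorem harris (hp0 : ∀ ω, 0 ≤ p ω) (hp1 : ∀ ω, p ω ≤ 1) {f g : Finset Ω → ℝ}
    (hf : Monotone f) (hg : Monotone g) :
    Ex p f * Ex p g ≤ Ex p (fun A => f A * g A) := by
  -- shift both functions to be nonnegative
  set f' : Finset Ω → ℝ := fun A => f A + -f ∅ with hf'
  set g' : Finset Ω → ℝ := fun A => g A + -g ∅ with hg'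
  have hf0 : ∀ A, 0 ≤ f' A := fun A => by
    have := hf (Finset.empty_subset A)
    simp only [hf']; linarith
  have hg0 : ∀ A, 0 ≤ g' A := fun A => by
    have := hg (Finset.empty_subset A)
    simp only [hg']; linarith
  have h := fkg (α := Finset Ω) (β := ℝ) (μ := CovB.wt p) (f := f') (g := g')
    (fun A => CovB.wt_nonneg hp0 hp1 A) hf0 hg0
    (fun A B hAB => by simp only [hf']; linarith [hf hAB])
    (fun A B hAB => by simp only [hg']; linarith [hg hAB])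
    (fun A B => (CovB.wt_mul A B).le)
  rw [CovB.sum_wt, one_mul] at h
  have e0 : ∀ u : Finset Ω → ℝ, ∑ A, CovB.wt p A * u A = Ex p u := fun u => (Ex_eq_bern u).symm
  rw [e0, e0, e0] at h
  have e1 : Ex p f' = Ex p f + -f ∅ := by
    rw [hf', Ex_add, Ex_const]
  have e2 : Ex p g' = Ex p g + -g ∅ := by
    rw [hg', Ex_add, Ex_const]
  have e3 : Ex p (fun A => f' A * g' A) =
      Ex p (fun A => f A * g A) + (-g ∅ * Ex p f + (-f ∅ * Ex p g + f ∅ * g ∅)) := by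
    have : (fun A => f' A * g' A) =
        fun A => f A * g A + (-g ∅ * f A + (-f ∅ * g A + f ∅ * g ∅)) := by
      funext A
      simp only [hf', hg']
      ring
    rw [this, Ex_add, Ex_add, Ex_add, Ex_mul_left, Ex_mul_left, Ex_const]
  rw [e1, e2, e3] at h
  nlinarith

theorem Pr_hits_mul (hp0 : ∀ ω, 0 ≤ p ω) (hp1 : ∀ ω, p ω ≤ 1) (F G : Finset (Finset Ω)) :
    Pr p (Hits F) * Pr p (Hits G) ≤ Pr p (Hits (F ∪ G)) := by
  rw [Pr_eq_bern, Pr_eq_bern, Pr_eq_bern, Hits_eq_bern, Hits_eq_bern, Hits_eq_bern,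
    CovB.hitAll_union_inter]
  exact CovB.harris hp0 hp1 (CovB.isUpperSet_hitAll F) (CovB.isUpperSet_hitAll G)

theorem Pr_hits_ge (hp0 : ∀ ω, 0 ≤ p ω) (hp1 : ∀ ω, p ω ≤ 1) (F : Finset (Finset Ω)) :
    ∏ S ∈ F, Pr p (Hit S) ≤ Pr p (Hits F) := by
  rw [Pr_eq_bern, Hits_eq_bern]
  refine le_trans (le_of_eq ?_) (CovB.prod_le_Pr_hitAll hp0 hp1 F)
  exact Finset.prod_congr rfl fun S _ => Pr_eq_bern _

end Cov
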