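import Vale.Agent.Cov.Dens
import Vale.Agent.Cov.Defs

/-! # [R2] rounding of centers to the grid; the body is a convex body -/

namespace Cov

open MeasureTheory Finset Filter
open scoped RealInnerProductSpace Pointwise

/-- locally finite: every cube contains finitely many points -/
def LocFin {n : ℕ} (X : Set (E n)) : Prop := ∀ R : ℝ, (X ∩ QR n R).Finite

variable {n : ℕ} {κ ρ c0 C3 : ℝ}

theorem Mdl.b_nonneg (M : Mdl n κ ρ c0 C3) (ω : Fin M.N) : 0 ≤ M.b ω := by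
  have h1 := M.a_le ω
  have h2 := norm_nonneg (M.a ω)
  linarith

theorem Mdl.convex_K (M : Mdl n κ ρ c0 C3) (A : Finset (Fin M.N)) : Convex ℝ (M.K A) := by
  intro x hx y hy s t hs ht hst
  refine ⟨?_, fun ω hω => ?_⟩
  · have h1 : ‖s • x + t • y‖ ≤ s * ‖x‖ + t * ‖y‖ := by
      refine (norm_add_le _ _).trans ?_
      rw [norm_smul, norm_smul, Real.norm_of_nonneg hs, Real.norm_of_nonneg ht]
    nlinarith [hx.1, hy.1]
  · rw [inner_add_right, inner_smul_right, inner_smul_right]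
    have h1 := mul_le_mul_of_nonneg_left (hx.2 ω hω) hs
    have h2 := mul_le_mul_of_nonneg_left (hy.2 ω hω) ht
    calc s * ⟪M.a ω, x⟫ + t * ⟪M.a ω, y⟫ ≤ s * M.b ω + t * M.b ω := add_le_add h1 h2
      _ = M.b ω := by rw [← add_mul, hst, one_mul]

theorem Mdl.isClosed_K (M : Mdl n κ ρ c0 C3) (A : Finset (Fin M.N)) : IsClosed (M.K A) := by
  have h : M.K A = {y | ‖y‖ ≤ 1} ∩ ⋂ ω ∈ A, {y | ⟪M.a ω, y⟫ ≤ M.b ω} := by
    ext y; simp [Mdl.K]
  rw [h]
  refine (isClosed_le continuous_norm continuous_const).inter ?_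
  refine isClosed_biInter fun ω _ => ?_
  exact isClosed_le (continuous_const.inner continuous_id) continuous_const

theorem Mdl.isCompact_K (M : Mdl n κ ρ c0 C3) (A : Finset (Fin M.N)) : IsCompact (M.K A) := by
  refine (isCompact_closedBall (0 : E n) 1).of_isClosed_subset (M.isClosed_K A) ?_
  intro y hy
  rw [mem_closedBall_zero_iff]
  exact hy.1

theorem Mdl.ball_subset_K (M : Mdl n κ ρ c0 C3) (A : Finset (Fin M.N)) :
    Metric.ball (0 : E n) (3 / 4) ⊆ M.K A := by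
  intro y hy
  rw [mem_ball_zero_iff] at hy
  refine ⟨by linarith, fun ω _ => ?_⟩
  have h1 : ⟪M.a ω, y⟫ ≤ ‖M.a ω‖ * ‖y‖ := real_inner_le_norm _ _
  have h2 : ‖M.a ω‖ * ‖y‖ ≤ ‖M.a ω‖ * (3 / 4) := by gcongr
  have h3 := M.a_le ω
  linarith

/-- convexity, compactness, nonempty interior of the body -/
theorem body (M : Mdl n κ ρ c0 C3) (A : Finset (Fin M.N))
    (s : ℝ) (hs : 0 < s) :
    Convex ℝ (s • M.K A) ∧ IsCompact (s • M.K A) ∧ (interior (s • M.K A)).Nonempty := by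
  refine ⟨(M.convex_K A).smul s, (M.isCompact_K A).smul s, ?_⟩
  rw [interior_smul₀ hs.ne']
  refine Set.Nonempty.smul_set ?_
  exact ⟨0, interior_mono (M.ball_subset_K A)
    (by rw [Metric.isOpen_ball.interior_eq]; exact Metric.mem_ball_self (by norm_num))⟩

/-- coordinatewise rounding down to the grid -/
noncomputable def rnd (n : ℕ) (t : E n) : E n :=
  WithLp.toLp 2 fun i => (⌊t i * (Real.sqrt n * (n : ℝ) ^ 5)⌋ : ℝ) / (Real.sqrt n * (n : ℝ) ^ 5)

theorem rnd_mem (t : E n) : rnd n t ∈ Grid n := fun _ => ⟨_, rfl⟩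

theorem rnd_sub (hn : 1 ≤ n) (t : E n) (i : Fin n) :
    0 ≤ t i - rnd n t i ∧ t i - rnd n t i ≤ 1 / (Real.sqrt n * (n : ℝ) ^ 5) := by
  have hn0 : (0 : ℝ) < n := by exact_mod_cast hn
  have hL : 0 < Real.sqrt n * (n : ℝ) ^ 5 := by positivity
  have h1 := Int.floor_le (t i * (Real.sqrt n * (n : ℝ) ^ 5))
  have h2 := Int.lt_floor_add_one (t i * (Real.sqrt n * (n : ℝ) ^ 5))
  have h3 : rnd n t i = (⌊t i * (Real.sqrt n * (n : ℝ) ^ 5)⌋ : ℝ) / (Real.sqrt n * (n : ℝ) ^ 5) :=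
    rfl
  rw [h3]
  constructor
  · rw [sub_nonneg, div_le_iff₀ hL]; exact h1
  · rw [sub_le_iff_le_add, ← add_div, le_div_iff₀ hL]; linarith

theorem norm_rnd_sub (hn : 1 ≤ n) (t : E n) : ‖t - rnd n t‖ ≤ 1 / (n : ℝ) ^ 5 := by
  have hn0 : (0 : ℝ) < n := by exact_mod_cast hn
  have hL : 0 < Real.sqrt n * (n : ℝ) ^ 5 := by positivity
  have h1 : ‖t - rnd n t‖ ^ 2 ≤ (1 / (n : ℝ) ^ 5) ^ 2 := by
    rw [EuclideanSpace.norm_sq_eq]
    calc ∑ i, ‖(t - rnd n t) i‖ ^ 2 ≤ ∑ _i : Fin n, (1 / (Real.sqrt n * (n : ℝ) ^ 5)) ^ 2 := by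
          refine Finset.sum_le_sum fun i _ => ?_
          have h2 := rnd_sub hn t i
          have h3 : (t - rnd n t) i = t i - rnd n t i := rfl
          rw [h3, Real.norm_of_nonneg h2.1]
          exact pow_le_pow_left₀ h2.1 h2.2 2
      _ = (1 / (n : ℝ) ^ 5) ^ 2 := by
          rw [Finset.sum_const, Finset.card_univ, Fintype.card_fin, nsmul_eq_mul]
          rw [div_pow, mul_pow, Real.sq_sqrt hn0.le]
          field_simp
  exact le_of_sq_le_sq h1 (by positivity)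

theorem mem_K_of_round (hn : 2 ≤ n) (M : Mdl n κ ρ c0 C3) (A : Finset (Fin M.N)) (y e : E n)
    (hy : y ∈ (1 / (1 + 2 / (n : ℝ) ^ 5)) • M.K A) (he : ‖e‖ ≤ 1 / (n : ℝ) ^ 5) :
    y + e ∈ M.K A := by
  obtain ⟨z, hz, rfl⟩ := hy
  have hn2 : (2 : ℝ) ≤ n := by exact_mod_cast hn
  have hn0 : (0 : ℝ) < (n : ℝ) ^ 5 := by positivity
  have hn5 : (32 : ℝ) ≤ (n : ℝ) ^ 5 := by
    calc (32 : ℝ) = 2 ^ 5 := by norm_num
      _ ≤ (n : ℝ) ^ 5 := pow_le_pow_left₀ (by norm_num) hn2 5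
  set h : ℝ := 1 / (n : ℝ) ^ 5 with hh
  have hh0 : 0 < h := by positivity
  have hh1 : h ≤ 1 / 32 := by
    rw [hh]; exact one_div_le_one_div_of_le (by norm_num) hn5
  have h2h : 2 / (n : ℝ) ^ 5 = 2 * h := by rw [hh]; ring
  rw [h2h]
  set s : ℝ := 1 / (1 + 2 * h) with hs
  have hs0 : 0 < s := by positivity
  have hs1 : s * (1 + 2 * h) = 1 := by rw [hs]; field_simp
  have hs2 : s + 4 / 3 * h ≤ 1 := by nlinarith
  refine ⟨?_, fun ω hω => ?_⟩
  · have h1 : ‖s • z + e‖ ≤ s * ‖z‖ + ‖e‖ := by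
      refine (norm_add_le _ _).trans ?_
      rw [norm_smul, Real.norm_of_nonneg hs0.le]
    have h2 : s * ‖z‖ ≤ s := by nlinarith [hz.1, norm_nonneg z]
    linarith
  · rw [inner_add_right, inner_smul_right]
    have h1 := hz.2 ω hω
    have h2 : ⟪M.a ω, e⟫ ≤ ‖M.a ω‖ * ‖e‖ := real_inner_le_norm _ _
    have h3 := M.a_le ω
    have hb := M.b_nonneg ω
    have h4 : ‖M.a ω‖ * ‖e‖ ≤ 4 / 3 * M.b ω * h := by
      apply mul_le_mul h3 he (norm_nonneg _) (by positivity)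
    have h5 : s * ⟪M.a ω, z⟫ ≤ s * M.b ω := by gcongr
    nlinarith

theorem QR_rnd (hn : 1 ≤ n) (t : E n) (R : ℝ) (h : rnd n t ∈ QR n R) : t ∈ QR n (R + 1) := by
  have hn1 : (1 : ℝ) ≤ n := by exact_mod_cast hn
  intro i
  have h1 := rnd_sub hn t i
  have h2 : (1 : ℝ) / (Real.sqrt n * (n : ℝ) ^ 5) ≤ 1 := by
    have h3 : 1 ≤ Real.sqrt n := Real.one_le_sqrt.2 hn1
    have h4 : (1 : ℝ) ≤ (n : ℝ) ^ 5 := one_le_pow₀ hn1
    rw [div_le_one (by positivity)]
    nlinarith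
  have h5 := h i
  rw [abs_le] at h5 ⊢
  constructor <;> linarith [h5.1, h5.2, h1.1, h1.2]

theorem dens_rnd_le (hn : 1 ≤ n) (X : Set (E n)) (hX : LocFin X) :
    dens (rnd n '' X) ≤ dens X := by
  unfold dens
  set u : ℝ → ENNReal := fun R => ((X ∩ QR n R).ncard : ENNReal) / ENNReal.ofReal ((2 * R) ^ n)
    with hu
  set v : ℝ → ENNReal := fun R => ENNReal.ofReal (((R + 1) / R) ^ n) with hv
  have h1 : ∀ᶠ R : ℝ in atTop, ((rnd n '' X ∩ QR n R).ncard : ENNReal)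
      / ENNReal.ofReal ((2 * R) ^ n) ≤ u (R + 1) * v R := by
    filter_upwards [eventually_gt_atTop (0 : ℝ)] with R hR
    have hsub : rnd n '' X ∩ QR n R ⊆ rnd n '' (X ∩ QR n (R + 1)) := by
      rintro _ ⟨⟨t, ht, rfl⟩, h⟩
      exact ⟨t, ⟨ht, QR_rnd hn t R h⟩, rfl⟩
    have h2 : (rnd n '' X ∩ QR n R).ncard ≤ (X ∩ QR n (R + 1)).ncard :=
      (Set.ncard_le_ncard hsub ((hX _).image _)).trans (Set.ncard_image_le (hX _))
    have h3 : (0 : ℝ) < (2 * R) ^ n := by positivity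
    have h4 : (0 : ℝ) < (2 * (R + 1)) ^ n := by positivity
    have h5 : u (R + 1) * v R = ((X ∩ QR n (R + 1)).ncard : ENNReal)
        / ENNReal.ofReal ((2 * R) ^ n) := by
      simp only [hu, hv]
      rw [ENNReal.div_eq_inv_mul, ENNReal.div_eq_inv_mul, mul_right_comm]
      congr 1
      rw [← ENNReal.ofReal_inv_of_pos h4, ← ENNReal.ofReal_inv_of_pos h3,
        ← ENNReal.ofReal_mul (by positivity)]
      congr 1
      rw [div_pow, mul_pow, mul_pow]
      field_simp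
    rw [h5]
    gcongr
  have hvt : Tendsto v atTop (nhds 1) := by
    have h2 : Tendsto (fun R : ℝ => (R + 1) / R) atTop (nhds 1) := by
      have h3 : Tendsto (fun R : ℝ => 1 + R⁻¹) atTop (nhds (1 + 0)) :=
        tendsto_const_nhds.add tendsto_inv_atTop_zero
      rw [add_zero] at h3
      refine h3.congr' ?_
      filter_upwards [eventually_gt_atTop (0 : ℝ)] with R hR
      field_simp
    have h4 := (h2.pow n)
    rw [one_pow] at h4
    have h5 := ENNReal.tendsto_ofReal h4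
    rwa [ENNReal.ofReal_one] at h5
  have hvl : limsup v atTop = 1 := hvt.limsup_eq
  calc limsup (fun R : ℝ => ((rnd n '' X ∩ QR n R).ncard : ENNReal)
      / ENNReal.ofReal ((2 * R) ^ n)) atTop
      ≤ limsup ((fun R => u (R + 1)) * v) atTop := limsup_le_limsup h1
    _ ≤ limsup (fun R => u (R + 1)) atTop * limsup v atTop :=
        ENNReal.limsup_mul_le' (Or.inr (by rw [hvl]; exact ENNReal.one_ne_top))
          (Or.inr (by rw [hvl]; exact one_ne_zero))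
    _ = limsup (fun R => u (R + 1)) atTop := by rw [hvl, mul_one]
    _ ≤ limsup u atTop := by
        have h6 : Tendsto (fun R : ℝ => R + 1) atTop atTop := tendsto_atTop_add_const_right _ _ tendsto_id
        exact limsup_le_limsup_of_le (u := u) h6 

/-- rounding of the centers to the grid -/
theorem round_grid (n : ℕ) (hn : 2 ≤ n) {κ ρ c0 C3 : ℝ} (M : Mdl n κ ρ c0 C3)
    (A : Finset (Fin M.N)) (X : Set (E n)) (hX : LocFin X)
    (hcov : ∀ x : E n, ∃ t ∈ X, x - t ∈ (1 / (1 + 2 / (n : ℝ) ^ 5)) • M.K A) :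
    ∃ X' : Set (E n), X' ⊆ Grid n ∧ LocFin X' ∧ dens X' ≤ dens X ∧
      ∀ x : E n, ∃ t ∈ X', x - t ∈ M.K A := by
  refine ⟨rnd n '' X, ?_, ?_, dens_rnd_le (by omega) X hX, ?_⟩
  · rintro _ ⟨t, -, rfl⟩
    exact rnd_mem t
  · intro R
    refine ((hX (R + 1)).image (rnd n)).subset ?_
    rintro _ ⟨⟨t, ht, rfl⟩, h⟩
    exact ⟨t, ⟨ht, QR_rnd (by omega) t R h⟩, rfl⟩
  · intro x
    obtain ⟨t, ht, h⟩ := hcov x
    refine ⟨rnd n t, ⟨t, ht, rfl⟩, ?_⟩
    have h1 := mem_K_of_round hn M A (x - t) (t - rnd n t) h (norm_rnd_sub (by omega) t)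
    have h2 : x - t + (t - rnd n t) = x - rnd n t := by abel
    rwa [h2] at h1

end Cov
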