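import Vale.Agent.Cov.Vol
import Vale.Agent.Cov.BlkBase
import Vale.Agent.Cov.Dens
import Vale.Agent.Cov.Red26
import Vale.Agent.Cov.FixedA

/-! # [R1] a good tile: averaging over the tiles of side `1/√n` -/

namespace Cov

open MeasureTheory Finset Filter
open scoped RealInnerProductSpace Pointwise ENNReal

/-- corner of a tile -/
noncomputable def zc (n N : ℕ) (k : Fin n → Fin (2 * N)) : E n :=
  WithLp.toLp 2 fun i => ((((k i : ℕ) : ℝ)) - N) * (1 / Real.sqrt n)

theorem zc_apply (n N : ℕ) (k : Fin n → Fin (2 * N)) (i : Fin n) :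
    zc n N k i = ((((k i : ℕ) : ℝ)) - N) * (1 / Real.sqrt n) := rfl

theorem zc_mem (n N : ℕ) (hn : 1 ≤ n) (k : Fin n → Fin (2 * N)) : zc n N k ∈ Grid n := by
  intro i
  have hn0 : (0 : ℝ) < n := by exact_mod_cast hn
  have hs : 0 < Real.sqrt n := Real.sqrt_pos.2 hn0
  refine ⟨((k i : ℕ) - N : ℤ) * n ^ 5, ?_⟩
  rw [zc_apply]
  push_cast
  field_simp

theorem zc_inj {n N : ℕ} (hn : 1 ≤ n) {y : E n} {k k' : Fin n → Fin (2 * N)}
    (h : y - zc n N k ∈ Qc n) (h' : y - zc n N k' ∈ Qc n) : k = k' := by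
  have hn0 : (0 : ℝ) < n := by exact_mod_cast hn
  have hs : 0 < 1 / Real.sqrt n := by have := Real.sqrt_pos.2 hn0; positivity
  funext i
  have h1 := h i
  have h2 := h' i
  have e1 : (y - zc n N k) i = y i - ((((k i : ℕ) : ℝ)) - N) * (1 / Real.sqrt n) := rfl
  have e2 : (y - zc n N k') i = y i - ((((k' i : ℕ) : ℝ)) - N) * (1 / Real.sqrt n) := rfl
  rw [e1] at h1
  rw [e2] at h2
  set s : ℝ := 1 / Real.sqrt n with hsdef
  have h3 : ((k i : ℕ) : ℝ) < ((k' i : ℕ) : ℝ) + 1 := by
    by_contra hc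
    rw [not_lt] at hc
    nlinarith [h1.1, h2.2]
  have h4 : ((k' i : ℕ) : ℝ) < ((k i : ℕ) : ℝ) + 1 := by
    by_contra hc
    rw [not_lt] at hc
    nlinarith [h2.1, h1.2]
  have h5 : (k i : ℕ) < (k' i : ℕ) + 1 := by exact_mod_cast h3
  have h6 : (k' i : ℕ) < (k i : ℕ) + 1 := by exact_mod_cast h4
  exact Fin.ext (by omega)

theorem zc_abs (n N : ℕ) (k : Fin n → Fin (2 * N)) (i : Fin n) :
    |zc n N k i| ≤ N * (1 / Real.sqrt n) := by
  rw [zc_apply, abs_mul]
  have hs : 0 ≤ 1 / Real.sqrt n := by positivity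
  rw [abs_of_nonneg hs]
  refine mul_le_mul_of_nonneg_right ?_ hs
  have h1 : ((k i : ℕ) : ℝ) < 2 * N := by exact_mod_cast (k i).2
  have h2 : (0 : ℝ) ≤ ((k i : ℕ) : ℝ) := Nat.cast_nonneg _
  rw [abs_le]
  constructor <;> linarith

theorem measurableSet_Qc (n : ℕ) : MeasurableSet (Qc n) := by
  have h : Qc n = ⋂ i : Fin n, ({x : E n | 0 ≤ x i} ∩ {x : E n | x i < 1 / Real.sqrt n}) := by
    ext x; simp [Qc]
  rw [h]
  refine MeasurableSet.iInter fun i => MeasurableSet.inter ?_ ?_
  · exact measurableSet_le measurable_const (by fun_prop)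
  · exact measurableSet_lt (by fun_prop) measurable_const

/-- pigeonhole over the tiles -/
theorem tile_avg {n N : ℕ} (hn : 1 ≤ n) (H : E n → ℝ≥0∞) (hH : Measurable H) (B : ℝ≥0∞)
    (hB : ∫⁻ y, H y < ((2 * N : ℕ) : ℝ≥0∞) ^ n * B) :
    ∃ k : Fin n → Fin (2 * N), ∫⁻ x in Qc n, H (x + zc n N k) ≤ B := by
  classical
  by_contra hcon
  push Not at hcon
  have hQ := measurableSet_Qc n
  have h1 : ∀ k : Fin n → Fin (2 * N), ∫⁻ x in Qc n, H (x + zc n N k)
      = ∫⁻ y, (Qc n).indicator 1 (y - zc n N k) * H y := by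
    intro k
    rw [← lintegral_indicator hQ]
    rw [← lintegral_add_right_eq_self
      (fun y => (Qc n).indicator 1 (y - zc n N k) * H y) (zc n N k)]
    refine lintegral_congr fun x => ?_
    rw [add_sub_cancel_right]
    by_cases hx : x ∈ Qc n
    · simp [hx]
    · simp [hx]
  have hm : ∀ k : Fin n → Fin (2 * N),
      Measurable (fun y : E n => (Qc n).indicator (1 : E n → ℝ≥0∞) (y - zc n N k) * H y) := by
    intro k
    refine Measurable.mul ?_ hH
    exact (measurable_one.indicator hQ).comp (measurable_id.sub_const _)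
  have h2 : ∑ k : Fin n → Fin (2 * N), ∫⁻ x in Qc n, H (x + zc n N k) ≤ ∫⁻ y, H y := by
    simp_rw [h1]
    rw [← lintegral_finsetSum _ (fun k _ => hm k)]
    refine lintegral_mono fun y => ?_
    show ∑ k : Fin n → Fin (2 * N), (Qc n).indicator (1 : E n → ℝ≥0∞) (y - zc n N k) * H y ≤ H y
    by_cases hy : ∃ k : Fin n → Fin (2 * N), y - zc n N k ∈ Qc n
    · obtain ⟨k, hk⟩ := hy
      rw [Finset.sum_eq_single k]
      · simp [hk]
      · intro k' _ hne
        have : y - zc n N k' ∉ Qc n := fun h => hne (zc_inj hn h hk)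
        simp [this]
      · intro h; exact absurd (Finset.mem_univ k) h
    · push Not at hy
      rw [Finset.sum_eq_zero]
      · exact zero_le
      · intro k _
        simp [hy k]
  have h3 : ((2 * N : ℕ) : ℝ≥0∞) ^ n * B
      ≤ ∑ k : Fin n → Fin (2 * N), ∫⁻ x in Qc n, H (x + zc n N k) := by
    calc ((2 * N : ℕ) : ℝ≥0∞) ^ n * B = ∑ _k : Fin n → Fin (2 * N), B := by
          rw [Finset.sum_const, Finset.card_univ, Fintype.card_fun, Fintype.card_fin,
            Fintype.card_fin, nsmul_eq_mul]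
          push_cast
          ring
      _ ≤ _ := Finset.sum_le_sum fun k _ => (hcon k).le
  exact absurd (lt_of_lt_of_le hB (h3.trans h2)) (lt_irrefl _)

theorem continuous_sg (n : ℕ) : Continuous (fun y : E n => sg y) := by
  unfold sg
  fun_prop

/-- the combined cost function of one center -/
noncomputable def Phi (n : ℕ) (κ G ε : ℝ) (y : E n) : ℝ≥0∞ :=
  ENNReal.ofReal (1 / G) *
      (Metric.closedBall (0 : E n) 1).indicator (fun y => ENNReal.ofReal (κ * sg y + 1)) y
    + {y : E n | ‖y‖ ≤ 1 ∧ 4 * Real.log n ≤ sg y}.indicator 1 y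
    + ENNReal.ofReal ε * (Metric.closedBall (0 : E n) 3).indicator 1 y

theorem measurableSet_deep (n : ℕ) (s : ℝ) : MeasurableSet {y : E n | ‖y‖ ≤ 1 ∧ s ≤ sg y} :=
  (measurableSet_le measurable_norm measurable_const).inter
    (measurableSet_le measurable_const (continuous_sg n).measurable)

theorem measurable_Phi (n : ℕ) (κ G ε : ℝ) : Measurable (Phi n κ G ε) := by
  unfold Phi
  refine ((Measurable.const_mul ?_ _).add ?_).add (Measurable.const_mul ?_ _)
  · refine Measurable.indicator ?_ measurableSet_closedBall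
    exact ((continuous_sg n).measurable.const_mul κ |>.add_const 1).ennreal_ofReal
  · exact measurable_one.indicator (measurableSet_deep n _)
  · exact measurable_one.indicator measurableSet_closedBall

theorem int_Phi {n : ℕ} (hn : 1 ≤ n) {κ G ε : ℝ} (hκ : 0 ≤ κ) (hG : 0 < G) (hε : 0 ≤ ε) :
    ∫⁻ y, Phi n κ G ε y ≤
      ENNReal.ofReal (((κ + 1) / G + Real.exp (-(4 * Real.log n)) + ε * 3 ^ n) * bv n) := by
  have hbv := bv_pos n
  have hlog : 0 ≤ 4 * Real.log n := by
    have := Real.log_natCast_nonneg n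
    linarith
  unfold Phi
  have hm1 : Measurable ((Metric.closedBall (0 : E n) 1).indicator
      (fun y => ENNReal.ofReal (κ * sg y + 1))) := by
    refine Measurable.indicator ?_ measurableSet_closedBall
    exact ((continuous_sg n).measurable.const_mul κ |>.add_const 1).ennreal_ofReal
  have hm2 : Measurable ({y : E n | ‖y‖ ≤ 1 ∧ 4 * Real.log n ≤ sg y}.indicator
      (1 : E n → ℝ≥0∞)) := measurable_one.indicator (measurableSet_deep n _)
  have hm3 : Measurable ((Metric.closedBall (0 : E n) 3).indicator (1 : E n → ℝ≥0∞)) :=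
    measurable_one.indicator measurableSet_closedBall
  rw [lintegral_add_right _ (hm3.const_mul _), lintegral_add_right _ hm2,
    lintegral_const_mul _ hm1, lintegral_const_mul _ hm3,
    lintegral_indicator measurableSet_closedBall, lintegral_indicator_one (measurableSet_deep n _),
    lintegral_indicator_one measurableSet_closedBall, vol_ball n 0 3 (by norm_num)]
  calc ENNReal.ofReal (1 / G) * (∫⁻ y in Metric.closedBall (0 : E n) 1,
          ENNReal.ofReal (κ * sg y + 1))
        + volume {y : E n | ‖y‖ ≤ 1 ∧ 4 * Real.log n ≤ sg y}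
        + ENNReal.ofReal ε * ENNReal.ofReal (3 ^ n * bv n)
      ≤ ENNReal.ofReal (1 / G) * ENNReal.ofReal ((κ + 1) * bv n)
        + ENNReal.ofReal (Real.exp (-(4 * Real.log n)) * bv n)
        + ENNReal.ofReal ε * ENNReal.ofReal (3 ^ n * bv n) := by
        gcongr
        · exact int_cost n hn κ hκ
        · exact vol_deep n hn _ hlog
    _ = ENNReal.ofReal (((κ + 1) / G + Real.exp (-(4 * Real.log n)) + ε * 3 ^ n) * bv n) := by
        rw [← ENNReal.ofReal_mul (by positivity), ← ENNReal.ofReal_mul hε,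
          ← ENNReal.ofReal_add (by positivity) (by positivity),
          ← ENNReal.ofReal_add (by positivity) (by positivity)]
        congr 1
        ring

theorem QR_finite {n : ℕ} {X : Set (E n)} (hX : LocFin X) (R : ℝ) : (X ∩ QR n R).Finite := hX R

/-- the sum of the costs of all centers in a large cube -/
noncomputable def HH {n : ℕ} (κ G ε : ℝ) (XF : Finset (E n)) (y : E n) : ℝ≥0∞ :=
  ∑ t ∈ XF, Phi n κ G ε (y - t)

theorem measurable_HH {n : ℕ} (κ G ε : ℝ) (XF : Finset (E n)) :
    Measurable (HH κ G ε XF) := by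
  unfold HH
  exact Finset.measurable_sum _ fun t _ => (measurable_Phi n κ G ε).comp (measurable_id.sub_const t)

theorem int_HH {n : ℕ} (κ G ε : ℝ) (XF : Finset (E n)) :
    ∫⁻ y, HH κ G ε XF y = (XF.card : ℝ≥0∞) * ∫⁻ y, Phi n κ G ε y := by
  unfold HH
  have hm : ∀ t ∈ XF, Measurable (fun y : E n => Phi n κ G ε (y - t)) := fun t _ =>
    (measurable_Phi n κ G ε).comp (measurable_id.sub_const t)
  rw [lintegral_finsetSum _ hm]
  have h : ∀ t ∈ XF, ∫⁻ y, Phi n κ G ε (y - t) = ∫⁻ y, Phi n κ G ε y := by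
    intro t _
    exact lintegral_sub_right_eq_self (Phi n κ G ε) t
  rw [Finset.sum_congr rfl h, Finset.sum_const, nsmul_eq_mul]

/-- a tile where the cost is small is good -/
theorem tile_good {n : ℕ} {κ G ε : ℝ} (hκ : 0 ≤ κ) (hG : 0 < G) (hε : 0 < ε)
    (X : Set (E n)) (XF : Finset (E n)) (z : E n)
    (hXF : ∀ t : E n, t ∈ XF → t ∈ X) (hXF' : ∀ t : E n, ‖t‖ ≤ 2 → t + z ∈ X → t + z ∈ XF)
    (B : ℝ≥0∞) (hH : ∫⁻ x in Qc n, HH κ G ε XF (x + z) ≤ B) :
    ∃ T : Finset (E n), (∀ t, t ∈ T ↔ t + z ∈ X ∧ ‖t‖ ≤ 2) ∧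
      ENNReal.ofReal ε * T.card * volume (Qc n) ≤ B ∧
      volume (Qc n \ {x | Good κ G T x}) ≤ B := by
  classical
  set T : Finset (E n) := (XF.image (fun t' => t' - z)).filter (fun t => ‖t‖ ≤ 2) with hT
  have hTm : ∀ t, t ∈ T ↔ t + z ∈ X ∧ ‖t‖ ≤ 2 := by
    intro t
    rw [hT, Finset.mem_filter, Finset.mem_image]
    constructor
    · rintro ⟨⟨t', h1, h2⟩, h3⟩
      refine ⟨?_, h3⟩
      rw [← h2, sub_add_cancel]
      exact hXF _ h1
    · rintro ⟨h1, h2⟩
      exact ⟨⟨t + z, hXF' t h2 h1, by rw [add_sub_cancel_right]⟩, h2⟩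
  have hinj : Set.InjOn (fun t : E n => t + z) T := fun a _ b _ h => add_right_cancel h
  have hsub : T.image (fun t => t + z) ⊆ XF := by
    intro t' ht'
    obtain ⟨t, ht, rfl⟩ := Finset.mem_image.1 ht'
    exact hXF' t ((hTm t).1 ht).2 ((hTm t).1 ht).1
  have hsum : ∀ x : E n, ∑ t ∈ T, Phi n κ G ε (x - t) ≤ HH κ G ε XF (x + z) := by
    intro x
    unfold HH
    calc ∑ t ∈ T, Phi n κ G ε (x - t) = ∑ t' ∈ T.image (fun t => t + z),
          Phi n κ G ε (x + z - t') := by
          rw [Finset.sum_image hinj]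
          refine Finset.sum_congr rfl fun t _ => ?_
          congr 1
          abel
      _ ≤ _ := Finset.sum_le_sum_of_subset hsub
  refine ⟨T, hTm, ?_, ?_⟩
  · refine le_trans ?_ hH
    rw [← setLIntegral_const]
    refine (setLIntegral_mono' (measurableSet_Qc n) fun x hx => ?_)
    refine le_trans ?_ (hsum x)
    calc ENNReal.ofReal ε * (T.card : ℝ≥0∞) = ∑ _t ∈ T, ENNReal.ofReal ε := by
          rw [Finset.sum_const, nsmul_eq_mul, mul_comm]
      _ ≤ ∑ t ∈ T, Phi n κ G ε (x - t) := by
          refine Finset.sum_le_sum fun t ht => ?_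
          unfold Phi
          have h3 : x - t ∈ Metric.closedBall (0 : E n) 3 := by
            rw [mem_closedBall_zero_iff]
            have h1 := norm_le_of_Qc hx
            have h2 := ((hTm t).1 ht).2
            have := norm_sub_le x t
            linarith
          rw [Set.indicator_of_mem h3]
          simp
  · have hgm : MeasurableSet {x : E n | Good κ G T x} := measurable_good' κ G T
    calc volume (Qc n \ {x | Good κ G T x})
        = ∫⁻ x in Qc n, ({x | Good κ G T x}ᶜ).indicator 1 x := by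
          rw [lintegral_indicator_one hgm.compl, Measure.restrict_apply hgm.compl]
          congr 1
          ext x
          simp [and_comm]
      _ ≤ ∫⁻ x in Qc n, HH κ G ε XF (x + z) := by
          refine setLIntegral_mono' (measurableSet_Qc n) fun x hx => ?_
          refine le_trans ?_ (hsum x)
          by_cases hgood : Good κ G T x
          · have : x ∉ ({x | Good κ G T x}ᶜ : Set (E n)) := fun h => h hgood
            rw [Set.indicator_of_notMem this]
            exact zero_le
          · have : x ∈ ({x | Good κ G T x}ᶜ : Set (E n)) := hgood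
            rw [Set.indicator_of_mem this]
            show (1 : ℝ≥0∞) ≤ _
            unfold Good at hgood
            rw [not_and_or] at hgood
            rcases hgood with h | h
            · rw [not_le] at h
              have hsgn : ∀ t ∈ Tx T x, 0 ≤ κ * sg (x - t) + 1 := by
                intro t ht
                have h1 := (Finset.mem_filter.1 ht).2
                have h2 : 0 ≤ sg (x - t) := by
                  unfold sg
                  have : ‖x - t‖ ^ 2 ≤ 1 := by nlinarith [norm_nonneg (x - t)]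
                  have h3 : (0 : ℝ) ≤ n := Nat.cast_nonneg n
                  apply div_nonneg _ (by norm_num)
                  apply mul_nonneg h3
                  linarith
                have := mul_nonneg hκ h2
                linarith
              calc (1 : ℝ≥0∞) ≤ ENNReal.ofReal (1 / G) *
                    ENNReal.ofReal (∑ t ∈ Tx T x, (κ * sg (x - t) + 1)) := by
                    rw [← ENNReal.ofReal_mul (by positivity)]
                    rw [← ENNReal.ofReal_one]
                    apply ENNReal.ofReal_le_ofReal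
                    rw [one_div, inv_mul_eq_div, le_div_iff₀ hG, one_mul]
                    exact h.le
                _ = ∑ t ∈ Tx T x, ENNReal.ofReal (1 / G) *
                      ENNReal.ofReal (κ * sg (x - t) + 1) := by
                    rw [ENNReal.ofReal_sum_of_nonneg hsgn, Finset.mul_sum]
                _ ≤ ∑ t ∈ Tx T x, Phi n κ G ε (x - t) := by
                    refine Finset.sum_le_sum fun t ht => ?_
                    have h1 := (Finset.mem_filter.1 ht).2
                    have h2 : x - t ∈ Metric.closedBall (0 : E n) 1 := by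
                      rw [mem_closedBall_zero_iff]; exact h1
                    unfold Phi
                    rw [Set.indicator_of_mem h2, add_assoc]
                    exact le_self_add
                _ ≤ ∑ t ∈ T, Phi n κ G ε (x - t) :=
                    Finset.sum_le_sum_of_subset (Finset.filter_subset _ _)
            · push Not at h
              obtain ⟨t, ht, h1⟩ := h
              have h2 := Finset.mem_filter.1 ht
              refine le_trans ?_ (Finset.single_le_sum (fun t _ => zero_le) h2.1)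
              unfold Phi
              have h3 : x - t ∈ {y : E n | ‖y‖ ≤ 1 ∧ 4 * Real.log n ≤ sg y} := ⟨h2.2, h1.le⟩
              rw [Set.indicator_of_mem h3, add_assoc, add_left_comm]
              exact le_self_add
      _ ≤ B := hH

theorem num_e (n : ℕ) (hn : 4 ≤ n) : Real.exp (-(2 * n)) * 3 ^ n * (n : ℝ) ^ 2 ≤ 1 := by
  have h1 : (6 : ℝ) ≤ Real.exp 2 := by
    have h2 : Real.exp 2 = Real.exp 1 * Real.exp 1 := by rw [← Real.exp_add]; norm_num
    have h3 := Real.exp_one_gt_d9
    rw [h2]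
    nlinarith
  have h2 : Real.exp (-(2 * n)) = ((Real.exp 2) ^ n)⁻¹ := by
    rw [← Real.exp_nat_mul, ← Real.exp_neg]
    congr 1
    ring
  have h3 : (6 : ℝ) ^ n ≤ (Real.exp 2) ^ n := pow_le_pow_left₀ (by norm_num) h1 n
  have h4 : n ^ 2 ≤ 2 ^ n := by
    induction n, hn using Nat.le_induction with
    | base => norm_num
    | succ m hm ih =>
      have h5 : (m + 1) ^ 2 ≤ 2 * m ^ 2 := by nlinarith
      calc (m + 1) ^ 2 ≤ 2 * m ^ 2 := h5
        _ ≤ 2 * 2 ^ m := by
          refine Nat.mul_le_mul_left 2 (ih ?_ ?_)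
          · rw [← Real.exp_nat_mul, ← Real.exp_neg]
            congr 1
            ring
          · exact pow_le_pow_left₀ (by norm_num) h1 m
        _ = 2 ^ (m + 1) := by ring
  have h5 : (n : ℝ) ^ 2 ≤ 2 ^ n := by exact_mod_cast h4
  have h6 : (0 : ℝ) < (Real.exp 2) ^ n := by positivity
  rw [h2, mul_assoc, inv_mul_eq_div, div_le_one h6]
  calc (3 : ℝ) ^ n * (n : ℝ) ^ 2 ≤ 3 ^ n * 2 ^ n := by gcongr
    _ = 6 ^ n := by rw [← mul_pow]; norm_num
    _ ≤ _ := h3

/-- good tile: if `X` in the grid has small density there is a translate of the small cube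
where most points are good. -/
theorem good_tile7 {κ c : ℝ} (hκ : 1 ≤ κ) (hc : 0 < c) :
    ∃ n0 : ℕ, ∀ n ≥ n0, ∀ X : Set (E n), X ⊆ Grid n → LocFin X →
      dens X * ENNReal.ofReal (bv n)
        < ENNReal.ofReal (c / (32 * (κ + 1)) * n * Real.log n) → c ≤ 1 →
      ∃ z : E n, z ∈ Grid n ∧ ∃ T : Finset (E n),
        (∀ t, t ∈ T ↔ t + z ∈ X ∧ ‖t‖ ≤ 2) ∧ (∀ t ∈ T, t ∈ Grid n) ∧
        (T.card : ℝ) ≤ Real.exp (2 * n) ∧
        volume (Qc n \ {x | Good κ (c * n * Real.log n) T x}) ≤ volume (Qc n) / 2 := by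
  refine ⟨4, fun n hn X hXG hX hd hc1 => ?_⟩
  have hn1 : 1 ≤ n := by omega
  have hn4 : (4 : ℝ) ≤ n := by exact_mod_cast hn
  have hn0 : (0 : ℝ) < n := by linarith
  have hlog : 0 < Real.log n := Real.log_pos (by linarith)
  have hlogn : Real.log n ≤ n := (Real.log_le_sub_one_of_pos hn0).trans (by linarith)
  have hbv := bv_pos n
  set s : ℝ := 1 / Real.sqrt n with hs
  have hs0 : 0 < s := by
    have := Real.sqrt_pos.2 hn0
    positivity
  set G : ℝ := c * n * Real.log n with hG
  have hG0 : 0 < G := by positivity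
  set ε : ℝ := Real.exp (-(2 * n)) with hε
  have hε0 : 0 < ε := Real.exp_pos _
  set D : ℝ := c / (32 * (κ + 1)) * n * Real.log n with hD
  have hD0 : 0 < D := by
    have : 0 < 32 * (κ + 1) := by linarith
    positivity
  have hDn : 64 * D ≤ (n : ℝ) ^ 2 := by
    have h1 : c / (32 * (κ + 1)) ≤ 1 / 64 := by
      rw [div_le_div_iff₀ (by linarith) (by norm_num)]
      nlinarith
    have h2 : (n : ℝ) * Real.log n ≤ n ^ 2 := by nlinarith
    have h3 : 0 ≤ (n : ℝ) * Real.log n := by positivity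
    calc 64 * D = 64 * (c / (32 * (κ + 1)) * (n * Real.log n)) := by rw [hD]; ring
      _ ≤ 64 * (1 / 64 * (n * Real.log n)) := by gcongr
      _ ≤ n ^ 2 := by linarith
  -- the numeric estimate
  have hnum : D * 2 * ((κ + 1) / G + Real.exp (-(4 * Real.log n)) + ε * 3 ^ n) ≤ 1 / 8 := by
    have e1 : D * 2 * ((κ + 1) / G) = 1 / 16 := by
      rw [hD, hG]
      have : κ + 1 ≠ 0 := by linarith
      field_simp
      norm_num
    have e2 : Real.exp (-(4 * Real.log n)) = ((n : ℝ) ^ 4)⁻¹ := by
      rw [Real.exp_neg, mul_comm, Real.exp_mul, Real.exp_log hn0]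
      norm_cast
    have e3 : D * 2 * Real.exp (-(4 * Real.log n)) ≤ 1 / 32 := by
      rw [e2]
      have h1 : (1 : ℝ) ≤ (n : ℝ) ^ 2 := one_le_pow₀ (by linarith)
      rw [← div_eq_mul_inv, div_le_iff₀ (by positivity)]
      nlinarith
    have e4 : D * 2 * (ε * 3 ^ n) ≤ 1 / 32 := by
      have h1 := num_e n hn
      have h2 : 0 < ε * 3 ^ n := by positivity
      nlinarith
    calc D * 2 * ((κ + 1) / G + Real.exp (-(4 * Real.log n)) + ε * 3 ^ n)
        = D * 2 * ((κ + 1) / G) + D * 2 * Real.exp (-(4 * Real.log n))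
          + D * 2 * (ε * 3 ^ n) := by ring
      _ ≤ 1 / 16 + 1 / 32 + 1 / 32 := by rw [e1]; gcongr
      _ = 1 / 8 := by norm_num
  -- choice of the number of tiles
  have hb0 : ENNReal.ofReal (bv n) ≠ 0 := by
    rw [Ne, ENNReal.ofReal_eq_zero, not_le]; exact hbv
  have hbt : ENNReal.ofReal (bv n) ≠ ⊤ := ENNReal.ofReal_ne_top
  have hlt : dens X < ENNReal.ofReal D / ENNReal.ofReal (bv n) := by
    rw [ENNReal.lt_div_iff_mul_lt (Or.inl hb0) (Or.inl hbt)]
    exact hd
  have hev : ∀ᶠ R : ℝ in atTop, ((X ∩ QR n R).ncard : ENNReal) / ENNReal.ofReal ((2 * R) ^ n)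
      < ENNReal.ofReal D / ENNReal.ofReal (bv n) := eventually_lt_of_limsup_lt hlt
  have ht1 : Tendsto (fun N : ℕ => (N : ℝ) * s) atTop atTop :=
    tendsto_natCast_atTop_atTop.atTop_mul_const hs0
  have ht2 : Tendsto (fun N : ℕ => (N : ℝ) * s + 3) atTop atTop :=
    tendsto_atTop_add_const_right _ _ ht1
  have ht3 : Tendsto (fun N : ℕ => (((N : ℝ) * s + 3) / ((N : ℝ) * s)) ^ n) atTop (nhds 1) := by
    have h3 : Tendsto (fun N : ℕ => 1 + 3 * ((N : ℝ) * s)⁻¹) atTop (nhds (1 + 3 * 0)) :=
      tendsto_const_nhds.add (tendsto_const_nhds.mul (tendsto_inv_atTop_zero.comp ht1))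
    rw [mul_zero, add_zero] at h3
    have h4 := h3.pow n
    rw [one_pow] at h4
    refine h4.congr' ?_
    filter_upwards [eventually_ge_atTop 1] with N hN
    have hN0 : (0 : ℝ) < N := by exact_mod_cast hN
    congr 1
    field_simp
  obtain ⟨N, hN1, hN2, hN3⟩ := ((ht2.eventually hev).and
    ((ht3.eventually (gt_mem_nhds (by norm_num : (1 : ℝ) < 2))).and
      (eventually_ge_atTop 1))).exists
  have hN0 : (0 : ℝ) < N := by exact_mod_cast hN3
  set R : ℝ := (N : ℝ) * s + 3 with hR
  have hR0 : 0 < R := by positivity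
  set XF : Finset (E n) := (hX R).toFinset with hXF
  have hXFm : ∀ t, t ∈ XF ↔ t ∈ X ∩ QR n R := fun t => (hX R).mem_toFinset
  have hcard : (X ∩ QR n R).ncard = XF.card := Set.ncard_eq_toFinset_card _ (hX R)
  -- the count of centers
  have hcount : (XF.card : ℝ) * bv n ≤ D * (2 * (2 * ((N : ℝ) * s)) ^ n) := by
    have h2R : (0 : ℝ) < (2 * R) ^ n := by positivity
    have h1 : ENNReal.ofReal ((XF.card : ℝ) / (2 * R) ^ n) < ENNReal.ofReal (D / bv n) := by
      rw [ENNReal.ofReal_div_of_pos h2R, ENNReal.ofReal_div_of_pos hbv, ENNReal.ofReal_natCast]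
      rw [hcard] at hN1
      exact hN1
    have h2 : (XF.card : ℝ) / (2 * R) ^ n < D / bv n :=
      (ENNReal.ofReal_lt_ofReal_iff (by positivity)).1 h1
    rw [div_lt_div_iff₀ h2R hbv] at h2
    have h3 : (2 * R) ^ n ≤ 2 * (2 * ((N : ℝ) * s)) ^ n := by
      have h4 : (R / ((N : ℝ) * s)) ^ n ≤ 2 := hN2.le
      have h5 : (0 : ℝ) < (N : ℝ) * s := by positivity
      calc (2 * R) ^ n = (R / ((N : ℝ) * s)) ^ n * (2 * ((N : ℝ) * s)) ^ n := by
            rw [← mul_pow]
            congr 1
            field_simp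
        _ ≤ 2 * (2 * ((N : ℝ) * s)) ^ n := by gcongr
    calc (XF.card : ℝ) * bv n ≤ D * (2 * R) ^ n := h2.le
      _ ≤ _ := by gcongr
  set Bd : ℝ≥0∞ := ENNReal.ofReal (s ^ n / 4) with hBd
  have hint : ∫⁻ y, HH κ G ε XF y < ((2 * N : ℕ) : ℝ≥0∞) ^ n * Bd := by
    rw [int_HH]
    have h1 : ((2 * N : ℕ) : ℝ≥0∞) ^ n * Bd = ENNReal.ofReal ((2 * ((N : ℝ) * s)) ^ n / 4) := by
      rw [hBd, ← ENNReal.ofReal_natCast, ← ENNReal.ofReal_pow (Nat.cast_nonneg _),
        ← ENNReal.ofReal_mul (by positivity)]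
      congr 1
      push_cast
      rw [← mul_assoc 2 (N : ℝ) s, mul_pow _ s]
      ring
    rw [h1]
    calc (XF.card : ℝ≥0∞) * ∫⁻ y, Phi n κ G ε y
        ≤ (XF.card : ℝ≥0∞) * ENNReal.ofReal
          (((κ + 1) / G + Real.exp (-(4 * Real.log n)) + ε * 3 ^ n) * bv n) := by
          gcongr
          exact int_Phi hn1 (by linarith) hG0 hε0.le
      _ = ENNReal.ofReal ((XF.card : ℝ) * bv n *
          ((κ + 1) / G + Real.exp (-(4 * Real.log n)) + ε * 3 ^ n)) := by
          rw [← ENNReal.ofReal_natCast, ← ENNReal.ofReal_mul (Nat.cast_nonneg _)]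
          congr 1
          ring
      _ ≤ ENNReal.ofReal ((2 * ((N : ℝ) * s)) ^ n / 8) := by
          apply ENNReal.ofReal_le_ofReal
          have hpos : 0 ≤ (κ + 1) / G + Real.exp (-(4 * Real.log n)) + ε * 3 ^ n := by
            have : 0 ≤ κ + 1 := by linarith
            positivity
          calc (XF.card : ℝ) * bv n * ((κ + 1) / G + Real.exp (-(4 * Real.log n)) + ε * 3 ^ n)
              ≤ D * (2 * (2 * ((N : ℝ) * s)) ^ n) *
                ((κ + 1) / G + Real.exp (-(4 * Real.log n)) + ε * 3 ^ n) := by gcongr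
            _ = (2 * ((N : ℝ) * s)) ^ n *
                (D * 2 * ((κ + 1) / G + Real.exp (-(4 * Real.log n)) + ε * 3 ^ n)) := by ring
            _ ≤ (2 * ((N : ℝ) * s)) ^ n * (1 / 8) := by gcongr
            _ = _ := by ring
      _ < _ := by
          have h5 : (0 : ℝ) < (2 * ((N : ℝ) * s)) ^ n := by positivity
          rw [ENNReal.ofReal_lt_ofReal_iff (by positivity)]
          linarith
  obtain ⟨k, hk⟩ := tile_avg hn1 (HH κ G ε XF) (measurable_HH κ G ε XF) Bd hint
  have hzG := zc_mem n N hn1 k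
  obtain ⟨T, hT1, hT2, hT3⟩ := tile_good (κ := κ) (G := G) (ε := ε) (by linarith) hG0 hε0 X XF
    (zc n N k) (fun t ht => ((hXFm t).1 ht).1) (fun t ht1 ht2 => by
      rw [hXFm]
      refine ⟨ht2, fun i => ?_⟩
      have h1 : |t i| ≤ 2 := by
        have := PiLp.norm_apply_le t i
        rw [Real.norm_eq_abs] at this
        linarith
      have h2 := zc_abs n N k i
      have h3 : (t + zc n N k) i = t i + zc n N k i := rfl
      rw [h3]
      refine (abs_add_le _ _).trans ?_
      rw [hR]
      linarith) Bd hk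
  refine ⟨zc n N k, hzG, T, hT1, ?_, ?_, ?_⟩
  · intro t ht i
    obtain ⟨a, ha⟩ := hXG ((hT1 t).1 ht).1 i
    obtain ⟨b, hb⟩ := hzG i
    refine ⟨a - b, ?_⟩
    have h3 : (t + zc n N k) i = t i + zc n N k i := rfl
    rw [h3, hb] at ha
    push_cast
    rw [sub_div]
    linarith
  · rw [vol_Qc n hn1, hBd, ← ENNReal.ofReal_natCast, ← ENNReal.ofReal_mul hε0.le,
      ← ENNReal.ofReal_mul (by positivity),
      ENNReal.ofReal_le_ofReal_iff (by positivity)] at hT2
    have hsn : (0 : ℝ) < (1 / Real.sqrt n) ^ n := by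
      rw [← hs]; positivity
    have h4 : ε * (T.card : ℝ) ≤ 1 := by
      have h5 : ε * (T.card : ℝ) * (1 / Real.sqrt n) ^ n ≤ 1 * (1 / Real.sqrt n) ^ n := by
        refine hT2.trans ?_
        rw [← hs] at hsn ⊢
        linarith
      exact le_of_mul_le_mul_right h5 hsn
    have h6 : Real.exp (2 * n) * ε = 1 := by
      rw [hε, ← Real.exp_add]; simp
    calc (T.card : ℝ) = Real.exp (2 * n) * (ε * (T.card : ℝ)) := by
          rw [← mul_assoc, h6, one_mul]
      _ ≤ Real.exp (2 * n) * 1 := by gcongr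
      _ = _ := mul_one _
  · refine hT3.trans ?_
    rw [hBd, vol_Qc n hn1, ← hs]
    rw [show (2 : ℝ≥0∞) = ENNReal.ofReal 2 by simp, ← ENNReal.ofReal_div_of_pos (by norm_num)]
    apply ENNReal.ofReal_le_ofReal
    have : 0 < s ^ n := by positivity
    linarith

end Cov
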