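import Vale.Agent.Cov.ExA
import Vale.Agent.Cov.Dens
import Vale.Agent.Cov.Red26
import Vale.Agent.Cov.Red7

/-! # [R] from the local statement to the covering density -/

namespace Cov

open MeasureTheory Finset
open scoped RealInnerProductSpace Pointwise

/-- good tile: if `X` in the grid has small density there is a translate of the small cube
where most points are good. -/
theorem good_tile {κ c : ℝ} (hκ : 1 ≤ κ) (hc : 0 < c) :
    ∃ n0 : ℕ, ∀ n ≥ n0, ∀ X : Set (E n), X ⊆ Grid n → LocFin X →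
      dens X * ENNReal.ofReal (bv n)
        < ENNReal.ofReal (c / (32 * (κ + 1)) * n * Real.log n) → c ≤ 1 →
      ∃ z : E n, z ∈ Grid n ∧ ∃ T : Finset (E n),
        (∀ t, t ∈ T ↔ t + z ∈ X ∧ ‖t‖ ≤ 2) ∧ (∀ t ∈ T, t ∈ Grid n) ∧
        (T.card : ℝ) ≤ Real.exp (2 * n) ∧
        volume (Qc n \ {x | Good κ (c * n * Real.log n) T x}) ≤ volume (Qc n) / 2 := by
  exact good_tile7 hκ hc

end Cov
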