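import Vale.Agent.Cov.BlkBase

/-! # [B2] selection of far good blocks -/

namespace Cov

open MeasureTheory Finset
open scoped RealInnerProductSpace

/-- greedy choice of an independent set for a symmetric relation of bounded degree -/
theorem exists_indep {α : Type} [DecidableEq α] (G : Finset α) (R : α → α → Prop)
    [DecidableRel R] (hs : ∀ a b, R a b → R b a) (hrefl : ∀ a ∈ G, R a a) (D : ℝ)
    (hD : ∀ a ∈ G, ((G.filter (R a)).card : ℝ) ≤ D) :
    ∃ L : Finset α, L ⊆ G ∧ (∀ a ∈ L, ∀ b ∈ L, a ≠ b → ¬ R a b) ∧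
      (G.card : ℝ) ≤ L.card * D := by
  classical
  set P : Finset (Finset α) :=
    G.powerset.filter (fun L => ∀ a ∈ L, ∀ b ∈ L, a ≠ b → ¬ R a b) with hP
  have hne : P.Nonempty := ⟨∅, by simp [hP]⟩
  obtain ⟨L, hLP, hmax⟩ := P.exists_max_image (fun L => L.card) hne
  have hL := Finset.mem_filter.1 hLP
  have hLG : L ⊆ G := Finset.mem_powerset.1 hL.1
  refine ⟨L, hLG, hL.2, ?_⟩
  have hcov : G ⊆ L.biUnion (fun a => G.filter (R a)) := by
    intro g hg
    rw [Finset.mem_biUnion]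
    by_contra hcon
    push Not at hcon
    have hgL : g ∉ L := fun h => hcon g h (Finset.mem_filter.2 ⟨hg, hrefl g hg⟩)
    have hnr : ∀ a ∈ L, ¬ R a g := fun a ha h => hcon a ha (Finset.mem_filter.2 ⟨hg, h⟩)
    have hins : insert g L ∈ P := by
      rw [hP, Finset.mem_filter, Finset.mem_powerset]
      refine ⟨Finset.insert_subset hg hLG, ?_⟩
      intro a ha b hb hab
      rw [Finset.mem_insert] at ha hb
      rcases ha with rfl | ha
      · rcases hb with rfl | hb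
        · exact absurd rfl hab
        · exact fun h => hnr b hb (hs _ _ h)
      · rcases hb with rfl | hb
        · exact hnr a ha
        · exact hL.2 a ha b hb hab
    have := hmax _ hins
    rw [Finset.card_insert_of_notMem hgL] at this
    omega
  calc (G.card : ℝ) ≤ ((L.biUnion (fun a => G.filter (R a))).card : ℝ) := by
        exact_mod_cast Finset.card_le_card hcov
    _ ≤ ∑ a ∈ L, ((G.filter (R a)).card : ℝ) := by
        exact_mod_cast Finset.card_biUnion_le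
    _ ≤ ∑ a ∈ L, D := Finset.sum_le_sum fun a ha => hD a (hLG ha)
    _ = L.card * D := by rw [Finset.sum_const, nsmul_eq_mul]

theorem side_pos (n : ℕ) (hn : 1 ≤ n) : (0 : ℝ) < 1 / ((k0 : ℝ) * Real.sqrt n) := by
  have h1 : (0 : ℝ) < Real.sqrt n := Real.sqrt_pos.2 (by exact_mod_cast hn)
  have h2 : (0 : ℝ) < (k0 : ℝ) := by norm_num [k0]
  positivity

theorem meas_Pc (n : ℕ) (l : Fin n → Fin k0) : MeasurableSet (Pc n l) := by
  have : Pc n l = ⋂ i, ({x : E n | (l i : ℝ) / (k0 * Real.sqrt n) ≤ x i} ∩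
      {x : E n | x i < ((l i : ℝ) + 1) / (k0 * Real.sqrt n)}) := by
    ext x
    simp only [Pc, Set.mem_ofPred_eq, Set.mem_iInter, Set.mem_inter_iff]
  rw [this]
  refine MeasurableSet.iInter fun i => MeasurableSet.inter ?_ ?_
  · exact measurableSet_le measurable_const (by fun_prop)
  · exact measurableSet_lt (by fun_prop) measurable_const

theorem disj_Pc (n : ℕ) (hn : 1 ≤ n) (l l' : Fin n → Fin k0) (h : l ≠ l') :
    Disjoint (Pc n l) (Pc n l') := by
  rw [Set.disjoint_left]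
  intro x hx hx'
  apply h
  funext i
  have hs : (0 : ℝ) < (k0 : ℝ) * Real.sqrt n := by
    have h1 : (0 : ℝ) < Real.sqrt n := Real.sqrt_pos.2 (by exact_mod_cast hn)
    have h2 : (0 : ℝ) < (k0 : ℝ) := by norm_num [k0]
    positivity
  obtain ⟨h1, h2⟩ := hx i
  obtain ⟨h3, h4⟩ := hx' i
  rw [div_le_iff₀ hs] at h1 h3
  rw [lt_div_iff₀ hs] at h2 h4
  apply Fin.ext
  have h5 : ((l i : ℕ) : ℝ) < ((l' i : ℕ) : ℝ) + 1 := lt_of_le_of_lt h1 h4
  have h6 : ((l' i : ℕ) : ℝ) < ((l i : ℕ) : ℝ) + 1 := lt_of_le_of_lt h3 h2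
  have h7 : (l i : ℕ) < (l' i : ℕ) + 1 := by exact_mod_cast h5
  have h8 : (l' i : ℕ) < (l i : ℕ) + 1 := by exact_mod_cast h6
  omega

theorem cover_Pc (n : ℕ) (hn : 1 ≤ n) : Qc n ⊆ ⋃ l, Pc n l := by
  intro x hx
  have hq : (0 : ℝ) < Real.sqrt n := Real.sqrt_pos.2 (by exact_mod_cast hn)
  have hk : (0 : ℝ) < (k0 : ℝ) := by norm_num [k0]
  have hs : (0 : ℝ) < (k0 : ℝ) * Real.sqrt n := by positivity
  rw [Set.mem_iUnion]
  have hlt : ∀ i, ⌊x i * (k0 * Real.sqrt n)⌋₊ < k0 := by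
    intro i
    obtain ⟨h1, h2⟩ := hx i
    rw [Nat.floor_lt (by positivity)]
    rw [lt_div_iff₀ hq] at h2
    calc x i * (k0 * Real.sqrt n) = k0 * (x i * Real.sqrt n) := by ring
      _ < k0 * 1 := by exact mul_lt_mul_of_pos_left h2 hk
      _ = k0 := mul_one _
  refine ⟨fun i => ⟨⌊x i * (k0 * Real.sqrt n)⌋₊, hlt i⟩, fun i => ?_⟩
  obtain ⟨h1, h2⟩ := hx i
  have hnn : 0 ≤ x i * (k0 * Real.sqrt n) := by positivity
  constructor
  · rw [div_le_iff₀ hs]
    exact Nat.floor_le hnn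
  · rw [lt_div_iff₀ hs]
    exact Nat.lt_floor_add_one _

theorem diam_Pc (n : ℕ) (hn : 1 ≤ n) (l : Fin n → Fin k0) {x y : E n} (hx : x ∈ Pc n l)
    (hy : y ∈ Pc n l) : ‖x - y‖ ≤ 1 / (k0 : ℝ) := by
  have hn0 : (0 : ℝ) < n := by exact_mod_cast hn
  have hq : (0 : ℝ) < Real.sqrt n := Real.sqrt_pos.2 hn0
  have hk : (0 : ℝ) < (k0 : ℝ) := by norm_num [k0]
  have hs : (0 : ℝ) < (k0 : ℝ) * Real.sqrt n := by positivity
  have hc : ∀ i, ‖(x - y) i‖ ^ 2 ≤ (1 / ((k0 : ℝ) * Real.sqrt n)) ^ 2 := by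
    intro i
    obtain ⟨h1, h2⟩ := hx i
    obtain ⟨h3, h4⟩ := hy i
    rw [add_div] at h2 h4
    have h5 : |x i - y i| ≤ 1 / ((k0 : ℝ) * Real.sqrt n) := by
      rw [abs_le]
      constructor <;> linarith
    rw [PiLp.sub_apply, Real.norm_eq_abs]
    exact pow_le_pow_left₀ (abs_nonneg _) h5 2
  rw [EuclideanSpace.norm_eq]
  rw [Real.sqrt_le_left (by positivity)]
  calc ∑ i, ‖(x - y) i‖ ^ 2 ≤ ∑ _i : Fin n, (1 / ((k0 : ℝ) * Real.sqrt n)) ^ 2 :=
        Finset.sum_le_sum fun i _ => hc i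
    _ = n * (1 / ((k0 : ℝ) * Real.sqrt n)) ^ 2 := by
        rw [Finset.sum_const, Finset.card_univ, Fintype.card_fin, nsmul_eq_mul]
    _ = (1 / (k0 : ℝ)) ^ 2 := by
        have h6 : Real.sqrt n ^ 2 = n := Real.sq_sqrt hn0.le
        rw [div_pow, mul_pow, h6, div_pow]
        field_simp

/-- at most `15^n` subcubes lie in a ball of radius `3/k0` -/
theorem count_ball (n : ℕ) (hn : 1 ≤ n) (z : E n) (S : Finset (Fin n → Fin k0))
    (hS : ∀ l ∈ S, Pc n l ⊆ Metric.closedBall z (3 / (k0 : ℝ))) : (S.card : ℝ) ≤ 15 ^ n := by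
  have hn0 : (0 : ℝ) < n := by exact_mod_cast hn
  have hq : (0 : ℝ) < Real.sqrt n := Real.sqrt_pos.2 hn0
  have hk : (0 : ℝ) < (k0 : ℝ) := by norm_num [k0]
  have hs := side_pos n hn
  have h1 : ∑ l ∈ S, volume (Pc n l) ≤ volume (Metric.closedBall z (3 / (k0 : ℝ))) := by
    rw [← measure_biUnion_finset]
    · exact measure_mono (Set.iUnion₂_subset hS)
    · intro l _ l' _ hll
      exact disj_Pc n hn l l' hll
    · intro l _
      exact meas_Pc n l
  rw [Finset.sum_congr rfl (fun l _ => vol_Pc n hn l), Finset.sum_const, nsmul_eq_mul,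
    vol_ball n z _ (by positivity), ← ENNReal.ofReal_natCast, ← ENNReal.ofReal_mul (by positivity),
    ENNReal.ofReal_le_ofReal_iff (by have := bv_pos n; positivity)] at h1
  have h2 := bv_le n hn
  have h3 : (S.card : ℝ) * (1 / ((k0 : ℝ) * Real.sqrt n)) ^ n ≤
      (3 / (k0 : ℝ)) ^ n * (5 ^ n * (1 / Real.sqrt n) ^ n) :=
    h1.trans (mul_le_mul_of_nonneg_left h2 (by positivity))
  have h4 : (3 / (k0 : ℝ)) ^ n * (5 ^ n * (1 / Real.sqrt n) ^ n) =
      15 ^ n * (1 / ((k0 : ℝ) * Real.sqrt n)) ^ n := by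
    rw [← mul_pow, ← mul_pow, ← mul_pow]
    congr 1
    field_simp
    norm_num
  rw [h4] at h3
  exact le_of_mul_le_mul_right h3 (by positivity)

theorem count_good (n : ℕ) (hn : 1 ≤ n) (Gd : Set (E n)) (hGd : MeasurableSet Gd)
    (hv : volume (Qc n \ Gd) ≤ volume (Qc n) / 2) (G : Finset (Fin n → Fin k0))
    (hG : ∀ l, l ∉ G → volume (Pc n l ∩ Gd) ≤ volume (Pc n l) / 4) :
    (k0 : ℝ) ^ n ≤ 3 * G.card := by
  have hn0 : (0 : ℝ) < n := by exact_mod_cast hn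
  have hq : (0 : ℝ) < Real.sqrt n := Real.sqrt_pos.2 hn0
  have hk : (0 : ℝ) < (k0 : ℝ) := by norm_num [k0]
  have hs := side_pos n hn
  set w : ℝ := (1 / ((k0 : ℝ) * Real.sqrt n)) ^ n with hw
  have hwpos : 0 < w := by positivity
  have hvQ : volume (Qc n) = ENNReal.ofReal ((k0 : ℝ) ^ n * w) := by
    rw [vol_Qc n hn, hw, ← mul_pow]
    congr 2
    field_simp
  have hvP : ∀ l, volume (Pc n l) = ENNReal.ofReal w := fun l => vol_Pc n hn l
  have hPf : ∀ l, volume (Pc n l ∩ Gd) ≠ ⊤ := fun l =>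
    ne_top_of_le_ne_top (by rw [hvP l]; exact ENNReal.ofReal_ne_top)
      (measure_mono Set.inter_subset_left)
  have h1 : volume (Qc n ∩ Gd) ≤ ∑ l, volume (Pc n l ∩ Gd) := by
    calc volume (Qc n ∩ Gd) ≤ volume (⋃ l, (Pc n l ∩ Gd)) := by
          apply measure_mono
          rw [← Set.iUnion_inter]
          exact Set.inter_subset_inter_left _ (cover_Pc n hn)
      _ ≤ ∑ l, volume (Pc n l ∩ Gd) := measure_iUnion_fintype_le _ _
  have hQf : volume (Qc n ∩ Gd) ≠ ⊤ :=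
    ne_top_of_le_ne_top (by rw [hvQ]; exact ENNReal.ofReal_ne_top)
      (measure_mono Set.inter_subset_left)
  have h2 : (volume (Qc n ∩ Gd)).toReal ≤ ∑ l, (volume (Pc n l ∩ Gd)).toReal := by
    rw [← ENNReal.toReal_sum (fun l _ => hPf l)]
    exact ENNReal.toReal_mono (ENNReal.sum_ne_top.2 fun l _ => hPf l) h1
  have hkw : 0 ≤ (k0 : ℝ) ^ n * w := by positivity
  have h3 : (k0 : ℝ) ^ n * w ≤ (volume (Qc n ∩ Gd)).toReal + (k0 : ℝ) ^ n * w / 2 := by
    have h4 : volume (Qc n) = volume (Qc n ∩ Gd) + volume (Qc n \ Gd) :=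
      (measure_inter_add_sdiff (Qc n) hGd).symm
    have h5 : volume (Qc n) ≤ volume (Qc n ∩ Gd) + volume (Qc n) / 2 := by
      calc volume (Qc n) = volume (Qc n ∩ Gd) + volume (Qc n \ Gd) := h4
        _ ≤ _ := by gcongr
    have h6 := ENNReal.toReal_mono (by
      apply ENNReal.add_ne_top.2 ⟨hQf, _⟩
      rw [hvQ]
      exact ENNReal.div_ne_top ENNReal.ofReal_ne_top (by norm_num)) h5
    rw [ENNReal.toReal_add hQf (by
      rw [hvQ]
      exact ENNReal.div_ne_top ENNReal.ofReal_ne_top (by norm_num)), ENNReal.toReal_div, hvQ,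
      ENNReal.toReal_ofReal hkw] at h6
    simpa using h6
  have h7 : ∑ l, (volume (Pc n l ∩ Gd)).toReal ≤
      ∑ l : Fin n → Fin k0, (w / 4 + if l ∈ G then 3 / 4 * w else 0) := by
    apply Finset.sum_le_sum
    intro l _
    by_cases hl : l ∈ G
    · rw [if_pos hl]
      have : (volume (Pc n l ∩ Gd)).toReal ≤ (volume (Pc n l)).toReal :=
        ENNReal.toReal_mono (by rw [hvP l]; exact ENNReal.ofReal_ne_top)
          (measure_mono Set.inter_subset_left)
      rw [hvP l, ENNReal.toReal_ofReal hwpos.le] at this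
      linarith
    · rw [if_neg hl]
      have := ENNReal.toReal_mono (by
        rw [hvP l]
        exact ENNReal.div_ne_top ENNReal.ofReal_ne_top (by norm_num)) (hG l hl)
      rw [ENNReal.toReal_div, hvP l, ENNReal.toReal_ofReal hwpos.le] at this
      simpa using this
  rw [Finset.sum_add_distrib, Finset.sum_const, Finset.sum_ite_mem, Finset.univ_inter,
    Finset.sum_const, Finset.card_univ, Fintype.card_fun, Fintype.card_fin, Fintype.card_fin,
    nsmul_eq_mul, nsmul_eq_mul, Nat.cast_pow] at h7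
  have h8 : (k0 : ℝ) ^ n * w ≤ (3 * G.card) * w := by nlinarith
  exact le_of_mul_le_mul_right h8 hwpos

theorem exp_numeric (n : ℕ) (hn : 2 ≤ n) :
    3 * (Real.exp (4 * n) * (Real.exp (4 * n) * 15 ^ n)) ≤ (k0 : ℝ) ^ n := by
  have h1 : Real.exp (4 * n) = (Real.exp 1 ^ 4) ^ n := by
    rw [← Real.exp_nat_mul, ← Real.exp_nat_mul]
    congr 1
    push_cast
    ring
  have h2 : Real.exp 1 < 2.7182818286 := Real.exp_one_lt_d9
  have h3 : Real.exp 1 ^ 4 ≤ 55 := by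
    calc Real.exp 1 ^ 4 ≤ 2.7182818286 ^ 4 := pow_le_pow_left₀ (Real.exp_pos 1).le h2.le 4
      _ ≤ 55 := by norm_num
  have h4 : Real.exp (4 * n) * (Real.exp (4 * n) * 15 ^ n) ≤ 45375 ^ n := by
    rw [h1]
    calc (Real.exp 1 ^ 4) ^ n * ((Real.exp 1 ^ 4) ^ n * 15 ^ n) ≤ 55 ^ n * (55 ^ n * 15 ^ n) := by
          gcongr
      _ = 45375 ^ n := by rw [← mul_pow, ← mul_pow]; norm_num
  have h5 : (3 : ℝ) ≤ 2 ^ n := by
    calc (3 : ℝ) ≤ 2 ^ 2 := by norm_num
      _ ≤ 2 ^ n := pow_le_pow_right₀ (by norm_num) hn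
  calc 3 * (Real.exp (4 * n) * (Real.exp (4 * n) * 15 ^ n)) ≤ 2 ^ n * 45375 ^ n := by gcongr
    _ = 90750 ^ n := by rw [← mul_pow]; norm_num
    _ ≤ (k0 : ℝ) ^ n := by
        apply pow_le_pow_left₀ (by norm_num)
        norm_num [k0]

/-- Many good blocks, pairwise far for the set of centers `T`. -/
theorem sel_blocks10 : ∃ n0 : ℕ, ∀ n ≥ n0, ∀ (T : Finset (E n)) (Gd : Set (E n)),
    MeasurableSet Gd → T.Nonempty → (T.card : ℝ) ≤ Real.exp (2 * n) →
    volume (Qc n \ Gd) ≤ volume (Qc n) / 2 →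
    ∃ L : Finset (Fin n → Fin k0),
      Real.exp (4 * n) ≤ L.card ∧
      (∀ l ∈ L, volume (Pc n l) / 4 ≤ volume (Pc n l ∩ Gd)) ∧
      ∀ l ∈ L, ∀ l' ∈ L, l ≠ l' → ∀ x ∈ Pc n l, ∀ x' ∈ Pc n l', ∀ t ∈ T, ∀ t' ∈ T,
        (1 / (k0 : ℝ)) < ‖(x - t) - (x' - t')‖ := by
  classical
  refine ⟨2, ?_⟩
  intro n hn2 T Gd hGd hT hcard hv
  have hn : 1 ≤ n := by omega
  have hn0 : (0 : ℝ) < n := by exact_mod_cast hn
  have hk : (0 : ℝ) < (k0 : ℝ) := by norm_num [k0]
  set G : Finset (Fin n → Fin k0) :=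
    Finset.univ.filter (fun l => volume (Pc n l) / 4 ≤ volume (Pc n l ∩ Gd)) with hG
  have hGcard : (k0 : ℝ) ^ n ≤ 3 * G.card := by
    apply count_good n hn Gd hGd hv
    intro l hl
    have : ¬ (volume (Pc n l) / 4 ≤ volume (Pc n l ∩ Gd)) := fun h =>
      hl (Finset.mem_filter.2 ⟨Finset.mem_univ _, h⟩)
    exact (not_le.1 this).le
  set R : (Fin n → Fin k0) → (Fin n → Fin k0) → Prop := fun l l' =>
    ∃ x ∈ Pc n l, ∃ x' ∈ Pc n l', ∃ t ∈ T, ∃ t' ∈ T,
      ‖(x - t) - (x' - t')‖ ≤ 1 / (k0 : ℝ) with hR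
  have hsym : ∀ a b, R a b → R b a := by
    rintro a b ⟨x, hx, x', hx', t, ht, t', ht', h⟩
    exact ⟨x', hx', x, hx, t', ht', t, ht, by rw [norm_sub_rev]; exact h⟩
  have hcorner : ∀ l : Fin n → Fin k0, (Pc n l).Nonempty := by
    intro l
    refine ⟨WithLp.toLp 2 (fun i => (l i : ℝ) / (k0 * Real.sqrt n)), fun i => ?_⟩
    have hq : (0 : ℝ) < Real.sqrt n := Real.sqrt_pos.2 hn0
    refine ⟨le_refl _, ?_⟩
    show (l i : ℝ) / (k0 * Real.sqrt n) < ((l i : ℝ) + 1) / (k0 * Real.sqrt n)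
    gcongr
    linarith
  have hrefl : ∀ a ∈ G, R a a := by
    intro a _
    obtain ⟨x, hx⟩ := hcorner a
    obtain ⟨t, ht⟩ := hT
    refine ⟨x, hx, x, hx, t, ht, t, ht, ?_⟩
    rw [sub_self, norm_zero]
    positivity
  have hdeg : ∀ a ∈ G, ((G.filter (R a)).card : ℝ) ≤ Real.exp (4 * n) * 15 ^ n := by
    intro a _
    obtain ⟨c, hc⟩ := hcorner a
    set N : E n × E n → Finset (Fin n → Fin k0) := fun q =>
      Finset.univ.filter (fun l' => Pc n l' ⊆
        Metric.closedBall (c - q.1 + q.2) (3 / (k0 : ℝ))) with hN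
    have hsub : G.filter (R a) ⊆ (T ×ˢ T).biUnion N := by
      intro l' hl'
      obtain ⟨_, x, hx, x', hx', t, ht, t', ht', h⟩ := Finset.mem_filter.1 hl'
      rw [Finset.mem_biUnion]
      refine ⟨(t, t'), Finset.mem_product.2 ⟨ht, ht'⟩, ?_⟩
      rw [hN, Finset.mem_filter]
      refine ⟨Finset.mem_univ _, ?_⟩
      intro y hy
      rw [Metric.mem_closedBall, dist_eq_norm]
      have e1 : y - (c - t + t') = (y - x') + ((x' - t') - (x - t)) + (x - c) := by abel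
      have h1 := diam_Pc n hn l' hy hx'
      have h2 := diam_Pc n hn a hx hc
      rw [norm_sub_rev] at h
      show ‖y - (c - t + t')‖ ≤ _
      rw [e1]
      calc ‖(y - x') + ((x' - t') - (x - t)) + (x - c)‖
          ≤ ‖y - x'‖ + ‖(x' - t') - (x - t)‖ + ‖x - c‖ := norm_add₃_le
        _ ≤ 1 / (k0 : ℝ) + 1 / (k0 : ℝ) + 1 / (k0 : ℝ) := by gcongr
        _ = 3 / (k0 : ℝ) := by ring
    have hT2 : ((T ×ˢ T).card : ℝ) ≤ Real.exp (4 * n) := by
      rw [Finset.card_product, Nat.cast_mul]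
      calc (T.card : ℝ) * T.card ≤ Real.exp (2 * n) * Real.exp (2 * n) := by gcongr
        _ = Real.exp (4 * n) := by rw [← Real.exp_add]; congr 1; ring
    calc ((G.filter (R a)).card : ℝ) ≤ (((T ×ˢ T).biUnion N).card : ℝ) := by
          exact_mod_cast Finset.card_le_card hsub
      _ ≤ ∑ q ∈ T ×ˢ T, ((N q).card : ℝ) := by exact_mod_cast Finset.card_biUnion_le
      _ ≤ ∑ _q ∈ T ×ˢ T, (15 : ℝ) ^ n := by
          apply Finset.sum_le_sum
          intro q _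
          apply count_ball n hn (c - q.1 + q.2)
          intro l hl
          exact (Finset.mem_filter.1 hl).2
      _ = ((T ×ˢ T).card : ℝ) * 15 ^ n := by rw [Finset.sum_const, nsmul_eq_mul]
      _ ≤ Real.exp (4 * n) * 15 ^ n := by gcongr
  obtain ⟨L, hLG, hLind, hLcard⟩ := exists_indep G R hsym hrefl _ hdeg
  refine ⟨L, ?_, ?_, ?_⟩
  · have h1 := exp_numeric n hn2
    have h2 : 3 * (Real.exp (4 * n) * (Real.exp (4 * n) * 15 ^ n)) ≤
        3 * (L.card * (Real.exp (4 * n) * 15 ^ n)) := by linarith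
    have h3 : 0 < Real.exp (4 * n) * (15 : ℝ) ^ n := by positivity
    have h4 := le_of_mul_le_mul_left h2 (by norm_num : (0 : ℝ) < 3)
    exact le_of_mul_le_mul_right h4 h3
  · intro l hl
    exact (Finset.mem_filter.1 (hLG hl)).2
  · intro l hl l' hl' hne x hx x' hx' t ht t' ht'
    by_contra hcon
    push Not at hcon
    exact hLind l hl l' hl' hne ⟨x, hx, x', hx', t, ht, t', ht', hcon⟩

end Cov
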